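import Vale.Agent.P097.H140.Ubar2

open MeasureTheory Set Filter Topology ComplexConjugate

namespace Vale.Agent.P097.H140

/-- mean value inequality for the regularised logarithm -/
theorem submean {y : ℂ → ℂ} {z1 : ℂ} {r ε : ℝ} (hr : 0 < r) (hε : 0 < ε)
    (hy : AnalyticOnNhd ℂ y (Metric.closedBall z1 r)) :
    uu ε y z1 ≤ Real.circleAverage (uu ε y) z1 r := by
  set s : ℝ := Real.sqrt (NN ε y z1) with hs
  have hN := NN_pos hε y z1
  have hspos : 0 < s := Real.sqrt_pos.mpr hN
  have hs2 : s^2 = ‖y z1‖^2 + ε^2 := Real.sq_sqrt hN.le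
  -- the auxiliary analytic function
  set a : ℂ := conj (y z1) / s with ha
  set f : ℂ → ℂ := fun w => (a * y w + ((ε/s : ℝ) : ℂ) * (ε : ℂ)) * ((ε⁻¹ : ℝ) : ℂ) with hf
  have hfan : AnalyticOnNhd ℂ f (Metric.closedBall z1 |r|) := by
    rw [abs_of_pos hr]
    intro w hw
    exact ((analyticAt_const.mul (hy w hw)).add analyticAt_const).mul analyticAt_const
  have hsC : (s : ℂ) ≠ 0 := by exact_mod_cast hspos.ne'
  have hf1 : f z1 = ((s * ε⁻¹ : ℝ) : ℂ) := by
    simp only [hf, ha]
    have e1 : conj (y z1) * y z1 = ((‖y z1‖^2 : ℝ) : ℂ) := by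
      rw [← Complex.normSq_eq_conj_mul_self, Complex.normSq_eq_norm_sq]
    have e2 : conj (y z1) / (s:ℂ) * y z1 + ((ε/s : ℝ) : ℂ) * (ε : ℂ) = ((s : ℝ) : ℂ) := by
      have : conj (y z1) / (s:ℂ) * y z1 = (conj (y z1) * y z1) / s := by ring
      rw [this, e1]
      push_cast
      field_simp
      exact_mod_cast hs2.symm
    rw [e2]
    push_cast; ring
  have hfne : f z1 ≠ 0 := by
    rw [hf1]
    exact_mod_cast (mul_pos hspos (inv_pos.mpr hε)).ne'
  -- pointwise bound
  have hle : ∀ w, Real.log ‖f w‖ ≤ uu ε y w - Real.log ε := by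
    intro w
    have hNw := NN_pos hε y w
    have key : ‖f w‖ * ε ≤ Real.sqrt (NN ε y w) := by
      apply Real.le_sqrt_of_sq_le
      have h1 : ‖f w‖ * ε = ‖a * y w + ((ε/s : ℝ) : ℂ) * (ε : ℂ)‖ := by
        simp only [hf, norm_mul, Complex.norm_real, Real.norm_eq_abs, abs_of_pos (inv_pos.mpr hε)]
        field_simp
      rw [h1]
      have h2 : ‖a * y w + ((ε/s : ℝ) : ℂ) * (ε : ℂ)‖ ≤ ‖y z1‖/s * ‖y w‖ + ε/s * ε := by
        refine (norm_add_le _ _).trans ?_
        simp only [norm_mul, ha, norm_div, Complex.norm_real, Real.norm_eq_abs, abs_of_pos hspos,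
          RCLike.norm_conj, abs_of_pos hε]
        exact le_rfl
      have h3 : 0 ≤ ‖y z1‖/s * ‖y w‖ + ε/s * ε := by positivity
      calc ‖a * y w + ((ε/s : ℝ) : ℂ) * (ε : ℂ)‖^2 ≤ (‖y z1‖/s * ‖y w‖ + ε/s * ε)^2 := by
            gcongr
        _ ≤ (‖y z1‖^2 + ε^2)/s^2 * (‖y w‖^2 + ε^2) := by
            have : (‖y z1‖/s * ‖y w‖ + ε/s * ε)^2 = (‖y z1‖ * ‖y w‖ + ε * ε)^2/s^2 := by
              field_simp
            rw [this, div_mul_eq_mul_div]
            gcongr
            nlinarith [sq_nonneg (‖y z1‖ * ε - ‖y w‖ * ε)]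
        _ = NN ε y w := by rw [← hs2]; unfold NN; field_simp
    rcases eq_or_ne (f w) 0 with h0 | h0
    · rw [h0, norm_zero, Real.log_zero]
      unfold uu
      have : ε^2 ≤ NN ε y w := by unfold NN; nlinarith [sq_nonneg ‖y w‖]
      have h4 := Real.log_le_log (by positivity) this
      rw [Real.log_pow] at h4
      push_cast at h4
      linarith
    · have hfp : 0 < ‖f w‖ := norm_pos_iff.mpr h0
      have h5 := Real.log_le_log (by positivity) key
      rw [Real.log_mul hfp.ne' hε.ne', Real.log_sqrt hNw.le] at h5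
      unfold uu
      linarith
  -- Jensen
  have J := hfan.circleAverage_log_norm hr.ne' hfne
  have hsum : 0 ≤ ∑ᶠ u, MeromorphicOn.divisor f (Metric.closedBall z1 |r|) u *
      Real.log (r * ‖z1 - u‖⁻¹) := by
    refine finsum_nonneg fun u => ?_
    by_cases hu : u ∈ Metric.closedBall z1 |r|
    · rcases eq_or_ne (‖z1 - u‖) 0 with h0 | h0
      · rw [h0]; simp
      · refine mul_nonneg (mod_cast MeromorphicOn.AnalyticOnNhd.divisor_nonneg hfan u) ?_
        apply Real.log_nonneg
        rw [Metric.mem_closedBall, dist_eq_norm', abs_of_pos hr] at hu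
        have : 0 < ‖z1 - u‖ := lt_of_le_of_ne (norm_nonneg _) (Ne.symm h0)
        rw [← div_eq_mul_inv, le_div_iff₀ this]
        linarith
    · simp [hu]
  have hcu : ContinuousOn (uu ε y) (Metric.closedBall z1 r) := by
    unfold uu NN
    refine continuousOn_const.mul (ContinuousOn.log ?_ ?_)
    · exact (hy.continuousOn.norm.pow 2).add continuousOn_const
    · intro w _
      exact (NN_pos hε y w).ne'
  have ci2 : CircleIntegrable (fun w => uu ε y w - Real.log ε) z1 r := by
    refine ContinuousOn.circleIntegrable hr.le ?_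
    exact (hcu.mono Metric.sphere_subset_closedBall).sub continuousOn_const
  have ci0 : CircleIntegrable (uu ε y) z1 r :=
    ContinuousOn.circleIntegrable hr.le (hcu.mono Metric.sphere_subset_closedBall)
  have ci1 : CircleIntegrable (fun w => Real.log ‖f w‖) z1 r := by
    have : AnalyticOnNhd ℂ f (Metric.sphere z1 |r|) := hfan.mono Metric.sphere_subset_closedBall
    exact this.meromorphicOn.circleIntegrable_log_norm
  have m := Real.circleAverage_mono ci1 ci2 (fun w _ => hle w)
  have e3 : Real.circleAverage (fun w => uu ε y w - Real.log ε) z1 r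
      = Real.circleAverage (uu ε y) z1 r - Real.log ε := by
    have := Real.circleAverage_sub (f₁ := uu ε y) (f₂ := fun _ => Real.log ε) ci0
      (circleIntegrable_const _ _ _)
    simp only [Real.circleAverage_const] at this
    exact this
  rw [e3, J, hf1, Complex.norm_real, Real.norm_eq_abs,
    abs_of_pos (mul_pos hspos (inv_pos.mpr hε)), Real.log_mul hspos.ne' (inv_pos.mpr hε).ne',
    Real.log_inv, hs, Real.log_sqrt hN.le] at m
  have : uu ε y z1 = Real.log (NN ε y z1) / 2 := by unfold uu; ring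
  rw [this]
  linarith

/-- disc in the parameter plane -/
def Dsk (p1 : ℝ × ℝ) (ρ : ℝ) : Set (ℝ × ℝ) := {p | (p.1 - p1.1)^2 + (p.2 - p1.2)^2 < ρ^2}

lemma Dsk_open (p1 : ℝ × ℝ) (ρ : ℝ) : IsOpen (Dsk p1 ρ) :=
  isOpen_lt (by fun_prop) continuous_const

theorem area {w : ℝ × ℝ → ℝ} {p1 : ℝ × ℝ} {ρ c : ℝ} (hρ : 0 < ρ) (hc : 0 ≤ c)
    (hwc : ContinuousOn w (Dsk p1 ρ)) (hw0 : ∀ p ∈ Dsk p1 ρ, 0 ≤ w p)
    (hcirc : ∀ r ∈ Ioo 0 ρ, ∫ θ in (-Real.pi)..Real.pi,
      w (p1.1 + r * Real.cos θ, p1.2 + r * Real.sin θ) ≤ c)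
    {S : Set (ℝ × ℝ)} (hS : MeasurableSet S) (hSB : S ⊆ Dsk p1 ρ) :
    ∫ p in S, w p ≤ ρ^2 * c := by
  classical
  set B := Dsk p1 ρ with hB
  have hBm : MeasurableSet B := (Dsk_open p1 ρ).measurableSet
  set G : ℝ × ℝ → ENNReal := fun p => ENNReal.ofReal (B.indicator w p) with hG
  have hind : Measurable (B.indicator w) := by
    rw [← Set.piecewise_eq_indicator]
    exact ContinuousOn.measurable_piecewise hwc continuousOn_const hBm
  have hGm : Measurable G := hind.ennreal_ofReal
  -- the key estimate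
  have key : ∫⁻ p, G p ≤ ENNReal.ofReal (ρ^2 * c) := by
    have e1 : ∫⁻ p, G p = ∫⁻ p, G (p + p1) := (lintegral_add_right_eq_self G p1).symm
    rw [e1, ← lintegral_comp_polarCoord_symm]
    have htgt : polarCoord.target = Ioi (0:ℝ) ×ˢ Ioo (-Real.pi) Real.pi := rfl
    rw [htgt]
    have e2 : (volume : Measure (ℝ × ℝ)).restrict (Ioi (0:ℝ) ×ˢ Ioo (-Real.pi) Real.pi)
        = (volume.restrict (Ioi (0:ℝ))).prod (volume.restrict (Ioo (-Real.pi) Real.pi)) :=
      (Measure.prod_restrict _ _).symm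
    rw [e2]
    refine (lintegral_prod_le _).trans ?_
    have hin : ∀ r ∈ Ioi (0:ℝ), ∫⁻ θ, ENNReal.ofReal r • G (polarCoord.symm (r, θ) + p1)
        ∂(volume.restrict (Ioo (-Real.pi) Real.pi))
        ≤ (Ioo (0:ℝ) ρ).indicator (fun _ => ENNReal.ofReal (ρ * c)) r := by
      intro r hr
      have hr0 : (0:ℝ) < r := hr
      have hsym : ∀ θ, polarCoord.symm (r, θ) + p1
          = (p1.1 + r * Real.cos θ, p1.2 + r * Real.sin θ) := by
        intro θ
        have : polarCoord.symm (r, θ) = (r * Real.cos θ, r * Real.sin θ) := rfl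
        rw [this]
        ext <;> simp [add_comm]
      by_cases hrρ : r < ρ
      · have hmem : r ∈ Ioo (0:ℝ) ρ := ⟨hr0, hrρ⟩
        rw [Set.indicator_of_mem hmem]
        have hB' : ∀ θ, ((p1.1 + r * Real.cos θ, p1.2 + r * Real.sin θ) : ℝ × ℝ) ∈ B := by
          intro θ
          show (p1.1 + r * Real.cos θ - p1.1)^2 + (p1.2 + r * Real.sin θ - p1.2)^2 < ρ^2
          have : (p1.1 + r * Real.cos θ - p1.1)^2 + (p1.2 + r * Real.sin θ - p1.2)^2 = r^2 := by
            have := Real.sin_sq_add_cos_sq θ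
            nlinarith
          rw [this]
          exact pow_lt_pow_left₀ hrρ hr0.le (by norm_num)
        have hcont : Continuous (fun θ : ℝ => w (p1.1 + r * Real.cos θ, p1.2 + r * Real.sin θ)) := by
          have := hwc.comp (f := fun θ : ℝ => ((p1.1 + r * Real.cos θ, p1.2 + r * Real.sin θ) : ℝ × ℝ))
            (s := univ) (by fun_prop) (fun θ _ => hB' θ)
          exact continuousOn_univ.mp this
        have e3 : ∫⁻ θ, ENNReal.ofReal r • G (polarCoord.symm (r, θ) + p1)
            ∂(volume.restrict (Ioo (-Real.pi) Real.pi))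
            = ENNReal.ofReal r * ENNReal.ofReal (∫ θ in Ioo (-Real.pi) Real.pi,
              w (p1.1 + r * Real.cos θ, p1.2 + r * Real.sin θ)) := by
          have e4 : ∀ θ, ENNReal.ofReal r • G (polarCoord.symm (r, θ) + p1)
              = ENNReal.ofReal r * ENNReal.ofReal
                (w (p1.1 + r * Real.cos θ, p1.2 + r * Real.sin θ)) := by
            intro θ
            rw [hsym θ, hG]
            simp only [smul_eq_mul]
            rw [Set.indicator_of_mem (hB' θ)]
          simp_rw [e4]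
          rw [lintegral_const_mul' _ _ ENNReal.ofReal_ne_top]
          rw [ofReal_integral_eq_lintegral_ofReal]
          · exact (hcont.integrableOn_Icc (a := -Real.pi) (b := Real.pi)).mono_set Ioo_subset_Icc_self
          · exact Eventually.of_forall fun θ => hw0 _ (hB' θ)
        rw [e3, ← ENNReal.ofReal_mul hr0.le]
        apply ENNReal.ofReal_le_ofReal
        have h5 : ∫ θ in Ioo (-Real.pi) Real.pi, w (p1.1 + r * Real.cos θ, p1.2 + r * Real.sin θ)
            ≤ c := by
          have := hcirc r hmem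
          rw [intervalIntegral.integral_of_le (by linarith [Real.pi_pos]),
            integral_Ioc_eq_integral_Ioo] at this
          exact this
        calc r * ∫ θ in Ioo (-Real.pi) Real.pi, w (p1.1 + r * Real.cos θ, p1.2 + r * Real.sin θ)
            ≤ r * c := mul_le_mul_of_nonneg_left h5 hr0.le
          _ ≤ ρ * c := mul_le_mul_of_nonneg_right hrρ.le hc
      · have hz : ∀ θ, G (polarCoord.symm (r, θ) + p1) = 0 := by
          intro θ
          rw [hsym θ, hG]
          simp only
          rw [Set.indicator_of_notMem, ENNReal.ofReal_zero]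
          intro hmem
          have h6 : (p1.1 + r * Real.cos θ - p1.1)^2 + (p1.2 + r * Real.sin θ - p1.2)^2 < ρ^2 := hmem
          have h7 : (p1.1 + r * Real.cos θ - p1.1)^2 + (p1.2 + r * Real.sin θ - p1.2)^2 = r^2 := by
            have := Real.sin_sq_add_cos_sq θ
            nlinarith
          rw [h7] at h6
          have h8 : ρ ≤ r := not_lt.mp hrρ
          nlinarith
        have hz' : ∫⁻ θ, ENNReal.ofReal r • G (polarCoord.symm (r, θ) + p1)
            ∂(volume.restrict (Ioo (-Real.pi) Real.pi)) = 0 := by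
          rw [lintegral_congr (fun θ => by rw [hz θ, smul_zero]), lintegral_zero]
        rw [hz']
        exact zero_le
    calc ∫⁻ r, ∫⁻ θ, ENNReal.ofReal r • G (polarCoord.symm (r, θ) + p1)
          ∂(volume.restrict (Ioo (-Real.pi) Real.pi)) ∂(volume.restrict (Ioi (0:ℝ)))
        ≤ ∫⁻ r, (Ioo (0:ℝ) ρ).indicator (fun _ => ENNReal.ofReal (ρ * c)) r
            ∂(volume.restrict (Ioi (0:ℝ))) := by
          refine setLIntegral_mono' measurableSet_Ioi hin
      _ ≤ ∫⁻ r, (Ioo (0:ℝ) ρ).indicator (fun _ => ENNReal.ofReal (ρ * c)) r :=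
          lintegral_mono' Measure.restrict_le_self le_rfl
      _ = ENNReal.ofReal (ρ * c) * ENNReal.ofReal ρ := by
          rw [lintegral_indicator_const measurableSet_Ioo, Real.volume_Ioo, sub_zero]
      _ = ENNReal.ofReal (ρ^2 * c) := by
          rw [← ENNReal.ofReal_mul (by positivity)]
          congr 1; ring
  have h1 : ∫⁻ p in S, ENNReal.ofReal (w p) ≤ ∫⁻ p, G p := by
    calc ∫⁻ p in S, ENNReal.ofReal (w p) = ∫⁻ p in S, G p := by
          refine setLIntegral_congr_fun hS (fun p hp => ?_)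
          rw [hG]
          simp only
          rw [Set.indicator_of_mem (hSB hp)]
      _ ≤ ∫⁻ p, G p := setLIntegral_le_lintegral _ _
  have h2 : ∫ p in S, w p = (∫⁻ p in S, ENNReal.ofReal (w p)).toReal := by
    rw [integral_eq_lintegral_of_nonneg_ae]
    · rw [Filter.EventuallyLE, ae_restrict_iff' hS]
      exact Eventually.of_forall fun p hp => hw0 p (hSB hp)
    · exact (hwc.mono hSB).aestronglyMeasurable hS
  rw [h2]
  refine ENNReal.toReal_le_of_le_ofReal (by positivity) (h1.trans key)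

end Vale.Agent.P097.H140
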