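import Mathlib

open MeasureTheory Set Filter Topology

namespace Vale.Agent.P097.H140

theorem ae0 {F : ℕ → ℝ → ℝ} {a : ℕ → ℝ} (hF : ∀ k, Continuous (F k)) (h0 : ∀ k x, 0 ≤ F k x)
    (ha : Summable a) (hI : ∀ k, ∫ x in (0:ℝ)..1, F k x ≤ a k) :
    ∀ᵐ x ∂(volume.restrict (Ioc (0:ℝ) 1)), Tendsto (fun k => F k x) atTop (𝓝 0) := by
  have hFm : ∀ k, Measurable (fun x => ENNReal.ofReal (F k x)) := fun k =>
    (hF k).measurable.ennreal_ofReal
  have h1 : ∫⁻ x in Ioc (0:ℝ) 1, ∑' k, ENNReal.ofReal (F k x) ≤ ∑' k, ENNReal.ofReal (a k) := by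
    rw [lintegral_tsum (fun k => (hFm k).aemeasurable)]
    refine ENNReal.tsum_le_tsum fun k => ?_
    have hint : IntegrableOn (F k) (Ioc (0:ℝ) 1) :=
      ((hF k).integrableOn_Icc (a := 0) (b := 1)).mono_set Ioc_subset_Icc_self
    rw [← ofReal_integral_eq_lintegral_ofReal hint (Eventually.of_forall fun x => h0 k x)]
    apply ENNReal.ofReal_le_ofReal
    have := hI k
    rwa [intervalIntegral.integral_of_le zero_le_one] at this
  have h2 : ∑' k, ENNReal.ofReal (a k) ≠ ⊤ := by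
    have ha0 : ∀ k, 0 ≤ a k := by
      intro k
      refine le_trans ?_ (hI k)
      rw [intervalIntegral.integral_of_le zero_le_one]
      exact integral_nonneg fun x => h0 k x
    rw [← ENNReal.ofReal_tsum_of_nonneg ha0 ha]
    exact ENNReal.ofReal_ne_top
  have h3 : ∀ᵐ x ∂(volume.restrict (Ioc (0:ℝ) 1)), ∑' k, ENNReal.ofReal (F k x) < ⊤ :=
    ae_lt_top (Measurable.tsum hFm) (ne_top_of_le_ne_top h2 h1)
  filter_upwards [h3] with x hx
  have h4 := ENNReal.tendsto_atTop_zero_of_tsum_ne_top hx.ne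
  have h5 := (ENNReal.tendsto_toReal ENNReal.zero_ne_top).comp h4
  simp only [ENNReal.toReal_zero] at h5
  refine h5.congr fun k => ?_
  simp only [Function.comp_apply]
  exact ENNReal.toReal_ofReal (h0 k x)

theorem bc {C : ℝ} (hC : 0 ≤ C) (w : ℕ → ℕ → ℝ → ℝ) (hw : ∀ j m, Continuous (w j m))
    (h0 : ∀ j, ∀ x ∈ Ioc (0:ℝ) 1, -C ≤ w j 0 x)
    (hinc : ∀ j n m : ℕ, n ≤ m →
      ∫ x in (0:ℝ)..1, (max 0 (w j n x - w j m x))^2 ≤ C * (1 + ((m:ℝ) - n))) :
    ∀ᵐ x ∂(volume.restrict (Ioc (0:ℝ) 1)), ∀ᶠ j : ℕ in atTop, ∀ m : ℕ, j^2 ≤ m → m ≤ (j+1)^2 →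
      -((j:ℝ)^(8/5:ℝ)) ≤ w j m x := by
  set S : ℕ → ℝ → ℝ := fun j x => (max 0 (w j 0 x - w j (j^2) x))^2
    + ∑ i ∈ Finset.range (2*j+2), (max 0 (w j (j^2) x - w j (j^2+i) x))^2 with hS
  have hcont : ∀ j n m, Continuous (fun x => (max 0 (w j n x - w j m x))^2) := by
    intro j n m
    have := hw j n
    have := hw j m
    fun_prop
  have hSc : ∀ j, Continuous (S j) := by
    intro j
    exact (hcont j 0 (j^2)).add (continuous_finsetSum _ fun i _ => hcont j (j^2) (j^2+i))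
  have hS0 : ∀ j x, 0 ≤ S j x := by
    intro j x
    simp only [hS]
    have : 0 ≤ ∑ i ∈ Finset.range (2*j+2), (max 0 (w j (j^2) x - w j (j^2+i) x))^2 :=
      Finset.sum_nonneg fun i _ => sq_nonneg _
    positivity
  have hSI : ∀ j, ∫ x in (0:ℝ)..1, S j x ≤ 5 * C * ((j:ℝ)+1)^2 := by
    intro j
    simp only [hS]
    rw [intervalIntegral.integral_add ((hcont j 0 (j^2)).intervalIntegrable _ _)
      ((continuous_finsetSum _ fun i _ => hcont j (j^2) (j^2+i)).intervalIntegrable _ _),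
      intervalIntegral.integral_finsetSum
        (fun i _ => (hcont j (j^2) (j^2+i)).intervalIntegrable _ _)]
    have a1 := hinc j 0 (j^2) (Nat.zero_le _)
    push_cast at a1
    have a2 : ∑ i ∈ Finset.range (2*j+2), ∫ x in (0:ℝ)..1,
        (max 0 (w j (j^2) x - w j (j^2+i) x))^2
        ≤ ∑ i ∈ Finset.range (2*j+2), C * (2*j+2) := by
      refine Finset.sum_le_sum fun i hi => ?_
      have b1 := hinc j (j^2) (j^2+i) (Nat.le_add_right _ _)
      push_cast at b1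
      refine b1.trans ?_
      have hi' : i + 1 ≤ 2*j+2 := Finset.mem_range.mp hi
      have hi'' : (i:ℝ) + 1 ≤ 2*j+2 := by exact_mod_cast hi'
      have : 1 + ((j:ℝ)^2 + i - (j:ℝ)^2) ≤ 2*j+2 := by linarith
      exact mul_le_mul_of_nonneg_left this hC
    rw [Finset.sum_const, Finset.card_range, nsmul_eq_mul] at a2
    push_cast at a2
    have hj : (0:ℝ) ≤ j := Nat.cast_nonneg j
    nlinarith [mul_nonneg hC hj, mul_nonneg hC (sq_nonneg (j:ℝ))]
  -- normalise
  set F : ℕ → ℝ → ℝ := fun j x => S j x / ((j:ℝ)+1)^(16/5:ℝ) with hF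
  have hpos : ∀ j : ℕ, (0:ℝ) < (j:ℝ)+1 := fun j => by positivity
  have hsum : Summable (fun j : ℕ => 5 * C * ((j:ℝ)+1)^(-(6/5):ℝ)) := by
    apply Summable.mul_left
    have := (Real.summable_nat_rpow (p := -(6/5))).mpr (by norm_num)
    have := (summable_nat_add_iff 1).mpr this
    refine this.congr fun j => ?_
    push_cast; rfl
  have hae := ae0 (F := F) (a := fun j : ℕ => 5 * C * ((j:ℝ)+1)^(-(6/5):ℝ))
    (fun j => (hSc j).div_const _)
    (fun j x => div_nonneg (hS0 j x) (Real.rpow_nonneg (hpos j).le _)) hsum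
    (fun j => by
      simp only [hF]
      rw [intervalIntegral.integral_div, div_le_iff₀ (Real.rpow_pos_of_pos (hpos j) _)]
      refine (hSI j).trans (le_of_eq ?_)
      have e : ((j:ℝ)+1)^(-(6/5):ℝ) * ((j:ℝ)+1)^(16/5:ℝ) = ((j:ℝ)+1)^2 := by
        rw [← Real.rpow_add (hpos j), ← Real.rpow_natCast]
        norm_num
      rw [mul_assoc (5 * C), e])
  filter_upwards [hae, ae_restrict_mem measurableSet_Ioc] with x hx hxm
  have e1 : ∀ᶠ j : ℕ in atTop, F j x ≤ 1/160 := hx.eventually (ge_mem_nhds (by norm_num))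
  have e2 : ∀ᶠ j : ℕ in atTop, 2 * C ≤ (j:ℝ)^(8/5:ℝ) := by
    have : Tendsto (fun j : ℕ => (j:ℝ)^(8/5:ℝ)) atTop atTop :=
      (tendsto_rpow_atTop (by norm_num)).comp tendsto_natCast_atTop_atTop
    exact this.eventually_ge_atTop _
  filter_upwards [e1, e2, eventually_ge_atTop 1] with j h1 h2 hj1 m hm1 hm2
  have hj1' : (1:ℝ) ≤ j := by exact_mod_cast hj1
  have hj0 : (0:ℝ) < j := by linarith
  have hSle : S j x ≤ (1/16) * (j:ℝ)^(16/5:ℝ) := by
    have h3 : S j x ≤ (1/160) * ((j:ℝ)+1)^(16/5:ℝ) := by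
      simp only [hF] at h1
      rwa [div_le_iff₀ (Real.rpow_pos_of_pos (hpos j) _)] at h1
    have h4 : ((j:ℝ)+1)^(16/5:ℝ) ≤ 10 * (j:ℝ)^(16/5:ℝ) := by
      have h5 : ((j:ℝ)+1) ≤ 2 * j := by linarith
      have h6 : ((j:ℝ)+1)^(16/5:ℝ) ≤ (2 * j)^(16/5:ℝ) :=
        Real.rpow_le_rpow (hpos j).le h5 (by norm_num)
      rw [Real.mul_rpow (by norm_num) hj0.le] at h6
      have h7 : (2:ℝ)^(16/5:ℝ) ≤ 10 := by
        have : ((2:ℝ)^(16/5:ℝ))^5 ≤ 10^5 := by
          rw [← Real.rpow_natCast ((2:ℝ)^(16/5:ℝ)) 5, ← Real.rpow_mul (by norm_num)]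
          norm_num
        exact le_of_pow_le_pow_left₀ (by norm_num) (by norm_num) this
      have h8 : (0:ℝ) ≤ (j:ℝ)^(16/5:ℝ) := Real.rpow_nonneg hj0.le _
      nlinarith
    linarith
  have hsq : ((j:ℝ)^(8/5:ℝ))^2 = (j:ℝ)^(16/5:ℝ) := by
    rw [← Real.rpow_natCast, ← Real.rpow_mul hj0.le]; norm_num
  set τ : ℝ := (j:ℝ)^(8/5:ℝ) with hτ
  have hτ0 : 0 ≤ τ := Real.rpow_nonneg hj0.le _
  have p1 : (max 0 (w j 0 x - w j (j^2) x))^2 ≤ S j x := by
    simp only [hS]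
    have : 0 ≤ ∑ i ∈ Finset.range (2*j+2), (max 0 (w j (j^2) x - w j (j^2+i) x))^2 :=
      Finset.sum_nonneg fun i _ => sq_nonneg _
    linarith
  have p2 : (max 0 (w j (j^2) x - w j m x))^2 ≤ S j x := by
    obtain ⟨i, rfl⟩ := Nat.exists_eq_add_of_le hm1
    have hi : i ∈ Finset.range (2*j+2) := by
      rw [Finset.mem_range]
      nlinarith
    have : (max 0 (w j (j^2) x - w j (j^2+i) x))^2
        ≤ ∑ i ∈ Finset.range (2*j+2), (max 0 (w j (j^2) x - w j (j^2+i) x))^2 :=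
      Finset.single_le_sum (f := fun i => (max 0 (w j (j^2) x - w j (j^2+i) x))^2)
        (fun i _ => sq_nonneg _) hi
    simp only [hS]
    have := sq_nonneg (max 0 (w j 0 x - w j (j^2) x))
    linarith
  have q1 : w j 0 x - w j (j^2) x ≤ τ/4 := by
    have : (max 0 (w j 0 x - w j (j^2) x))^2 ≤ (τ/4)^2 := by rw [div_pow, hsq]; linarith
    have := le_of_sq_le_sq this (by positivity)
    exact (le_max_right _ _).trans this
  have q2 : w j (j^2) x - w j m x ≤ τ/4 := by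
    have : (max 0 (w j (j^2) x - w j m x))^2 ≤ (τ/4)^2 := by rw [div_pow, hsq]; linarith
    have := le_of_sq_le_sq this (by positivity)
    exact (le_max_right _ _).trans this
  have := h0 j x hxm
  linarith

/-- from one period to the whole line -/
theorem ae_of_period {P : ℝ → Prop} (h1 : ∀ x, P x → P (x+1)) (h2 : ∀ x, P x → P (x-1))
    (h : ∀ᵐ x ∂(volume.restrict (Ioc (0:ℝ) 1)), P x) : ∀ᵐ x : ℝ, P x := by
  rw [ae_restrict_iff' measurableSet_Ioc] at h
  have hZ : ∀ n : ℤ, ∀ x, P x → P (x + n) := by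
    intro n
    induction n using Int.induction_on with
    | zero => intro x hx; simpa using hx
    | succ i ih =>
      intro x hx
      have := h1 _ (ih x hx)
      push_cast
      rwa [← add_assoc]
    | pred i ih =>
      intro x hx
      have h3 := h2 _ (ih x hx)
      push_cast at h3 ⊢
      have e : x + (-(i:ℝ) - 1) = x + -(i:ℝ) - 1 := by ring
      rw [e]
      exact h3
  have h3 : ∀ n : ℤ, ∀ᵐ x : ℝ, x - n ∈ Ioc (0:ℝ) 1 → P (x - n) := by
    intro n
    have := (measurePreserving_sub_right (volume : Measure ℝ) (n:ℝ)).quasiMeasurePreserving.ae h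
    exact this
  have h4 : ∀ᵐ x : ℝ, ∀ n : ℤ, x - n ∈ Ioc (0:ℝ) 1 → P (x - n) := ae_all_iff.mpr h3
  filter_upwards [h4] with x hx
  set n : ℤ := ⌈x⌉ - 1 with hn
  have hm : x - n ∈ Ioc (0:ℝ) 1 := by
    rw [hn]
    push_cast
    have a1 := Int.le_ceil x
    have a2 := Int.ceil_lt_add_one x
    constructor <;> linarith
  have := hZ n _ (hx n hm)
  simpa using this

end Vale.Agent.P097.H140
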