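import Vale.Agent.P097.H140.Area

open MeasureTheory Set Filter Topology ComplexConjugate

namespace Vale.Agent.P097.H140

/-- doubling of `y` at the point `z` at scale `d` with exponent `k` -/
def Dbl (y : ℂ → ℂ) (z : ℂ) (d k : ℝ) : Prop :=
  ∀ M : ℝ, (∀ w, ‖w - z‖ ≤ d/16 → ‖y w‖ ≤ M) → ∀ w, ‖w - z‖ ≤ d/4 → ‖y w‖ ≤ Real.exp k * M

section
variable {h D : ℝ} {y y1 y2 : ℂ → ℂ} {ε : ℝ}

lemma ball_Str {x d : ℝ} (hd : d ∈ Ioo 0 (D/2)) {w : ℂ} (hw : ‖w - ⟨x, h - d⟩‖ ≤ d/4) :
    w ∈ Str h D := by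
  have h1 : |(w - ⟨x, h - d⟩ : ℂ).im| ≤ d/4 := (Complex.abs_im_le_norm _).trans hw
  rw [Complex.sub_im, abs_le] at h1
  have h2 : ((⟨x, h - d⟩ : ℂ)).im = h - d := rfl
  rw [h2] at h1
  constructor
  · show h - D < w.im
    linarith [hd.1, hd.2, h1.1]
  · show w.im < h
    linarith [hd.1, h1.2]

lemma uu_mono {w z : ℂ} {k : ℝ} (hε : 0 < ε) (hk : 0 ≤ k) (hw : ‖y w‖ ≤ Real.exp k * ‖y z‖) :
    uu ε y w ≤ k + uu ε y z := by
  unfold uu
  have h1 : NN ε y w ≤ Real.exp (2*k) * NN ε y z := by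
    unfold NN
    have e1 : Real.exp (2*k) = Real.exp k ^ 2 := by rw [← Real.exp_nat_mul]; norm_num
    have e2 : 1 ≤ Real.exp k := Real.one_le_exp hk
    have e3 : ‖y w‖^2 ≤ (Real.exp k * ‖y z‖)^2 := by gcongr
    have e4 : ε^2 ≤ Real.exp k ^ 2 * ε^2 := by
      have : 1 ≤ Real.exp k ^ 2 := one_le_pow₀ e2
      nlinarith [sq_nonneg ε]
    rw [e1]
    nlinarith
  have h2 := Real.log_le_log (NN_pos hε y w) h1
  rw [Real.log_mul (Real.exp_pos _).ne' (NN_pos hε y z).ne', Real.log_exp] at h2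
  linarith

/-- the main local estimate -/
theorem defect (H : Hol h D y y1 y2) (hε : 0 < ε) (x : ℝ) {d k : ℝ} (hd : d ∈ Ioo 0 (D/2))
    (hk : 0 ≤ k) (hdb : Dbl y ⟨x, h - d⟩ d k) :
    ∃ z1 : ℂ, ‖z1 - ⟨x, h - d⟩‖ ≤ d/16 ∧ (∀ w, ‖w - ⟨x, h - d⟩‖ ≤ d/16 → ‖y w‖ ≤ ‖y z1‖) ∧
      (∀ w, ‖w - ⟨x, h - d⟩‖ ≤ d/4 → uu ε y w ≤ k + uu ε y z1) ∧
      (∀ p ∈ SS, uu ε y (zz h x d p) ≤ k + uu ε y z1) ∧
      ∫ p in SS, ((k + uu ε y z1) - uu ε y (zz h x d p)) ≤ k := by
  have hd0 : 0 < d := hd.1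
  set z : ℂ := ⟨x, h - d⟩ with hz
  -- the maximum point
  have hcont : ContinuousOn (fun w => ‖y w‖) (Metric.closedBall z (d/16)) := by
    refine (H.c0.norm).mono fun w hw => ?_
    rw [Metric.mem_closedBall, dist_eq_norm] at hw
    exact ball_Str hd (by rw [← hz]; linarith)
  obtain ⟨z1, hz1, hmax⟩ := (isCompact_closedBall z (d/16)).exists_isMaxOn
    ⟨z, Metric.mem_closedBall_self (by positivity)⟩ hcont
  rw [Metric.mem_closedBall, dist_eq_norm] at hz1
  have hmax' : ∀ w, ‖w - z‖ ≤ d/16 → ‖y w‖ ≤ ‖y z1‖ := fun w hw =>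
    hmax (by rw [Metric.mem_closedBall, dist_eq_norm]; exact hw)
  have hM : ∀ w, ‖w - z‖ ≤ d/4 → uu ε y w ≤ k + uu ε y z1 := fun w hw =>
    uu_mono hε hk (hdb _ hmax' w hw)
  -- the parameter of z1
  set p1 : ℝ × ℝ := ((z1.re - x)/d, (h - z1.im)/d) with hp1
  have hzz1 : zz h x d p1 = z1 := by
    apply Complex.ext
    · simp only [zz, hp1]; field_simp; ring
    · simp only [zz, hp1]; field_simp; ring
  have hp1n : p1.1^2 + (p1.2 - 1)^2 ≤ 1/256 := by
    have h1 : ‖z1 - z‖^2 ≤ (d/16)^2 := by gcongr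
    rw [← Complex.normSq_eq_norm_sq, Complex.normSq_apply] at h1
    have e1 : (z1 - z).re = d * p1.1 := by
      simp only [hp1, hz, Complex.sub_re]; field_simp
    have e2 : (z1 - z).im = -(d * (p1.2 - 1)) := by
      simp only [hp1, hz, Complex.sub_im]; field_simp; ring
    rw [e1, e2] at h1
    have : d^2 * (p1.1^2 + (p1.2 - 1)^2) ≤ d^2 * (1/256) := by nlinarith
    exact le_of_mul_le_mul_left this (by positivity)
  -- distance of zz p to z1
  have hdist : ∀ p : ℝ × ℝ, ‖zz h x d p - z1‖^2 = d^2 * ((p.1 - p1.1)^2 + (p.2 - p1.2)^2) := by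
    intro p
    rw [← hzz1, ← Complex.normSq_eq_norm_sq, Complex.normSq_apply]
    simp only [zz, Complex.sub_re, Complex.sub_im]
    ring
  have hnear : ∀ p ∈ Dsk p1 (1/8), ‖zz h x d p - z‖ ≤ d/4 := by
    intro p hp
    have h1 : (p.1 - p1.1)^2 + (p.2 - p1.2)^2 < (1/8)^2 := hp
    have h2 : ‖zz h x d p - z1‖ ≤ d/8 := by
      have : ‖zz h x d p - z1‖^2 ≤ (d/8)^2 := by
        rw [hdist]
        nlinarith [sq_nonneg d]
      exact le_of_sq_le_sq this (by positivity)
    calc ‖zz h x d p - z‖ = ‖(zz h x d p - z1) + (z1 - z)‖ := by ring_nf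
      _ ≤ ‖zz h x d p - z1‖ + ‖z1 - z‖ := norm_add_le _ _
      _ ≤ d/8 + d/16 := add_le_add h2 hz1
      _ ≤ d/4 := by linarith
  have hSD : SS ⊆ Dsk p1 (1/8) := by
    intro p hp
    have h2 := mem_SS.mp hp
    show (p.1 - p1.1)^2 + (p.2 - p1.2)^2 < (1/8)^2
    have a1 : p.1^2 ≤ (1/24)^2 := by
      apply sq_le_sq'
      · linarith [h2.1.1]
      · exact h2.1.2
    have a2 : (p.2 - 1)^2 ≤ (1/24)^2 := by
      apply sq_le_sq'
      · linarith [h2.2.1]
      · linarith [h2.2.2]
    nlinarith [sq_nonneg (p.1 + p1.1), sq_nonneg ((p.2 - 1) + (p1.2 - 1))]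
  have hMS : ∀ p ∈ SS, uu ε y (zz h x d p) ≤ k + uu ε y z1 := fun p hp =>
    hM _ (hnear p (hSD hp))
  refine ⟨z1, hz1, hmax', hM, hMS, ?_⟩
  -- analyticity
  have hdiff : DifferentiableOn ℂ y (Str h D) := fun w hw =>
    (H.h0 w hw).differentiableAt.differentiableWithinAt
  have han : AnalyticOnNhd ℂ y (Str h D) := hdiff.analyticOnNhd (Str_open h D)
  have czz' : Continuous (fun p : ℝ × ℝ => zz h x d p) := by
    have := (zz_cont h).comp (f := fun p : ℝ × ℝ => (((x, d), p) : (ℝ × ℝ) × (ℝ × ℝ))) (by fun_prop)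
    exact this
  have harea := area (w := fun p => (k + uu ε y z1) - uu ε y (zz h x d p)) (p1 := p1) (ρ := 1/8)
    (c := 2 * Real.pi * k) (by norm_num) (by positivity)
    (continuousOn_const.sub ((H.cu hε).comp czz'.continuousOn
      (fun p hp => ball_Str hd (hnear p hp))))
    (fun p hp => by have := hM _ (hnear p hp); linarith)
    (fun r hr => by
      have hcl : Metric.closedBall z1 (d * r) ⊆ Str h D := by
        intro w hw
        rw [Metric.mem_closedBall, dist_eq_norm] at hw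
        apply ball_Str (x := x) hd
        rw [← hz]
        calc ‖w - z‖ = ‖(w - z1) + (z1 - z)‖ := by ring_nf
          _ ≤ ‖w - z1‖ + ‖z1 - z‖ := norm_add_le _ _
          _ ≤ d * r + d/16 := add_le_add hw hz1
          _ ≤ d/4 := by nlinarith [hr.2]
      have hdr : 0 < d * r := mul_pos hd0 hr.1
      have hsub := submean hdr hε (han.mono hcl)
      rw [Real.circleAverage_def] at hsub
      have hper : ∀ θ, uu ε y (zz h x d (p1.1 + r * Real.cos θ, p1.2 + r * Real.sin θ))
          = uu ε y (circleMap z1 (d * r) (-θ)) := by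
        intro θ
        congr 1
        rw [← hzz1]
        apply Complex.ext
        · simp only [zz, circleMap, Complex.add_re, Complex.mul_re, Complex.ofReal_re,
            Complex.ofReal_im, Complex.exp_ofReal_mul_I_re, Complex.exp_ofReal_mul_I_im,
            Real.cos_neg]
          simp
          ring
        · simp only [zz, circleMap, Complex.add_im, Complex.mul_im, Complex.ofReal_re,
            Complex.ofReal_im, Complex.exp_ofReal_mul_I_re, Complex.exp_ofReal_mul_I_im,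
            Real.sin_neg]
          simp
          ring
      simp_rw [hper]
      have hcc : Continuous (fun θ : ℝ => uu ε y (circleMap z1 (d * r) θ)) := by
        have := (H.cu hε).comp (f := fun θ : ℝ => circleMap z1 (d * r) θ) (s := univ)
          (continuous_circleMap _ _).continuousOn
          (fun θ _ => hcl (circleMap_mem_closedBall _ hdr.le _))
        exact continuousOn_univ.mp this
      have hcc' : Continuous (fun θ : ℝ => uu ε y (circleMap z1 (d * r) (-θ))) :=
        hcc.comp continuous_neg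
      rw [intervalIntegral.integral_sub intervalIntegrable_const (hcc'.intervalIntegrable _ _),
        intervalIntegral.integral_const, intervalIntegral.integral_comp_neg
        (fun θ => uu ε y (circleMap z1 (d * r) θ)), neg_neg]
      have hp2 : Function.Periodic (fun θ : ℝ => uu ε y (circleMap z1 (d * r) θ)) (2 * Real.pi) := by
        intro θ
        simp only
        rw [periodic_circleMap]
      have e5 : ∫ θ in (-Real.pi)..Real.pi, uu ε y (circleMap z1 (d * r) θ)
          = ∫ θ in (0:ℝ)..(2 * Real.pi), uu ε y (circleMap z1 (d * r) θ) := by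
        have := hp2.intervalIntegral_add_eq (-Real.pi) 0
        rw [show -Real.pi + 2 * Real.pi = Real.pi by ring, zero_add] at this
        exact this
      rw [e5]
      have hpi := Real.pi_pos
      simp only [smul_eq_mul] at hsub ⊢
      have e6 : 2 * Real.pi * uu ε y z1 ≤ ∫ θ in (0:ℝ)..(2 * Real.pi),
          uu ε y (circleMap z1 (d * r) θ) := by
        have := mul_le_mul_of_nonneg_left hsub (by positivity : 0 ≤ 2 * Real.pi)
        rwa [← mul_assoc, mul_inv_cancel₀ (by positivity), one_mul] at this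
      nlinarith)
    SS_compact.measurableSet hSD
  refine harea.trans ?_
  have hpi : Real.pi ≤ 4 := Real.pi_le_four
  nlinarith [mul_nonneg hk Real.pi_pos.le]

/-- gradient bound of the hyperbolic average at a doubling point -/
theorem grad_dbl (H : Hol h D y y1 y2) (hε : 0 < ε) (x : ℝ) {d k : ℝ} (hd : d ∈ Ioo 0 (D/2))
    (hk : 0 ≤ k) (hdb : Dbl y ⟨x, h - d⟩ d k) :
    |ubx h ε y y1 x d| ≤ cK * k / d ∧ |ubd h ε y y1 x d| ≤ cK * k / d := by
  obtain ⟨z1, -, -, -, hMS, hI⟩ := defect H hε x hd hk hdb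
  have g := grad_bd H hε x hd hMS
  have hd0 : 0 < d := hd.1
  have hc := cK_nonneg
  have e : cK / d * ∫ p in SS, ((k + uu ε y z1) - uu ε y (zz h x d p)) ≤ cK * k / d := by
    calc cK / d * ∫ p in SS, ((k + uu ε y z1) - uu ε y (zz h x d p)) ≤ cK / d * k := by
          gcongr
      _ = cK * k / d := by ring
  exact ⟨g.1.trans e, g.2.trans e⟩

noncomputable def kap : ℝ := ∫ p in SS, KK p
lemma kap_pos : 0 < kap := KK_int_pos

lemma ub_le (H : Hol h D y y1 y2) (hε : 0 < ε) (x : ℝ) {d M : ℝ} (hd : d ∈ Ioo 0 (D/2))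
    (hM : ∀ p ∈ SS, uu ε y (zz h x d p) ≤ M) : ub h ε y x d ≤ kap * M := by
  unfold ub kap
  rw [mul_comm, ← integral_const_mul]
  refine setIntegral_mono_on ?_ ?_ SS_compact.measurableSet (fun p hp => ?_)
  · exact ((uzz_cont H hε x hd).mul KK_contOn).integrableOn_compact SS_compact
  · exact (continuousOn_const.mul KK_contOn).integrableOn_compact SS_compact
  · exact mul_le_mul_of_nonneg_right (hM p hp) (KK_nonneg p)

lemma le_ub (H : Hol h D y y1 y2) (hε : 0 < ε) (x : ℝ) {d k : ℝ} (hd : d ∈ Ioo 0 (D/2))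
    (hk : 0 ≤ k) (hdb : Dbl y ⟨x, h - d⟩ d k) {m : ℝ}
    (hm : ∃ w, ‖w - ⟨x, h - d⟩‖ ≤ d/16 ∧ Real.exp m ≤ ‖y w‖) :
    kap * m - cK * k ≤ ub h ε y x d := by
  obtain ⟨z1, -, hmax, -, hMS, hI⟩ := defect H hε x hd hk hdb
  obtain ⟨w, hw, hwm⟩ := hm
  have hz1 : Real.exp m ≤ ‖y z1‖ := hwm.trans (hmax w hw)
  have hu : m ≤ uu ε y z1 := by
    unfold uu
    have : (Real.exp m)^2 ≤ NN ε y z1 := by
      unfold NN
      have := Real.exp_pos m
      nlinarith [sq_nonneg ε]
    have h2 := Real.log_le_log (by positivity) this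
    rw [← Real.exp_nat_mul, Real.log_exp] at h2
    push_cast at h2
    linarith
  have e1 : ub h ε y x d = kap * (k + uu ε y z1)
      - ∫ p in SS, ((k + uu ε y z1) - uu ε y (zz h x d p)) * KK p := by
    unfold ub kap
    rw [mul_comm, ← integral_const_mul, ← integral_sub]
    · refine setIntegral_congr_fun SS_compact.measurableSet (fun p _ => ?_)
      ring
    · exact (continuousOn_const.mul KK_contOn).integrableOn_compact SS_compact
    · exact ((continuousOn_const.sub (uzz_cont H hε x hd)).mul KK_contOn).integrableOn_compact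
        SS_compact
  have e2 : ∫ p in SS, ((k + uu ε y z1) - uu ε y (zz h x d p)) * KK p
      ≤ cK * ∫ p in SS, ((k + uu ε y z1) - uu ε y (zz h x d p)) := by
    rw [← integral_const_mul]
    refine setIntegral_mono_on ?_ ?_ SS_compact.measurableSet (fun p hp => ?_)
    · exact ((continuousOn_const.sub (uzz_cont H hε x hd)).mul KK_contOn).integrableOn_compact
        SS_compact
    · exact (continuousOn_const.mul (continuousOn_const.sub
        (uzz_cont H hε x hd))).integrableOn_compact SS_compact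
    · rw [mul_comm]
      refine mul_le_mul_of_nonneg_right ((le_abs_self _).trans (cK_K p hp)) ?_
      linarith [hMS p hp]
  have hc := cK_nonneg
  have hkap := kap_pos
  have e3 : cK * ∫ p in SS, ((k + uu ε y z1) - uu ε y (zz h x d p)) ≤ cK * k := by gcongr
  have e4 : kap * m ≤ kap * (k + uu ε y z1) := by
    apply mul_le_mul_of_nonneg_left _ hkap.le
    linarith
  rw [e1]
  linarith

end

end Vale.Agent.P097.H140
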