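import Vale.Agent.P097.H140.Level

open MeasureTheory Set Filter Topology ComplexConjugate

namespace Vale.Agent.P097.H140

section
variable {h D C T : ℝ} {y y1 y2 : ℂ → ℂ} {k : ℂ → ℝ}

/-- lower bound of `|y|` near the point `z` -/
def Low (h : ℝ) (y : ℂ → ℂ) (z : ℂ) (m : ℝ) : Prop :=
  ∃ w, ‖w - z‖ ≤ (h - z.im)/16 ∧ Real.exp (-m) ≤ ‖y w‖

lemma Low.mono {z : ℂ} {m m' : ℝ} (hl : Low h y z m) (hm : m ≤ m') : Low h y z m' := by
  obtain ⟨w, h1, h2⟩ := hl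
  exact ⟨w, h1, le_trans (Real.exp_le_exp.mpr (by linarith)) h2⟩

lemma step (G : GD h D C T y y1 y2 k) {z z' : ℂ} (hz : h - z.im ∈ Ioo 0 (D/2))
    (hz' : h - z'.im ∈ Ioo 0 (D/2)) (hd : ‖z' - z‖ ≤ (h - z.im)/64) {m : ℝ} (hl : Low h y z m) :
    Low h y z' (m + k z') := by
  obtain ⟨w, hw1, hw2⟩ := hl
  have him : |z'.im - z.im| ≤ (h - z.im)/64 := by
    rw [← Complex.sub_im]; exact (Complex.abs_im_le_norm _).trans hd
  have him2 := abs_le.mp him
  have e : z' = ⟨z'.re, h - (h - z'.im)⟩ := by apply Complex.ext <;> simp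
  set s : ℝ := h - z'.im with hs
  have hpos : 0 < h - z.im := hz.1
  have hcont : ContinuousOn (fun w => ‖y w‖) (Metric.closedBall z' (s/16)) := by
    refine (G.hol.c0.norm).mono fun w hw => ?_
    rw [Metric.mem_closedBall, dist_eq_norm] at hw
    refine ball_Str (x := z'.re) hz' ?_
    rw [← e]
    linarith [hz'.1]
  obtain ⟨z1, hz1, hmax⟩ := (isCompact_closedBall z' (s/16)).exists_isMaxOn
    ⟨z', Metric.mem_closedBall_self (by linarith [hz'.1])⟩ hcont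
  rw [Metric.mem_closedBall, dist_eq_norm] at hz1
  have hmax' : ∀ w, ‖w - z'‖ ≤ s/16 → ‖y w‖ ≤ ‖y z1‖ := fun w hw =>
    hmax (by rw [Metric.mem_closedBall, dist_eq_norm]; exact hw)
  have hdb := G.db z'.re s hz'
  rw [← e] at hdb
  have hwz : ‖w - z'‖ ≤ s/4 := by
    have : ‖w - z'‖ ≤ ‖w - z‖ + ‖z' - z‖ := by
      have : w - z' = (w - z) - (z' - z) := by ring
      rw [this]; exact norm_sub_le _ _
    rw [hs]
    linarith
  have h1 := hdb _ hmax' w hwz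
  refine ⟨z1, hz1, ?_⟩
  have h2 : Real.exp (-m) ≤ Real.exp (k z') * ‖y z1‖ := hw2.trans h1
  have h3 : Real.exp (-(m + k z')) * Real.exp (k z') = Real.exp (-m) := by
    rw [← Real.exp_add]; congr 1; ring
  have h4 := Real.exp_pos (k z')
  rw [← h3, mul_comm] at h2
  exact le_of_mul_le_mul_left h2 h4

lemma chain (G : GD h D C T y y1 y2 k) (hT : 1 ≤ T) (Z : ℕ → ℂ) (N : ℕ)
    (hZ : ∀ i ≤ N, h - (Z i).im ∈ Ioo 0 (D/2))
    (hstep : ∀ i < N, ‖Z (i+1) - Z i‖ ≤ (h - (Z i).im)/64) {m : ℝ} (hl : Low h y (Z 0) m) :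
    ∀ i ≤ N, Low h y (Z i) (m + i * T^i * k (Z 0)) ∧ k (Z i) ≤ T^i * k (Z 0) := by
  have hmem : ∀ z : ℂ, h - z.im ∈ Ioo 0 (D/2) → z ∈ Str h D := by
    intro z hz
    exact ⟨by linarith [hz.1, hz.2], by linarith [hz.1]⟩
  have hk0 : 0 ≤ k (Z 0) := le_trans zero_le_one (G.k1 _ (hmem _ (hZ 0 (Nat.zero_le _))))
  intro i
  induction i with
  | zero =>
    intro _
    constructor
    · simpa using hl
    · simp
  | succ i ih =>
    intro hi
    obtain ⟨h1, h2⟩ := ih (by omega)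
    have hs := hstep i (by omega)
    have hzi := hZ i (by omega)
    have hzi' := hZ (i+1) hi
    have h3 := step G hzi hzi' hs h1
    have h4 : k (Z (i+1)) ≤ T * k (Z i) :=
      G.kT _ (hmem _ hzi) _ (hmem _ hzi') (by linarith [hzi.1])
    have h5 : k (Z (i+1)) ≤ T^(i+1) * k (Z 0) := by
      calc k (Z (i+1)) ≤ T * k (Z i) := h4
        _ ≤ T * (T^i * k (Z 0)) := by gcongr
        _ = _ := by ring
    refine ⟨h3.mono ?_, h5⟩
    have h6 : (i:ℝ) * T^i * k (Z 0) ≤ (i:ℝ) * T^(i+1) * k (Z 0) := by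
      gcongr
      omega
    push_cast
    nlinarith

/-- from the axis to the cone -/
theorem cone_of_axis (G : GD h D C T y y1 y2 k) (hD : 0 < D) (hT : 1 ≤ T) {b : ℝ}
    (hb : ∀ᶠ n : ℕ in atTop,
      (∃ w, ‖w - ⟨b, h - dn D n⟩‖ ≤ dn D n/16 ∧
        Real.exp (-((2 + 1/kap) * ((n:ℝ)+1)^(4/5:ℝ))) ≤ ‖y w‖) ∧
      k ⟨b, h - dn D n⟩ ≤ ((n:ℝ)+1)^(3/5:ℝ)) :
    ∀ A : ℝ, ∀ᶠ d in 𝓝[>] (0:ℝ), ∀ x' : ℝ, |x' - b| ≤ A * d →
      (∃ w, ‖w - ⟨x', h - d⟩‖ ≤ d/16 ∧ Real.exp (-(Real.log (1/d))^(9/10:ℝ)) ≤ ‖y w‖) ∧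
      k ⟨x', h - d⟩ ≤ (Real.log (1/d))^(7/10:ℝ) := by
  intro A
  have hkap := kap_pos
  obtain ⟨n0, hn0⟩ := eventually_atTop.mp hb
  set B : ℝ := |A| + 1 with hB
  obtain ⟨N, hN⟩ := exists_nat_ge (128 * B)
  have hB1 : 1 ≤ B := by rw [hB]; linarith [abs_nonneg A]
  have hN1 : (1:ℝ) ≤ N := by linarith
  have hNpos : (0:ℝ) < N := by linarith
  -- eventual inequalities in L = log (1/d)
  have hL : Tendsto (fun d : ℝ => Real.log (1/d)) (𝓝[>] 0) atTop := by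
    have : Tendsto (fun d : ℝ => 1/d) (𝓝[>] 0) atTop := by
      simpa using tendsto_inv_nhdsGT_zero (𝕜 := ℝ)
    exact Real.tendsto_log_atTop.comp this
  -- asymptotics
  have as1 : ∀ᶠ L : ℝ in atTop, (2 + 1/kap) * (2*L)^(4/5:ℝ) + N * T^N * (2*L)^(3/5:ℝ)
      ≤ L^(9/10:ℝ) := by
    have t1 : Tendsto (fun L : ℝ => L^(-(1/10):ℝ)) atTop (𝓝 0) := tendsto_rpow_neg_atTop (by norm_num)
    have t2 : Tendsto (fun L : ℝ => L^(-(3/10):ℝ)) atTop (𝓝 0) := tendsto_rpow_neg_atTop (by norm_num)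
    have t3 : Tendsto (fun L : ℝ => (2 + 1/kap) * 2^(4/5:ℝ) * L^(-(1/10):ℝ)
        + N * T^N * 2^(3/5:ℝ) * L^(-(3/10):ℝ)) atTop (𝓝 (((2 + 1/kap) * 2^(4/5:ℝ)) * 0
        + (N * T^N * 2^(3/5:ℝ)) * 0)) := (t1.const_mul _).add (t2.const_mul _)
    simp only [mul_zero, add_zero] at t3
    filter_upwards [t3.eventually (ge_mem_nhds zero_lt_one), eventually_gt_atTop 0] with L hL1 hL0
    have e1 : (2*L)^(4/5:ℝ) = 2^(4/5:ℝ) * L^(-(1/10):ℝ) * L^(9/10:ℝ) := by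
      rw [Real.mul_rpow (by norm_num) hL0.le, mul_assoc, ← Real.rpow_add hL0]; norm_num
    have e2 : (2*L)^(3/5:ℝ) = 2^(3/5:ℝ) * L^(-(3/10):ℝ) * L^(9/10:ℝ) := by
      rw [Real.mul_rpow (by norm_num) hL0.le, mul_assoc, ← Real.rpow_add hL0]; norm_num
    rw [e1, e2]
    have := Real.rpow_nonneg hL0.le (9/10:ℝ)
    calc (2 + 1/kap) * (2^(4/5:ℝ) * L^(-(1/10):ℝ) * L^(9/10:ℝ))
          + N * T^N * (2^(3/5:ℝ) * L^(-(3/10):ℝ) * L^(9/10:ℝ))
        = ((2 + 1/kap) * 2^(4/5:ℝ) * L^(-(1/10):ℝ)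
          + N * T^N * 2^(3/5:ℝ) * L^(-(3/10):ℝ)) * L^(9/10:ℝ) := by ring
      _ ≤ 1 * L^(9/10:ℝ) := by gcongr
      _ = _ := one_mul _
  have as2 : ∀ᶠ L : ℝ in atTop, T^N * (2*L)^(3/5:ℝ) ≤ L^(7/10:ℝ) := by
    have t1 : Tendsto (fun L : ℝ => L^(-(1/10):ℝ)) atTop (𝓝 0) := tendsto_rpow_neg_atTop (by norm_num)
    have t3 : Tendsto (fun L : ℝ => T^N * 2^(3/5:ℝ) * L^(-(1/10):ℝ)) atTop
        (𝓝 ((T^N * 2^(3/5:ℝ)) * 0)) := t1.const_mul _
    simp only [mul_zero] at t3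
    filter_upwards [t3.eventually (ge_mem_nhds zero_lt_one), eventually_gt_atTop 0] with L hL1 hL0
    have e1 : (2*L)^(3/5:ℝ) = 2^(3/5:ℝ) * L^(-(1/10):ℝ) * L^(7/10:ℝ) := by
      rw [Real.mul_rpow (by norm_num) hL0.le, mul_assoc, ← Real.rpow_add hL0]; norm_num
    rw [e1]
    have := Real.rpow_nonneg hL0.le (7/10:ℝ)
    calc T^N * (2^(3/5:ℝ) * L^(-(1/10):ℝ) * L^(7/10:ℝ))
        = (T^N * 2^(3/5:ℝ) * L^(-(1/10):ℝ)) * L^(7/10:ℝ) := by ring
      _ ≤ 1 * L^(7/10:ℝ) := by gcongr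
      _ = _ := one_mul _
  have as3 : ∀ᶠ L : ℝ in atTop, (L + Real.log (D/4))/Real.log 2 + 1 ≤ 2 * L := by
    have hl2 : (0.69:ℝ) < Real.log 2 := by have := Real.log_two_gt_d9; linarith
    filter_upwards [eventually_ge_atTop (10 * |Real.log (D/4)| + 10)] with L hL
    have habs := le_abs_self (Real.log (D/4))
    have hnn := abs_nonneg (Real.log (D/4))
    have : (L + Real.log (D/4))/Real.log 2 ≤ 2 * L - 1 := by
      rw [div_le_iff₀ (by linarith)]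
      nlinarith
    linarith
  have small : ∀ᶠ d in 𝓝[>] (0:ℝ), d < dn D n0 := by
    have : ∀ᶠ d in 𝓝 (0:ℝ), d < dn D n0 := gt_mem_nhds (dn_mem hD n0).1
    exact this.filter_mono nhdsWithin_le_nhds
  filter_upwards [hL.eventually as1, hL.eventually as2, hL.eventually as3, small,
    self_mem_nhdsWithin] with d l1 l2 l3 hsm hd0 x' hx'
  have hdpos : (0:ℝ) < d := hd0
  -- the dyadic level
  have hex : ∃ n : ℕ, dn D (n+1) < d := by
    have : Tendsto (fun n : ℕ => dn D (n+1)) atTop (𝓝 0) := by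
      unfold dn
      have t0 : Tendsto (fun n : ℕ => ((1/2:ℝ))^(n+1)) atTop (𝓝 0) :=
        (tendsto_pow_atTop_nhds_zero_of_lt_one (by norm_num) (by norm_num)).comp
          (tendsto_add_atTop_nat 1)
      have t1 := t0.const_mul (D/4)
      rw [mul_zero] at t1
      refine t1.congr fun n => ?_
      rw [one_div, inv_pow]; ring
    exact (this.eventually (gt_mem_nhds hdpos)).exists
  classical
  set n := Nat.find hex with hn
  have hn1 : dn D (n+1) < d := Nat.find_spec hex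
  have hn2 : d ≤ dn D n := by
    rcases Nat.eq_zero_or_pos n with h0 | h0
    · rw [h0]
      have : dn D n0 ≤ dn D 0 := by
        unfold dn
        gcongr
        · norm_num
        · exact Nat.zero_le _
      linarith
    · have := Nat.find_min hex (m := n - 1) (by omega)
      push Not at this
      rwa [Nat.sub_add_cancel h0] at this
  have hnn0 : n0 ≤ n := by
    by_contra hlt
    push Not at hlt
    have : dn D n0 ≤ dn D (n+1) := by
      unfold dn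
      gcongr
      · norm_num
      · omega
    linarith
  have hhalf : dn D (n+1) = dn D n / 2 := by unfold dn; rw [pow_succ]; field_simp
  have hdn := dn_mem hD n
  obtain ⟨⟨w, hw1, hw2⟩, hkb⟩ := hn0 n hnn0
  set δ := dn D n with hδ
  -- the chain
  set z0 : ℂ := ⟨b, h - δ⟩ with hz0
  set z' : ℂ := ⟨x', h - d⟩ with hz'
  set Z : ℕ → ℂ := fun i => z0 + ((i / N : ℝ) : ℂ) * (z' - z0) with hZ
  have hZim : ∀ i : ℕ, h - (Z i).im = (1 - (i:ℝ)/N) * δ + (i:ℝ)/N * d := by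
    intro i
    simp only [hZ, Complex.add_im, Complex.mul_im, Complex.ofReal_re, Complex.ofReal_im,
      Complex.sub_im, Complex.sub_re, hz0, hz']
    ring
  have hfrac : ∀ i ≤ N, (0:ℝ) ≤ (i:ℝ)/N ∧ (i:ℝ)/N ≤ 1 := by
    intro i hi
    constructor
    · positivity
    · rw [div_le_one hNpos]; exact_mod_cast hi
  have hZge : ∀ i ≤ N, δ/2 ≤ h - (Z i).im := by
    intro i hi
    rw [hZim]
    obtain ⟨f1, f2⟩ := hfrac i hi
    nlinarith
  have hZmem : ∀ i ≤ N, h - (Z i).im ∈ Ioo 0 (D/2) := by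
    intro i hi
    refine ⟨lt_of_lt_of_le (by linarith [hdn.1]) (hZge i hi), ?_⟩
    rw [hZim]
    obtain ⟨f1, f2⟩ := hfrac i hi
    have : (1 - (i:ℝ)/N) * δ + (i:ℝ)/N * d ≤ δ := by nlinarith
    linarith [hdn.2]
  have hdist : ‖z' - z0‖ ≤ B * δ := by
    have h1 : ‖z' - z0‖ ≤ |(z' - z0).re| + |(z' - z0).im| := Complex.norm_le_abs_re_add_abs_im _
    have h2 : |(z' - z0).re| ≤ |A| * δ := by
      simp only [hz', hz0, Complex.sub_re]
      calc |x' - b| ≤ A * d := hx'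
        _ ≤ |A| * d := mul_le_mul_of_nonneg_right (le_abs_self _) hdpos.le
        _ ≤ |A| * δ := mul_le_mul_of_nonneg_left hn2 (abs_nonneg _)
    have h3 : |(z' - z0).im| ≤ δ := by
      simp only [hz', hz0, Complex.sub_im]
      rw [abs_le]; constructor <;> linarith
    rw [hB]; linarith
  have hZstep : ∀ i < N, ‖Z (i+1) - Z i‖ ≤ (h - (Z i).im)/64 := by
    intro i hi
    have e : Z (i+1) - Z i = ((1/N : ℝ) : ℂ) * (z' - z0) := by
      simp only [hZ]; push_cast; ring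
    rw [e, norm_mul, Complex.norm_real, Real.norm_eq_abs, abs_of_pos (by positivity)]
    have h1 := hZge i hi.le
    calc 1/N * ‖z' - z0‖ ≤ 1/N * (B * δ) := by gcongr
      _ = (B/N) * δ := by ring
      _ ≤ (1/128) * δ := by
          apply mul_le_mul_of_nonneg_right _ hdn.1.le
          rw [div_le_iff₀ hNpos]; linarith
      _ ≤ (h - (Z i).im)/64 := by linarith
  have hZ0 : Z 0 = z0 := by simp [hZ]
  have hZN : Z N = z' := by
    simp only [hZ]
    rw [div_self hNpos.ne']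
    push_cast; ring
  have hl0 : Low h y (Z 0) ((2 + 1/kap) * ((n:ℝ)+1)^(4/5:ℝ)) := by
    rw [hZ0]
    refine ⟨w, ?_, hw2⟩
    have : h - z0.im = δ := by simp [hz0]
    rw [this]; exact hw1
  obtain ⟨c1, c2⟩ := chain G hT Z N hZmem hZstep hl0 N le_rfl
  rw [hZN, hZ0] at c1 c2
  -- n in terms of L
  set L := Real.log (1/d) with hLdef
  have hnL : (n:ℝ) + 1 ≤ 2 * L := by
    refine le_trans ?_ l3
    have h1 : (2:ℝ)^n ≤ (D/4)/d := by
      rw [le_div_iff₀ hdpos]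
      have : δ * 2^n = D/4 := by rw [hδ]; unfold dn; field_simp
      nlinarith [pow_pos (show (0:ℝ) < 2 by norm_num) n]
    have h2 := Real.log_le_log (by positivity) h1
    rw [Real.log_pow, Real.log_div (by positivity) hdpos.ne'] at h2
    have h3 : L = -Real.log d := by rw [hLdef, one_div, Real.log_inv]
    have hl2 : 0 < Real.log 2 := Real.log_pos (by norm_num)
    have : (n:ℝ) ≤ (L + Real.log (D/4))/Real.log 2 := by
      rw [le_div_iff₀ hl2, h3]; linarith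
    linarith
  have hn1pos : (0:ℝ) ≤ (n:ℝ) + 1 := by positivity
  have r1 : ((n:ℝ)+1)^(4/5:ℝ) ≤ (2*L)^(4/5:ℝ) := Real.rpow_le_rpow hn1pos hnL (by norm_num)
  have r2 : ((n:ℝ)+1)^(3/5:ℝ) ≤ (2*L)^(3/5:ℝ) := Real.rpow_le_rpow hn1pos hnL (by norm_num)
  have hTN : 0 ≤ T^N := by positivity
  have hk3 : k z0 ≤ (2*L)^(3/5:ℝ) := hkb.trans r2
  constructor
  · have c3 : Low h y z' (L^(9/10:ℝ)) := by
      refine c1.mono (le_trans ?_ l1)
      have : (N:ℝ) * T^N * k z0 ≤ N * T^N * (2*L)^(3/5:ℝ) := by gcongr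
      have h2 : (2 + 1/kap) * ((n:ℝ)+1)^(4/5:ℝ) ≤ (2 + 1/kap) * (2*L)^(4/5:ℝ) := by gcongr
      linarith
    obtain ⟨w', a1, a2⟩ := c3
    refine ⟨w', ?_, ?_⟩
    · have : h - z'.im = d := by simp [hz']
      rwa [this] at a1
    · exact a2
  · calc k z' ≤ T^N * k z0 := c2
      _ ≤ T^N * (2*L)^(3/5:ℝ) := by gcongr
      _ ≤ _ := l2

/-- **Almost everywhere growth.** A non zero periodic holomorphic function with the doubling
property (exponent `k` with bounded second moments on the levels) does not decay like a power of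
the distance: at almost every boundary point, in every cone, it is at least
`exp (-(log (1/d))^(9/10))` somewhere in the disc of radius `d/16`. -/
theorem growth (G : GD h D C T y y1 y2 k) (hD : 0 < D) (hT : 1 ≤ T) :
    ∀ᵐ b : ℝ, ∀ A : ℝ, ∀ᶠ d in 𝓝[>] (0:ℝ), ∀ x' : ℝ, |x' - b| ≤ A * d →
      (∃ w, ‖w - ⟨x', h - d⟩‖ ≤ d/16 ∧ Real.exp (-(Real.log (1/d))^(9/10:ℝ)) ≤ ‖y w‖) ∧
      k ⟨x', h - d⟩ ≤ (Real.log (1/d))^(7/10:ℝ) := by
  have small : ∀ᶠ d in 𝓝[>] (0:ℝ), d ∈ Ioo 0 (D/2) := by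
    have h1 : ∀ᶠ d in 𝓝 (0:ℝ), d < D/2 := gt_mem_nhds (by linarith)
    filter_upwards [h1.filter_mono nhdsWithin_le_nhds, self_mem_nhdsWithin] with d a b
    exact ⟨b, a⟩
  refine ae_of_period ?_ ?_ ?_
  · intro x hx A
    filter_upwards [hx A, small] with d hd hds x' hx'
    obtain ⟨⟨w, a1, a2⟩, a3⟩ := hd (x' - 1) (by rwa [show x' - 1 - x = x' - (x + 1) by ring])
    have hwS : w ∈ Str h D := ball_Str (x := x' - 1) hds (a1.trans (by linarith [hds.1]))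
    have e1 : (⟨x', h - d⟩ : ℂ) = ⟨x' - 1, h - d⟩ + 1 := by apply Complex.ext <;> simp
    refine ⟨⟨w + 1, ?_, ?_⟩, ?_⟩
    · rw [e1]; rwa [add_sub_add_right_eq_sub]
    · rwa [G.per w hwS]
    · rw [e1, G.kper _ (pt_mem _ hds)]; exact a3
  · intro x hx A
    filter_upwards [hx A, small] with d hd hds x' hx'
    obtain ⟨⟨w, a1, a2⟩, a3⟩ := hd (x' + 1) (by rwa [show x' + 1 - x = x' - (x - 1) by ring])
    have e1 : (⟨x' + 1, h - d⟩ : ℂ) = ⟨x', h - d⟩ + 1 := by apply Complex.ext <;> simp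
    have hwS : w - 1 ∈ Str h D := by
      refine ball_Str (x := x') hds ?_
      have : w - 1 - ⟨x', h - d⟩ = w - ⟨x' + 1, h - d⟩ := by rw [e1]; ring
      rw [this]
      exact a1.trans (by linarith [hds.1])
    refine ⟨⟨w - 1, ?_, ?_⟩, ?_⟩
    · have : w - 1 - ⟨x', h - d⟩ = w - ⟨x' + 1, h - d⟩ := by rw [e1]; ring
      rwa [this]
    · have := G.per (w - 1) hwS
      rw [sub_add_cancel] at this
      rwa [← this]
    · have := G.kper _ (pt_mem (h := h) x' hds)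
      rw [← this, ← e1]; exact a3
  · filter_upwards [levels G hD] with x hx
    exact cone_of_axis G hD hT hx

end

end Vale.Agent.P097.H140
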