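import Vale.Agent.P097.H140.Out

open MeasureTheory Set Filter Topology ComplexConjugate

namespace Vale.Agent.P097.H140

section
variable {h D C c : ℝ} {g g1 Q Φ : ℂ → ℂ}

lemma vpath_x (x d : ℝ) : HasDerivAt (fun t : ℝ => (⟨t, h - d⟩ : ℂ)) 1 x := by
  have h1 : HasDerivAt (fun t : ℝ => (t : ℂ)) ((1:ℝ):ℂ) x := (hasDerivAt_id x).ofReal_comp
  have h2 := h1.add_const (((h - d : ℝ) : ℂ) * Complex.I)
  simp only [Complex.ofReal_one] at h2
  refine h2.congr_of_eventuallyEq (Eventually.of_forall fun t => ?_)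
  apply Complex.ext <;> simp

lemma vpath_d (x d : ℝ) : HasDerivAt (fun t : ℝ => (⟨x, h - t⟩ : ℂ)) (-Complex.I) d := by
  have h1 : HasDerivAt (fun t : ℝ => ((h - t : ℝ) : ℂ)) ((-1:ℝ):ℂ) d := by
    have : HasDerivAt (fun t : ℝ => h - t) (-1) d := (hasDerivAt_id d).const_sub h
    exact this.ofReal_comp
  have h2 := (h1.mul_const Complex.I).const_add (x : ℂ)
  have h3 : HasDerivAt (fun t : ℝ => (⟨x, h - t⟩ : ℂ)) (((-1:ℝ):ℂ) * Complex.I) d := by
    refine h2.congr_of_eventuallyEq (Eventually.of_forall fun t => ?_)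
    apply Complex.ext <;> simp
  refine h3.congr_deriv ?_
  push_cast; ring

lemma pt_cont2 {f : ℂ → ℂ} (hf : ContinuousOn f (Str h D)) :
    ContinuousOn (fun p : ℝ × ℝ => f ⟨p.1, h - p.2⟩) (univ ×ˢ Ioo 0 (D/2)) := by
  refine hf.comp (f := fun p : ℝ × ℝ => (⟨p.1, h - p.2⟩ : ℂ)) ?_ (fun p hp => pt_mem p.1 hp.2)
  have : (fun p : ℝ × ℝ => (⟨p.1, h - p.2⟩ : ℂ))
      = fun p : ℝ × ℝ => (p.1 : ℂ) + ((h - p.2 : ℝ) : ℂ) * Complex.I := by
    funext x; apply Complex.ext <;> simp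
  rw [this]
  fun_prop

/-- `σ Im Φ` is harmonic -/
theorem im_sm (W : WG h D C c g g1 Q) (hΦ : ∀ z ∈ Str h D, HasDerivAt Φ (g z) z)
    (hper : ∀ z ∈ Str h D, (Φ (z + 1)).im = (Φ z).im) (σ : ℝ) :
    Sm (D/2) (fun x d => σ * (Φ ⟨x, h - d⟩).im) (fun x d => σ * (g ⟨x, h - d⟩).im)
      (fun x d => -σ * (g ⟨x, h - d⟩).re)
      (fun x d => σ * (g1 ⟨x, h - d⟩).im) (fun x d => -σ * (g1 ⟨x, h - d⟩).im) := by
  have cΦ : ContinuousOn Φ (Str h D) := fun z hz => (hΦ z hz).continuousAt.continuousWithinAt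
  have cg : ContinuousOn g (Str h D) := fun z hz => (W.hg z hz).continuousAt.continuousWithinAt
  have cg1 : ContinuousOn g1 (Str h D) := fun z hz =>
    (W.hg1 z hz).continuousAt.continuousWithinAt
  have i0 := Complex.continuous_im.comp_continuousOn (pt_cont2 cΦ)
  have i1 := Complex.continuous_im.comp_continuousOn (pt_cont2 cg)
  have i2 := Complex.continuous_re.comp_continuousOn (pt_cont2 cg)
  have i3 := Complex.continuous_im.comp_continuousOn (pt_cont2 cg1)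
  refine ⟨?_, ?_, ?_, ?_, continuousOn_const.mul i0, continuousOn_const.mul i1,
    continuousOn_const.mul i2, continuousOn_const.mul i3, continuousOn_const.mul i3, ?_, ?_⟩
  · intro x d hd
    have h1 := path_hd (γ := fun t : ℝ => (⟨t, h - d⟩ : ℂ)) (hΦ _ (pt_mem x hd)) (vpath_x x d)
    have h2 := (Complex.imCLM.hasFDerivAt.comp_hasDerivAt x h1).const_mul σ
    refine h2.congr_deriv ?_
    simp
  · intro x d hd
    have h1 := path_hd (γ := fun t : ℝ => (⟨t, h - d⟩ : ℂ)) (W.hg _ (pt_mem x hd)) (vpath_x x d)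
    have h2 := (Complex.imCLM.hasFDerivAt.comp_hasDerivAt x h1).const_mul σ
    refine h2.congr_deriv ?_
    simp
  · intro x d hd
    have h1 := path_hd (γ := fun t : ℝ => (⟨x, h - t⟩ : ℂ)) (hΦ _ (pt_mem x hd)) (vpath_d x d)
    have h2 := (Complex.imCLM.hasFDerivAt.comp_hasDerivAt d h1).const_mul σ
    refine h2.congr_deriv ?_
    simp
  · intro x d hd
    have h1 := path_hd (γ := fun t : ℝ => (⟨x, h - t⟩ : ℂ)) (W.hg _ (pt_mem x hd)) (vpath_d x d)
    have h2 := (Complex.reCLM.hasFDerivAt.comp_hasDerivAt d h1).const_mul (-σ)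
    refine h2.congr_deriv ?_
    simp
  · intro x d hd
    have := hper _ (pt_mem (h := h) x hd)
    have e : (⟨x + 1, h - d⟩ : ℂ) = ⟨x, h - d⟩ + 1 := by apply Complex.ext <;> simp
    simp only [e, this]
  · intro x d hd
    linarith

theorem im_energy (W : WG h D C c g g1 Q) {σ : ℝ} (hσ : σ^2 = 1) {d : ℝ} (hd : d ∈ Ioo 0 (D/2)) :
    ∫ x in (0:ℝ)..1, ((σ * (g ⟨x, h - d⟩).im)^2 + (-σ * (g ⟨x, h - d⟩).re)^2) ≤ C / d^2 := by
  have hd0 : 0 < d := hd.1
  have e : ∀ x : ℝ, (σ * (g ⟨x, h - d⟩).im)^2 + (-σ * (g ⟨x, h - d⟩).re)^2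
      = (1/d^2) * (d * ‖g ⟨x, h - d⟩‖)^2 := by
    intro x
    have h1 : ‖g ⟨x, h - d⟩‖^2 = (g ⟨x, h - d⟩).re^2 + (g ⟨x, h - d⟩).im^2 := by
      rw [← Complex.normSq_eq_norm_sq, Complex.normSq_apply]; ring
    have h2 : (d * ‖g ⟨x, h - d⟩‖)^2 = d^2 * ((g ⟨x, h - d⟩).re^2 + (g ⟨x, h - d⟩).im^2) := by
      rw [mul_pow, h1]
    rw [h2]
    field_simp
    linear_combination ((g ⟨x, h - d⟩).im^2 + (g ⟨x, h - d⟩).re^2) * hσ
  simp_rw [e]
  rw [intervalIntegral.integral_const_mul]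
  have := W.Eg d hd
  calc 1/d^2 * ∫ x in (0:ℝ)..1, (d * ‖g ⟨x, h - d⟩‖)^2 ≤ 1/d^2 * C := by gcongr
    _ = C/d^2 := by ring

lemma im_levels (W : WG h D C c g g1 Q) (hD : 0 < D) (hΦ : ∀ z ∈ Str h D, HasDerivAt Φ (g z) z)
    (hper : ∀ z ∈ Str h D, (Φ (z + 1)).im = (Φ z).im) {σ : ℝ} (hσ : σ^2 = 1) :
    ∀ᵐ x ∂(volume.restrict (Ioc (0:ℝ) 1)), ∀ᶠ n : ℕ in atTop,
      -(((n:ℝ)+1)^(4/5:ℝ)) ≤ σ * (Φ ⟨x, h - dn D n⟩).im := by
  have S := im_sm W hΦ hper σ
  have hd0 : D/4 ∈ Ioo 0 (D/2) := ⟨by linarith, by linarith⟩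
  have hC : 0 ≤ C := by
    refine le_trans ?_ (W.Eg (D/4) hd0)
    exact intervalIntegral.integral_nonneg zero_le_one (fun x _ => sq_nonneg _)
  have hh : Continuous (fun x : ℝ => σ * (Φ ⟨x, h - D/4⟩).im) :=
    slice (g := fun x d => σ * (Φ ⟨x, h - d⟩).im) S.c hd0
  obtain ⟨Kb, hKb⟩ := isCompact_Icc.exists_bound_of_continuousOn
    (f := fun x : ℝ => σ * (Φ ⟨x, h - D/4⟩).im) (s := Icc (0:ℝ) 1)
    hh.continuousOn
  set Cb : ℝ := 4 * (C + 1) + |Kb| with hCb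
  have hCb0 : 0 ≤ Cb := by positivity
  have hbc := bc (C := Cb) hCb0 (fun _ m x => σ * (Φ ⟨x, h - dn D m⟩).im)
    (fun _ m => slice (g := fun x d => σ * (Φ ⟨x, h - d⟩).im) S.c (dn_mem hD m))
    (fun j x hx => by
      have e0 : dn D 0 = D/4 := by unfold dn; simp
      simp only [e0]
      have h2 := hKb x (Ioc_subset_Icc_self hx)
      rw [Real.norm_eq_abs] at h2
      have h3 := neg_abs_le (σ * (Φ ⟨x, h - D/4⟩).im)
      have h4 := le_abs_self Kb
      have h6 : 0 ≤ 4 * (C + 1) := by positivity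
      rw [hCb]
      linarith)
    (fun j n m hnm => by
      have hdm := dn_mem hD m
      have hdnn := dn_mem hD n
      have hle : dn D m ≤ dn D n := by
        unfold dn
        gcongr
        norm_num
      have hi := inc S hC (fun d hd => im_energy W hσ hd) hdm.1 hle hdnn.2
      have h5 : (0:ℝ) ≤ (m:ℝ) - n := by
        have : (n:ℝ) ≤ m := by exact_mod_cast hnm
        linarith
      have hlog : Real.log (dn D n / dn D m) ≤ (m:ℝ) - n := by
        have e1 : dn D n / dn D m = 2^(m-n) := by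
          unfold dn
          rw [pow_sub₀ _ (by norm_num) hnm]
          field_simp
        rw [e1, Real.log_pow, Nat.cast_sub hnm]
        have h4 : Real.log 2 ≤ 1 := by
          have := Real.log_two_lt_d9; linarith
        nlinarith
      refine hi.trans ?_
      have h6 : 0 ≤ 4 * (C + 1) := by positivity
      calc 4 * (C + 1) * (1 + Real.log (dn D n / dn D m))
          ≤ 4 * (C + 1) * (1 + ((m:ℝ) - n)) := by gcongr
        _ ≤ Cb * (1 + ((m:ℝ) - n)) := by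
            apply mul_le_mul_of_nonneg_right _ (by linarith)
            rw [hCb]; linarith [abs_nonneg Kb])
  filter_upwards [hbc] with x h1
  have hsq : Tendsto Nat.sqrt atTop atTop := by
    refine tendsto_atTop.mpr fun b => ?_
    filter_upwards [eventually_ge_atTop (b*b)] with n hn
    exact Nat.le_sqrt.mpr hn
  filter_upwards [hsq.eventually h1] with n hn2
  have hm1 : (Nat.sqrt n)^2 ≤ n := Nat.sqrt_le' n
  have hm2 : n ≤ (Nat.sqrt n + 1)^2 := (Nat.lt_succ_sqrt' n).le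
  have hub := hn2 n hm1 hm2
  refine le_trans ?_ hub
  have e1 : ((Nat.sqrt n : ℕ) : ℝ)^(8/5:ℝ) ≤ ((n:ℝ)+1)^(4/5:ℝ) := by
    have a1 : ((Nat.sqrt n : ℕ) : ℝ)^(8/5:ℝ) = (((Nat.sqrt n : ℕ) : ℝ)^2)^(4/5:ℝ) := by
      rw [← Real.rpow_natCast, ← Real.rpow_mul (Nat.cast_nonneg _)]; norm_num
    rw [a1]
    apply Real.rpow_le_rpow (by positivity) _ (by norm_num)
    have : (((Nat.sqrt n)^2 : ℕ) : ℝ) ≤ n := by exact_mod_cast hm1
    push_cast at this
    linarith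
  linarith

lemma step_im (W : WG h D C c g g1 Q) (hΦ : ∀ z ∈ Str h D, HasDerivAt Φ (g z) z) {z z' : ℂ}
    (hz : h - z.im ∈ Ioo 0 (D/2)) (hd : ‖z' - z‖ ≤ (h - z.im)/64) :
    ‖Φ z' - Φ z‖ ≤ mm h c g Q z := by
  have e : z = ⟨z.re, h - (h - z.im)⟩ := by apply Complex.ext <;> simp
  have hball : ∀ w ∈ Metric.closedBall z ((h - z.im)/64), w ∈ Str h D ∧
      ‖w - z‖ ≤ (h - z.im)/4 := by
    intro w hw
    rw [Metric.mem_closedBall, dist_eq_norm] at hw
    have h1 : ‖w - z‖ ≤ (h - z.im)/4 := hw.trans (by linarith [hz.1])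
    refine ⟨ball_Str (x := z.re) hz ?_, h1⟩
    rw [← e]; exact h1
  have hzS : z ∈ Str h D := (hball z (Metric.mem_closedBall_self (by linarith [hz.1]))).1
  have hpos : 0 < h - z.im := hz.1
  have hm := mm_ge W hzS
  have key := Convex.norm_image_sub_le_of_norm_hasDerivWithin_le (f := Φ) (f' := g)
    (s := Metric.closedBall z ((h - z.im)/64)) (C := mm h c g Q z / (h - z.im)) (x := z) (y := z')
    (fun w hw => (hΦ w (hball w hw).1).hasDerivWithinAt)
    (fun w hw => by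
      rw [le_div_iff₀ hpos, mul_comm]
      exact g_bd W hzS (hball w hw).1 (hball w hw).2)
    (convex_closedBall _ _) (Metric.mem_closedBall_self (by linarith))
    (by rw [Metric.mem_closedBall, dist_eq_norm]; exact hd)
  refine key.trans ?_
  calc mm h c g Q z / (h - z.im) * ‖z' - z‖ ≤ mm h c g Q z / (h - z.im) * ((h - z.im)/64) := by
        gcongr
    _ = mm h c g Q z / 64 := by field_simp
    _ ≤ mm h c g Q z := by linarith

/-- **`Im Φ` is small**: at almost every boundary point, in every cone,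
`|Im Φ| ≤ (log (1/d))^(9/10)` -/
theorem im_growth (W : WG h D C c g g1 Q) (hD : 0 < D)
    (hΦ : ∀ z ∈ Str h D, HasDerivAt Φ (g z) z)
    (hper : ∀ z ∈ Str h D, (Φ (z + 1)).im = (Φ z).im) :
    ∀ᵐ b : ℝ, ∀ A : ℝ, ∀ᶠ d in 𝓝[>] (0:ℝ), ∀ x' : ℝ, |x' - b| ≤ A * d →
      |(Φ ⟨x', h - d⟩).im| ≤ (Real.log (1/d))^(9/10:ℝ) := by
  have small : ∀ᶠ d in 𝓝[>] (0:ℝ), d ∈ Ioo 0 (D/2) := by
    have h1 : ∀ᶠ d in 𝓝 (0:ℝ), d < D/2 := gt_mem_nhds (by linarith)
    filter_upwards [h1.filter_mono nhdsWithin_le_nhds, self_mem_nhdsWithin] with d a b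
    exact ⟨b, a⟩
  have hc := W.hc
  refine ae_of_period ?_ ?_ ?_
  · intro x hx A
    filter_upwards [hx A, small] with d hd hds x' hx'
    have := hd (x' - 1) (by rwa [show x' - 1 - x = x' - (x + 1) by ring])
    have e1 : (⟨x', h - d⟩ : ℂ) = ⟨x' - 1, h - d⟩ + 1 := by apply Complex.ext <;> simp
    rw [e1, hper _ (pt_mem _ hds)]; exact this
  · intro x hx A
    filter_upwards [hx A, small] with d hd hds x' hx'
    have := hd (x' + 1) (by rwa [show x' + 1 - x = x' - (x - 1) by ring])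
    have e1 : (⟨x' + 1, h - d⟩ : ℂ) = ⟨x', h - d⟩ + 1 := by apply Complex.ext <;> simp
    rw [e1, hper _ (pt_mem _ hds)] at this
    exact this
  · filter_upwards [im_levels W hD hΦ hper (σ := 1) (by norm_num),
      im_levels W hD hΦ hper (σ := -1) (by norm_num), levels (gd2 W) hD] with b h1 h2 h3
    intro A
    obtain ⟨n0, hn0⟩ := eventually_atTop.mp (h1.and (h2.and h3))
    obtain ⟨N, hNp, hN⟩ := reach (h := h) hD b A n0
    have l1 := rpow_small 1 one_pos (a := 4/5) (by norm_num) 1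
    have as1 : ∀ᶠ L : ℝ in atTop, (2*L)^(4/5:ℝ) + N * (2*c)^N * (2*L)^(3/5:ℝ) ≤ L^(9/10:ℝ) := by
      have t1 : Tendsto (fun L : ℝ => L^(-(1/10):ℝ)) atTop (𝓝 0) :=
        tendsto_rpow_neg_atTop (by norm_num)
      have t2 : Tendsto (fun L : ℝ => L^(-(3/10):ℝ)) atTop (𝓝 0) :=
        tendsto_rpow_neg_atTop (by norm_num)
      have t3 : Tendsto (fun L : ℝ => 2^(4/5:ℝ) * L^(-(1/10):ℝ)
          + N * (2*c)^N * 2^(3/5:ℝ) * L^(-(3/10):ℝ)) atTop (𝓝 ((2^(4/5:ℝ)) * 0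
          + (N * (2*c)^N * 2^(3/5:ℝ)) * 0)) := (t1.const_mul _).add (t2.const_mul _)
      simp only [mul_zero, add_zero] at t3
      filter_upwards [t3.eventually (ge_mem_nhds zero_lt_one), eventually_gt_atTop 0] with L hL1 hL0
      have e1 : (2*L)^(4/5:ℝ) = 2^(4/5:ℝ) * L^(-(1/10):ℝ) * L^(9/10:ℝ) := by
        rw [Real.mul_rpow (by norm_num) hL0.le, mul_assoc, ← Real.rpow_add hL0]; norm_num
      have e2 : (2*L)^(3/5:ℝ) = 2^(3/5:ℝ) * L^(-(3/10):ℝ) * L^(9/10:ℝ) := by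
        rw [Real.mul_rpow (by norm_num) hL0.le, mul_assoc, ← Real.rpow_add hL0]; norm_num
      rw [e1, e2]
      have := Real.rpow_nonneg hL0.le (9/10:ℝ)
      calc 2^(4/5:ℝ) * L^(-(1/10):ℝ) * L^(9/10:ℝ)
            + N * (2*c)^N * (2^(3/5:ℝ) * L^(-(3/10):ℝ) * L^(9/10:ℝ))
          = (2^(4/5:ℝ) * L^(-(1/10):ℝ)
            + N * (2*c)^N * 2^(3/5:ℝ) * L^(-(3/10):ℝ)) * L^(9/10:ℝ) := by ring
        _ ≤ 1 * L^(9/10:ℝ) := by gcongr
        _ = _ := one_mul _
    filter_upwards [hN, L_tendsto.eventually as1] with d hdN has x' hx'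
    obtain ⟨n, hn, hnL, Z, hZ0, hZN, hZmem, hZstep⟩ := hdN x' hx'
    obtain ⟨a1, a2, -, a3⟩ := hn0 n hn
    set L := Real.log (1/d) with hL
    have hn1pos : (0:ℝ) ≤ (n:ℝ) + 1 := by positivity
    have r1 : ((n:ℝ)+1)^(4/5:ℝ) ≤ (2*L)^(4/5:ℝ) := Real.rpow_le_rpow hn1pos hnL (by norm_num)
    have r2 : ((n:ℝ)+1)^(3/5:ℝ) ≤ (2*L)^(3/5:ℝ) := Real.rpow_le_rpow hn1pos hnL (by norm_num)
    have hm0 : mm h c g Q (Z 0) ≤ (2*L)^(3/5:ℝ) := by rw [hZ0]; linarith
    have hmemS : ∀ i ≤ N, Z i ∈ Str h D := fun i hi =>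
      ⟨by linarith [(hZmem i hi).1, (hZmem i hi).2], by linarith [(hZmem i hi).1]⟩
    have hmm : ∀ i ≤ N, mm h c g Q (Z i) ≤ (2*c)^i * mm h c g Q (Z 0) := by
      intro i
      induction i with
      | zero => intro _; simp
      | succ i ih =>
        intro hi
        have h4 := mm_temp W (hmemS i (by omega)) (hmemS (i+1) hi)
          ((hZstep i (by omega)).trans (by linarith [(hZmem i (by omega)).1]))
        calc mm h c g Q (Z (i+1)) ≤ 2 * c * mm h c g Q (Z i) := h4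
          _ ≤ 2 * c * ((2*c)^i * mm h c g Q (Z 0)) := by
              have := ih (by omega)
              gcongr
          _ = _ := by ring
    have hm0' : 0 ≤ mm h c g Q (Z 0) := by linarith [mm_ge W (hmemS 0 (Nat.zero_le _))]
    have h2c : 1 ≤ 2 * c := by linarith
    have hdiff : ∀ i ≤ N, ‖Φ (Z i) - Φ (Z 0)‖ ≤ i * (2*c)^N * mm h c g Q (Z 0) := by
      intro i
      induction i with
      | zero => intro _; simp
      | succ i ih =>
        intro hi
        have h5 := step_im W hΦ (hZmem i (by omega)) (hZstep i (by omega))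
        have h6 : (2*c)^i ≤ (2*c)^N := pow_le_pow_right₀ h2c (by omega)
        have h7 : mm h c g Q (Z i) ≤ (2*c)^N * mm h c g Q (Z 0) :=
          (hmm i (by omega)).trans (by gcongr)
        calc ‖Φ (Z (i+1)) - Φ (Z 0)‖ = ‖(Φ (Z (i+1)) - Φ (Z i)) + (Φ (Z i) - Φ (Z 0))‖ := by
              ring_nf
          _ ≤ ‖Φ (Z (i+1)) - Φ (Z i)‖ + ‖Φ (Z i) - Φ (Z 0)‖ := norm_add_le _ _
          _ ≤ (2*c)^N * mm h c g Q (Z 0) + i * (2*c)^N * mm h c g Q (Z 0) :=
              add_le_add (h5.trans h7) (ih (by omega))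
          _ = _ := by push_cast; ring
    have h8 := hdiff N le_rfl
    rw [hZN, hZ0] at h8
    have h9 : |(Φ ⟨x', h - d⟩).im - (Φ ⟨b, h - dn D n⟩).im|
        ≤ N * (2*c)^N * (2*L)^(3/5:ℝ) := by
      rw [← Complex.sub_im]
      refine (Complex.abs_im_le_norm _).trans (h8.trans ?_)
      rw [hZ0] at hm0
      gcongr
    have h10 : |(Φ ⟨b, h - dn D n⟩).im| ≤ (2*L)^(4/5:ℝ) := by
      rw [abs_le]; constructor <;> linarith
    have h11 := abs_le.mp h9
    have h12 := abs_le.mp h10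
    rw [abs_le]; constructor <;> linarith

end

end Vale.Agent.P097.H140
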