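import Mathlib

open MeasureTheory Set Filter Topology

namespace Vale.Agent.P097.H140

/-- differentiation under the integral over `[0,1]`, continuous form -/
theorem hasDerivAt_int {f f' : ℝ → ℝ → ℝ} {a b : ℝ}
    (hf : ∀ d ∈ Ioo a b, ∀ x, HasDerivAt (fun d => f x d) (f' x d) d)
    (hfc : ContinuousOn (fun p : ℝ × ℝ => f p.1 p.2) (univ ×ˢ Ioo a b))
    (hf'c : ContinuousOn (fun p : ℝ × ℝ => f' p.1 p.2) (univ ×ˢ Ioo a b))
    {d0 : ℝ} (hd0 : d0 ∈ Ioo a b) :
    HasDerivAt (fun d => ∫ x in (0:ℝ)..1, f x d) (∫ x in (0:ℝ)..1, f' x d0) d0 := by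
  have hslice : ∀ g : ℝ → ℝ → ℝ, ContinuousOn (fun p : ℝ × ℝ => g p.1 p.2) (univ ×ˢ Ioo a b) →
      ∀ d ∈ Ioo a b, Continuous (fun x => g x d) := by
    intro g hg d hd
    have h1 : ContinuousOn ((fun p : ℝ × ℝ => g p.1 p.2) ∘ fun x : ℝ => (x, d)) univ :=
      hg.comp (by fun_prop) (fun x _ => ⟨mem_univ _, hd⟩)
    exact continuousOn_univ.mp h1
  obtain ⟨r, hr, hball⟩ := Metric.isOpen_iff.mp (isOpen_Ioo (a := a) (b := b)) d0 hd0
  set s : Set ℝ := Metric.closedBall d0 (r/2)
  have hsub : s ⊆ Ioo a b := (Metric.closedBall_subset_ball (by linarith)).trans hball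
  have hs : s ∈ 𝓝 d0 := Metric.closedBall_mem_nhds _ (by linarith)
  have hK : IsCompact ((Icc (0:ℝ) 1) ×ˢ s) := isCompact_Icc.prod (isCompact_closedBall _ _)
  obtain ⟨M, hM⟩ := hK.exists_bound_of_continuousOn
    (hf'c.mono (prod_mono (subset_univ _) hsub))
  refine (intervalIntegral.hasDerivAt_integral_of_dominated_loc_of_deriv_le (μ := volume)
    (F := fun d x => f x d) (F' := fun d x => f' x d) (bound := fun _ => M) hs ?_ ?_ ?_ ?_ ?_ ?_).2
  · filter_upwards [hs] with d hd
    exact (hslice f hfc d (hsub hd)).aestronglyMeasurable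
  · exact (hslice f hfc d0 hd0).intervalIntegrable _ _
  · exact (hslice f' hf'c d0 hd0).aestronglyMeasurable
  · refine Eventually.of_forall fun x hx d hd => ?_
    rw [uIoc_of_le zero_le_one] at hx
    exact hM (x, d) ⟨⟨hx.1.le, hx.2⟩, hd⟩
  · exact intervalIntegrable_const
  · exact Eventually.of_forall fun x _ d hd => hf d (hsub hd) x

/-- a `C²` function on the periodic strip, with its partial derivatives, subharmonic -/
structure Sm (D : ℝ) (v vx vd vxx vdd : ℝ → ℝ → ℝ) : Prop where
  hx : ∀ x, ∀ d ∈ Ioo 0 D, HasDerivAt (fun x => v x d) (vx x d) x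
  hxx : ∀ x, ∀ d ∈ Ioo 0 D, HasDerivAt (fun x => vx x d) (vxx x d) x
  hd : ∀ x, ∀ d ∈ Ioo 0 D, HasDerivAt (fun d => v x d) (vd x d) d
  hdd : ∀ x, ∀ d ∈ Ioo 0 D, HasDerivAt (fun d => vd x d) (vdd x d) d
  c : ContinuousOn (fun p : ℝ × ℝ => v p.1 p.2) (univ ×ˢ Ioo 0 D)
  cx : ContinuousOn (fun p : ℝ × ℝ => vx p.1 p.2) (univ ×ˢ Ioo 0 D)
  cd : ContinuousOn (fun p : ℝ × ℝ => vd p.1 p.2) (univ ×ˢ Ioo 0 D)
  cxx : ContinuousOn (fun p : ℝ × ℝ => vxx p.1 p.2) (univ ×ˢ Ioo 0 D)
  cdd : ContinuousOn (fun p : ℝ × ℝ => vdd p.1 p.2) (univ ×ˢ Ioo 0 D)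
  per : ∀ x, ∀ d ∈ Ioo 0 D, v (x+1) d = v x d
  sub : ∀ x, ∀ d ∈ Ioo 0 D, 0 ≤ vxx x d + vdd x d

/-- the convex decreasing test function -/
noncomputable def rt (s : ℝ) : ℝ := Real.sqrt (1 + s^2)

lemma rt_pos (s : ℝ) : 0 < rt s := Real.sqrt_pos.mpr (by positivity)

lemma rt_sq (s : ℝ) : rt s ^ 2 = 1 + s^2 := Real.sq_sqrt (by positivity)

lemma abs_lt_rt (s : ℝ) : |s| < rt s := by
  refine abs_lt_of_sq_lt_sq ?_ (rt_pos s).le
  rw [rt_sq]; linarith

lemma rt_hd (s : ℝ) : HasDerivAt rt (s / rt s) s := by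
  have h1 : HasDerivAt (fun s : ℝ => 1 + s^2) (2 * s) s := by
    have := (hasDerivAt_pow 2 s).const_add 1
    refine this.congr_deriv ?_
    simp
  have h2 := h1.sqrt (by positivity)
  refine h2.congr_deriv ?_
  have := (rt_pos s).ne'
  unfold rt at *
  field_simp

noncomputable def psi (s : ℝ) : ℝ := (rt s - s)^2
noncomputable def psi1 (s : ℝ) : ℝ := -2 * (rt s - s)^2 / rt s
noncomputable def psi2 (s : ℝ) : ℝ := 2 * (rt s - s)^2 * (2 * rt s + s) / rt s ^ 3

lemma psi_hd (s : ℝ) : HasDerivAt psi (psi1 s) s := by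
  have h1 := ((rt_hd s).sub (hasDerivAt_id s)).pow 2
  refine (h1.congr_deriv ?_)
  have := (rt_pos s).ne'
  unfold psi1
  simp only [Pi.sub_apply, id]
  field_simp
  push_cast
  ring

lemma psi1_hd (s : ℝ) : HasDerivAt psi1 (psi2 s) s := by
  have h1 := (((((rt_hd s).sub (hasDerivAt_id s)).pow 2).const_mul (-2))).div (rt_hd s) (rt_pos s).ne'
  refine (h1.congr_deriv ?_)
  have := (rt_pos s).ne'
  unfold psi2
  simp only [Pi.sub_apply, Pi.pow_apply, id]
  field_simp
  push_cast
  ring

lemma psi1_nonpos (s : ℝ) : psi1 s ≤ 0 := by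
  unfold psi1
  have := rt_pos s
  apply div_nonpos_of_nonpos_of_nonneg _ this.le
  nlinarith [sq_nonneg (rt s - s)]

lemma psi2_nonneg (s : ℝ) : 0 ≤ psi2 s := by
  unfold psi2
  have h1 := rt_pos s
  have h2 := abs_lt_rt s
  have h3 := abs_lt.mp h2
  have : 0 ≤ 2 * rt s + s := by linarith
  positivity

lemma psi2_le (s : ℝ) : psi2 s ≤ 8 := by
  unfold psi2
  have h1 := rt_pos s
  have h2 := abs_lt_rt s
  have h3 := abs_lt.mp h2
  rw [div_le_iff₀ (by positivity)]
  have : 0 ≤ (rt s + s)^2 * (2 * rt s - s) := mul_nonneg (sq_nonneg _) (by linarith)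
  nlinarith [this]

lemma psi_zero : psi 0 = 1 := by
  unfold psi rt; simp

lemma psi1_zero : psi1 0 = -2 := by
  unfold psi1 rt; simp

lemma neg_sq_le (s : ℝ) : (max 0 (-s))^2 ≤ psi s / 4 := by
  unfold psi
  have h2 := abs_lt_rt s
  have h3 := abs_lt.mp h2
  rcases le_total s 0 with h | h
  · rw [max_eq_right (by linarith)]
    nlinarith
  · rw [max_eq_left (by linarith)]
    have := sq_nonneg (rt s - s)
    linarith

lemma rt_cont : Continuous rt := by
  unfold rt; fun_prop

lemma psi_cont : Continuous psi := by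
  unfold psi; have := rt_cont; fun_prop

lemma psi1_cont : Continuous psi1 := by
  unfold psi1
  have := rt_cont
  exact Continuous.div (by fun_prop) this (fun s => (rt_pos s).ne')

lemma psi2_cont : Continuous psi2 := by
  unfold psi2
  have := rt_cont
  exact Continuous.div (by fun_prop) (by fun_prop) (fun s => (pow_pos (rt_pos s) 3).ne')

lemma slice {g : ℝ → ℝ → ℝ} {D : ℝ}
    (hg : ContinuousOn (fun p : ℝ × ℝ => g p.1 p.2) (univ ×ˢ Ioo 0 D))
    {d : ℝ} (hd : d ∈ Ioo 0 D) : Continuous (fun x => g x d) := by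
  have h1 : ContinuousOn ((fun p : ℝ × ℝ => g p.1 p.2) ∘ fun x : ℝ => (x, d)) univ :=
    hg.comp (by fun_prop) (fun x _ => ⟨mem_univ _, hd⟩)
  exact continuousOn_univ.mp h1

theorem inc {D C : ℝ} {v vx vd vxx vdd : ℝ → ℝ → ℝ} (S : Sm D v vx vd vxx vdd) (hC : 0 ≤ C)
    (hE : ∀ d ∈ Ioo 0 D, ∫ x in (0:ℝ)..1, ((vx x d)^2 + (vd x d)^2) ≤ C / d^2)
    {d d0 : ℝ} (hd : 0 < d) (h : d ≤ d0) (h0 : d0 < D) :
    ∫ x in (0:ℝ)..1, (max 0 (v x d0 - v x d))^2 ≤ 4 * (C + 1) * (1 + Real.log (d0/d)) := by
  have hd0 : 0 < d0 := lt_of_lt_of_le hd h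
  have hd0m : d0 ∈ Ioo 0 D := ⟨hd0, h0⟩
  have hdm : d ∈ Ioo 0 D := ⟨hd, lt_of_le_of_lt h h0⟩
  have hvd0 : Continuous (fun x => v x d0) := slice S.c hd0m
  have hvx0 : Continuous (fun x => vx x d0) := slice S.cx hd0m
  have hb : ContinuousOn (fun p : ℝ × ℝ => v p.1 d0) (univ ×ˢ Ioo 0 D) :=
    (hvd0.comp continuous_fst).continuousOn
  have hdiff : ContinuousOn (fun p : ℝ × ℝ => v p.1 p.2 - v p.1 d0) (univ ×ˢ Ioo 0 D) := S.c.sub hb
  -- W, W1, W2
  set W : ℝ → ℝ := fun d => ∫ x in (0:ℝ)..1, psi (v x d - v x d0) with hW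
  set W1 : ℝ → ℝ := fun d => ∫ x in (0:ℝ)..1, psi1 (v x d - v x d0) * vd x d with hW1
  set W2 : ℝ → ℝ := fun d => ∫ x in (0:ℝ)..1,
    (psi2 (v x d - v x d0) * vd x d * vd x d + psi1 (v x d - v x d0) * vdd x d) with hW2
  have c1 : ContinuousOn (fun p : ℝ × ℝ => psi1 (v p.1 p.2 - v p.1 d0) * vd p.1 p.2)
      (univ ×ˢ Ioo 0 D) := (psi1_cont.comp_continuousOn hdiff).mul S.cd
  have c2 : ContinuousOn (fun p : ℝ × ℝ => psi2 (v p.1 p.2 - v p.1 d0) * vd p.1 p.2 * vd p.1 p.2
      + psi1 (v p.1 p.2 - v p.1 d0) * vdd p.1 p.2) (univ ×ˢ Ioo 0 D) :=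
    (((psi2_cont.comp_continuousOn hdiff).mul S.cd).mul S.cd).add
      ((psi1_cont.comp_continuousOn hdiff).mul S.cdd)
  have hWd : ∀ s ∈ Ioo 0 D, HasDerivAt W (W1 s) s := by
    intro s hs
    exact hasDerivAt_int (f := fun x d => psi (v x d - v x d0))
      (f' := fun x d => psi1 (v x d - v x d0) * vd x d)
      (fun d hd x => (psi_hd _).comp d ((S.hd x d hd).sub_const _))
      (psi_cont.comp_continuousOn hdiff) c1 hs
  have hW1d : ∀ s ∈ Ioo 0 D, HasDerivAt W1 (W2 s) s := by
    intro s hs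
    refine hasDerivAt_int (f := fun x d => psi1 (v x d - v x d0) * vd x d)
      (f' := fun x d => psi2 (v x d - v x d0) * vd x d * vd x d + psi1 (v x d - v x d0) * vdd x d)
      (fun d hd x => ?_) c1 c2 hs
    exact ((psi1_hd _).comp d ((S.hd x d hd).sub_const _)).mul (S.hdd x d hd)
  -- bound of W2
  have hW2b : ∀ s ∈ Ioo 0 D, s ≤ d0 → W2 s ≤ 16 * C / s^2 := by
    intro s hs hsd
    have cs : ∀ {g : ℝ → ℝ → ℝ}, ContinuousOn (fun p : ℝ × ℝ => g p.1 p.2) (univ ×ˢ Ioo 0 D) →
      Continuous (fun x => g x s) := fun hg => slice hg hs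
    have k0 := cs S.c
    have kx := cs S.cx
    have kd := cs S.cd
    have kxx := cs S.cxx
    have kdd := cs S.cdd
    have e0 : Continuous (fun x => v x s - v x d0) := k0.sub hvd0
    have e1 : Continuous (fun x => psi1 (v x s - v x d0)) := psi1_cont.comp e0
    have e2 : Continuous (fun x => psi2 (v x s - v x d0)) := psi2_cont.comp e0
    -- integration by parts
    have hparts : ∫ x in (0:ℝ)..1, psi1 (v x s - v x d0) * vxx x s
        = - ∫ x in (0:ℝ)..1, psi2 (v x s - v x d0) * (vx x s - vx x d0) * vx x s := by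
      have hh := intervalIntegral.integral_mul_deriv_eq_deriv_mul (a := 0) (b := 1)
        (u := fun x => psi1 (v x s - v x d0))
        (u' := fun x => psi2 (v x s - v x d0) * (vx x s - vx x d0))
        (v := fun x => vx x s) (v' := fun x => vxx x s)
        (fun x _ => (psi1_hd _).comp x ((S.hx x s hs).sub (S.hx x d0 hd0m)))
        (fun x _ => S.hxx x s hs)
        ((e2.mul (kx.sub hvx0)).intervalIntegrable _ _) (kxx.intervalIntegrable _ _)
      rw [hh]
      have p1 : v 1 s = v 0 s := by have := S.per 0 s hs; simpa using this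
      have p2 : v 1 d0 = v 0 d0 := by have := S.per 0 d0 hd0m; simpa using this
      have p3 : vx 1 s = vx 0 s := by
        have a1 := S.hx 1 s hs
        have a2 : HasDerivAt (fun x => v (x+1) s) (vx 1 s) 0 := by
          have : HasDerivAt (fun x : ℝ => x + 1) 1 0 := (hasDerivAt_id 0).add_const 1
          have a1' : HasDerivAt (fun x => v x s) (vx 1 s) ((0:ℝ)+1) := by simpa using a1
          have a4 := a1'.comp (0:ℝ) this
          rw [mul_one] at a4
          exact a4
        have a3 : (fun x => v (x+1) s) = fun x => v x s := by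
          funext x; exact S.per x s hs
        rw [a3] at a2
        exact a2.unique (S.hx 0 s hs)
      rw [p1, p2, p3]
      ring
    have hle : W2 s ≤ ∫ x in (0:ℝ)..1, (12 * ((vx x s)^2 + (vd x s)^2) + 4 * ((vx x d0)^2)) := by
      have i1 : W2 s ≤ ∫ x in (0:ℝ)..1, (psi2 (v x s - v x d0) * vd x s * vd x s
          - psi1 (v x s - v x d0) * vxx x s) := by
        refine intervalIntegral.integral_mono_on zero_le_one
          ((((e2.mul kd).mul kd).add (e1.mul kdd)).intervalIntegrable _ _)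
          ((((e2.mul kd).mul kd).sub (e1.mul kxx)).intervalIntegrable _ _) ?_
        intro x _
        have := S.sub x s hs
        have := psi1_nonpos (v x s - v x d0)
        nlinarith
      refine i1.trans ?_
      have ia : IntervalIntegrable (fun x => psi2 (v x s - v x d0) * vd x s * vd x s) volume 0 1 :=
        (((e2.mul kd).mul kd)).intervalIntegrable _ _
      have ib : IntervalIntegrable (fun x => psi1 (v x s - v x d0) * vxx x s) volume 0 1 :=
        (e1.mul kxx).intervalIntegrable _ _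
      have ic : IntervalIntegrable
          (fun x => psi2 (v x s - v x d0) * (vx x s - vx x d0) * vx x s) volume 0 1 :=
        ((e2.mul (kx.sub hvx0)).mul kx).intervalIntegrable _ _
      rw [intervalIntegral.integral_sub ia ib, hparts, sub_neg_eq_add,
        ← intervalIntegral.integral_add ia ic]
      refine intervalIntegral.integral_mono_on zero_le_one
          ((((e2.mul kd).mul kd).add ((e2.mul (kx.sub hvx0)).mul kx)).intervalIntegrable _ _)
          (Continuous.intervalIntegrable (by fun_prop) _ _) ?_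
      intro x _
      have q0 := psi2_nonneg (v x s - v x d0)
      have q8 := psi2_le (v x s - v x d0)
      have r1 : psi2 (v x s - v x d0) * vd x s * vd x s ≤ 8 * (vd x s)^2 := by
        nlinarith [sq_nonneg (vd x s)]
      have r2 : psi2 (v x s - v x d0) * (vx x s - vx x d0) * vx x s
          ≤ 12 * (vx x s)^2 + 4 * (vx x d0)^2 := by
        have t1 : (vx x s - vx x d0) * vx x s ≤ (3/2) * (vx x s)^2 + (1/2) * (vx x d0)^2 := by
          nlinarith [sq_nonneg (vx x s + vx x d0)]
        have t2 : 0 ≤ (3/2) * (vx x s)^2 + (1/2) * (vx x d0)^2 := by positivity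
        calc psi2 (v x s - v x d0) * (vx x s - vx x d0) * vx x s
            = psi2 (v x s - v x d0) * ((vx x s - vx x d0) * vx x s) := by ring
          _ ≤ psi2 (v x s - v x d0) * ((3/2) * (vx x s)^2 + (1/2) * (vx x d0)^2) :=
              mul_le_mul_of_nonneg_left t1 q0
          _ ≤ 8 * ((3/2) * (vx x s)^2 + (1/2) * (vx x d0)^2) :=
              mul_le_mul_of_nonneg_right q8 t2
          _ = _ := by ring
      nlinarith [sq_nonneg (vd x s)]
    refine hle.trans ?_
    rw [intervalIntegral.integral_add (Continuous.intervalIntegrable (by fun_prop) _ _)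
      (Continuous.intervalIntegrable (by fun_prop) _ _), intervalIntegral.integral_const_mul,
      intervalIntegral.integral_const_mul]
    have j1 := hE s hs
    have j2 : ∫ x in (0:ℝ)..1, (vx x d0)^2 ≤ C / s^2 := by
      have : ∫ x in (0:ℝ)..1, (vx x d0)^2 ≤ ∫ x in (0:ℝ)..1, ((vx x d0)^2 + (vd x d0)^2) := by
        have kd0 : Continuous (fun x => vd x d0) := slice S.cd hd0m
        refine intervalIntegral.integral_mono_on zero_le_one
          (Continuous.intervalIntegrable (by fun_prop) _ _)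
          (Continuous.intervalIntegrable (by fun_prop) _ _) ?_
        intro x _
        nlinarith [sq_nonneg (vd x d0)]
      refine this.trans ((hE d0 hd0m).trans ?_)
      have hs0 : 0 < s := hs.1
      gcongr
    have : 16 * C / s^2 = 12 * (C / s^2) + 4 * (C / s^2) := by ring
    rw [this]
    linarith
  -- values at d0
  have hWd0 : W d0 = 1 := by
    simp only [hW, sub_self, psi_zero]
    simp
  have hW1d0 : |W1 d0| * d0 ≤ C + 1 := by
    have kd0 : Continuous (fun x => vd x d0) := slice S.cd hd0m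
    have e : W1 d0 = -2 * ∫ x in (0:ℝ)..1, vd x d0 := by
      simp only [hW1, sub_self, psi1_zero]
      rw [intervalIntegral.integral_const_mul]
    -- pointwise  2|t| ≤ d0 t^2 + 1/d0
    have up : ∀ σ : ℝ, (σ = 1 ∨ σ = -1) →
        σ * W1 d0 ≤ (C + 1)/d0 := by
      intro σ hσ
      have hσ2 : σ^2 = 1 := by rcases hσ with h | h <;> rw [h] <;> norm_num
      have : σ * W1 d0 = ∫ x in (0:ℝ)..1, (-2 * σ) * vd x d0 := by
        rw [e, intervalIntegral.integral_const_mul]; ring
      rw [this]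
      have : ∫ x in (0:ℝ)..1, (-2 * σ) * vd x d0
          ≤ ∫ x in (0:ℝ)..1, (d0 * ((vx x d0)^2 + (vd x d0)^2) + 1/d0) := by
        have kx0 := hvx0
        refine intervalIntegral.integral_mono_on zero_le_one
          (Continuous.intervalIntegrable (by fun_prop) _ _)
          (Continuous.intervalIntegrable (by fun_prop) _ _) ?_
        intro x _
        have t1 : 0 ≤ (d0 * vd x d0 + σ)^2 / d0 := by positivity
        have t2 : (d0 * vd x d0 + σ)^2 / d0 = d0 * (vd x d0)^2 + 2 * σ * vd x d0 + σ^2/d0 := by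
          field_simp
          ring
        rw [t2, hσ2] at t1
        have t3 : 0 ≤ d0 * (vx x d0)^2 := by positivity
        linarith
      refine this.trans ?_
      rw [intervalIntegral.integral_add (Continuous.intervalIntegrable (by fun_prop) _ _)
        (Continuous.intervalIntegrable (by fun_prop) _ _), intervalIntegral.integral_const_mul,
        intervalIntegral.integral_const]
      have t4 : d0 * ∫ x in (0:ℝ)..1, ((vx x d0)^2 + (vd x d0)^2) ≤ d0 * (C/d0^2) :=
        mul_le_mul_of_nonneg_left (hE d0 hd0m) hd0.le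
      have t5 : d0 * (C/d0^2) = C/d0 := by field_simp
      simp only [sub_zero, smul_eq_mul, one_mul]
      rw [add_div]
      linarith
    have u1 := up 1 (Or.inl rfl)
    have u2 := up (-1) (Or.inr rfl)
    have : |W1 d0| ≤ (C+1)/d0 := by
      rw [abs_le]
      constructor <;> linarith
    calc |W1 d0| * d0 ≤ (C+1)/d0 * d0 := by gcongr
      _ = C + 1 := by field_simp
  -- first monotonicity
  have hIcc : Icc d d0 ⊆ Ioo 0 D := fun s hs => ⟨lt_of_lt_of_le hd hs.1, lt_of_le_of_lt hs.2 h0⟩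
  have mono1 : ∀ s ∈ Icc d d0, W1 d0 + 16 * C / d0 ≤ W1 s + 16 * C / s := by
    intro s hs
    have hanti : AntitoneOn (fun s => W1 s + 16 * C / s) (Icc d d0) := by
      refine antitoneOn_of_deriv_nonpos (convex_Icc _ _) ?_ ?_ ?_
      · intro t ht
        have htp : t ≠ 0 := (lt_of_lt_of_le hd ht.1).ne'
        exact ((hW1d t (hIcc ht)).continuousAt.add
          (continuousAt_const.div continuousAt_id htp)).continuousWithinAt
      · intro t ht
        rw [interior_Icc] at ht
        have ht' : t ∈ Icc d d0 := Ioo_subset_Icc_self ht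
        have htp : t ≠ 0 := (lt_of_lt_of_le hd ht'.1).ne'
        exact ((hW1d t (hIcc ht')).differentiableAt.add
          (by fun_prop (disch := assumption))).differentiableWithinAt
      · intro t ht
        rw [interior_Icc] at ht
        have ht' : t ∈ Icc d d0 := Ioo_subset_Icc_self ht
        have htp : t ≠ 0 := (lt_of_lt_of_le hd ht'.1).ne'
        have hinv : HasDerivAt (fun s : ℝ => 16 * C / s) (-(16 * C) / t^2) t := by
          have := (hasDerivAt_inv htp).const_mul (16*C)
          refine this.congr_deriv ?_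
          field_simp
        have := ((hW1d t (hIcc ht')).add hinv).deriv
        have hb := hW2b t (hIcc ht') ht'.2
        have e : deriv (fun s => W1 s + 16 * C / s) t = W2 t + -(16 * C)/t^2 := this
        rw [e, neg_div]
        linarith
    exact hanti hs (right_mem_Icc.mpr h) hs.2
  have mono2 : W d + 16 * C * Real.log d - W1 d0 * d
      ≤ W d0 + 16 * C * Real.log d0 - W1 d0 * d0 := by
    have hmono : MonotoneOn (fun s => W s + 16 * C * Real.log s - W1 d0 * s) (Icc d d0) := by
      have hder : ∀ t ∈ Icc d d0, HasDerivAt (fun s => W s + 16 * C * Real.log s - W1 d0 * s)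
          (W1 t + 16 * C * t⁻¹ - W1 d0) t := by
        intro t ht
        have htp : t ≠ 0 := (lt_of_lt_of_le hd ht.1).ne'
        have := (((hWd t (hIcc ht)).add ((Real.hasDerivAt_log htp).const_mul (16*C))).sub
          ((hasDerivAt_id t).const_mul (W1 d0)))
        refine this.congr_deriv ?_
        simp
      refine monotoneOn_of_deriv_nonneg (convex_Icc _ _) ?_ ?_ ?_
      · intro t ht
        exact (hder t ht).continuousAt.continuousWithinAt
      · intro t ht
        rw [interior_Icc] at ht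
        exact (hder t (Ioo_subset_Icc_self ht)).differentiableAt.differentiableWithinAt
      · intro t ht
        rw [interior_Icc] at ht
        have ht' : t ∈ Icc d d0 := Ioo_subset_Icc_self ht
        rw [(hder t ht').deriv]
        have m := mono1 t ht'
        have : 0 ≤ 16 * C / d0 := by positivity
        have e : 16 * C * t⁻¹ = 16 * C / t := by ring
        rw [e]
        linarith
    exact hmono (left_mem_Icc.mpr h) (right_mem_Icc.mpr h) h
  have hWle : W d ≤ 2 + C + 16 * C * Real.log (d0/d) := by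
    rw [Real.log_div hd0.ne' hd.ne']
    rw [hWd0] at mono2
    have : -(W1 d0) * (d0 - d) ≤ |W1 d0| * d0 := by
      have a1 : -(W1 d0) ≤ |W1 d0| := neg_le_abs _
      have a2 : 0 ≤ d0 - d := by linarith
      calc -(W1 d0) * (d0 - d) ≤ |W1 d0| * (d0 - d) := mul_le_mul_of_nonneg_right a1 a2
        _ ≤ |W1 d0| * d0 := mul_le_mul_of_nonneg_left (by linarith) (abs_nonneg _)
    nlinarith
  have hfin : ∫ x in (0:ℝ)..1, (max 0 (v x d0 - v x d))^2 ≤ W d / 4 := by
    have kd : Continuous (fun x => v x d) := slice S.c hdm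
    rw [hW, ← intervalIntegral.integral_div]
    refine intervalIntegral.integral_mono_on zero_le_one
      (Continuous.intervalIntegrable (by fun_prop) _ _)
      (Continuous.intervalIntegrable ?_ _ _) ?_
    · exact (psi_cont.comp (kd.sub hvd0)).div_const _
    · intro x _
      have := neg_sq_le (v x d - v x d0)
      rwa [neg_sub] at this
  have hlog : 0 ≤ Real.log (d0/d) := Real.log_nonneg (by rw [le_div_iff₀ hd]; linarith)
  calc ∫ x in (0:ℝ)..1, (max 0 (v x d0 - v x d))^2 ≤ W d / 4 := hfin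
    _ ≤ (2 + C + 16 * C * Real.log (d0/d)) / 4 := by gcongr
    _ ≤ 4 * (C + 1) * (1 + Real.log (d0/d)) := by nlinarith [mul_nonneg hC hlog]

end Vale.Agent.P097.H140
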