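import Vale.Agent.P097.H140.Inc

open MeasureTheory Set Filter Topology ComplexConjugate

namespace Vale.Agent.P097.H140

/-! ### parametric integrals over a compact set of the plane -/

theorem contOn_setInt {f : ℝ × ℝ → ℝ × ℝ → ℝ} {S U : Set (ℝ × ℝ)} (hS : IsCompact S)
    (hU : IsOpen U)
    (hf : ContinuousOn (fun q : (ℝ × ℝ) × (ℝ × ℝ) => f q.1 q.2) (U ×ˢ S)) :
    ContinuousOn (fun x => ∫ p in S, f x p) U := by
  intro x0 hx0
  obtain ⟨r, hr, hball⟩ := Metric.isOpen_iff.mp hU x0 hx0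
  set B : Set (ℝ × ℝ) := Metric.closedBall x0 (r/2)
  have hsub : B ⊆ U := (Metric.closedBall_subset_ball (by linarith)).trans hball
  have hB : B ∈ 𝓝 x0 := Metric.closedBall_mem_nhds _ (by linarith)
  obtain ⟨M, hM⟩ := ((isCompact_closedBall x0 (r/2)).prod hS).exists_bound_of_continuousOn
    (hf.mono (prod_mono hsub subset_rfl))
  refine ContinuousAt.continuousWithinAt ?_
  refine continuousAt_of_dominated (bound := fun _ => M) ?_ ?_ ?_ ?_
  · filter_upwards [hB] with x hx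
    have : ContinuousOn (fun p => f x p) S :=
      hf.comp (f := fun p : ℝ × ℝ => (x, p)) (by fun_prop) (fun p hp => ⟨hsub hx, hp⟩)
    exact this.aestronglyMeasurable hS.measurableSet
  · filter_upwards [hB] with x hx
    rw [ae_restrict_iff' hS.measurableSet]
    exact Eventually.of_forall fun p hp => hM (x, p) ⟨hx, hp⟩
  · exact integrableOn_const hS.measure_ne_top
  · rw [ae_restrict_iff' hS.measurableSet]
    refine Eventually.of_forall fun p hp => ?_
    have : ContinuousOn (fun x => f x p) U :=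
      hf.comp (f := fun x : ℝ × ℝ => (x, p)) (by fun_prop) (fun x hx => ⟨hx, hp⟩)
    exact this.continuousAt (hU.mem_nhds hx0)

theorem hasDerivAt_setInt {f f' : ℝ → ℝ × ℝ → ℝ} {S : Set (ℝ × ℝ)} {V : Set ℝ} (hS : IsCompact S)
    (hV : IsOpen V) (hfd : ∀ t ∈ V, ∀ p ∈ S, HasDerivAt (fun t => f t p) (f' t p) t)
    (hf : ContinuousOn (fun q : ℝ × (ℝ × ℝ) => f q.1 q.2) (V ×ˢ S))
    (hf' : ContinuousOn (fun q : ℝ × (ℝ × ℝ) => f' q.1 q.2) (V ×ˢ S))
    {t0 : ℝ} (ht0 : t0 ∈ V) :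
    HasDerivAt (fun t => ∫ p in S, f t p) (∫ p in S, f' t0 p) t0 := by
  obtain ⟨r, hr, hball⟩ := Metric.isOpen_iff.mp hV t0 ht0
  set B : Set ℝ := Metric.closedBall t0 (r/2)
  have hsub : B ⊆ V := (Metric.closedBall_subset_ball (by linarith)).trans hball
  have hB : B ∈ 𝓝 t0 := Metric.closedBall_mem_nhds _ (by linarith)
  obtain ⟨M, hM⟩ := ((isCompact_closedBall t0 (r/2)).prod hS).exists_bound_of_continuousOn
    (hf'.mono (prod_mono hsub subset_rfl))
  have hs : ∀ g : ℝ → ℝ × ℝ → ℝ, ContinuousOn (fun q : ℝ × (ℝ × ℝ) => g q.1 q.2) (V ×ˢ S) →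
      ∀ t ∈ V, ContinuousOn (fun p => g t p) S := fun g hg t ht =>
    hg.comp (f := fun p : ℝ × ℝ => (t, p)) (by fun_prop) (fun p hp => ⟨ht, hp⟩)
  refine (hasDerivAt_integral_of_dominated_loc_of_deriv_le (μ := volume.restrict S)
    (F := fun t p => f t p) (F' := fun t p => f' t p) (bound := fun _ => M) hB ?_ ?_ ?_ ?_ ?_ ?_).2
  · filter_upwards [hB] with t ht
    exact (hs f hf t (hsub ht)).aestronglyMeasurable hS.measurableSet
  · exact (hs f hf t0 ht0).integrableOn_compact hS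
  · exact (hs f' hf' t0 ht0).aestronglyMeasurable hS.measurableSet
  · rw [ae_restrict_iff' hS.measurableSet]
    exact Eventually.of_forall fun p hp t ht => hM (t, p) ⟨ht, hp⟩
  · exact integrableOn_const hS.measure_ne_top
  · rw [ae_restrict_iff' hS.measurableSet]
    exact Eventually.of_forall fun p hp t ht => hfd t (hsub ht) p hp

/-! ### the regularised logarithm of a holomorphic function -/

noncomputable def NN (ε : ℝ) (y : ℂ → ℂ) (z : ℂ) : ℝ := ‖y z‖^2 + ε^2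
noncomputable def uu (ε : ℝ) (y : ℂ → ℂ) (z : ℂ) : ℝ := (1/2) * Real.log (NN ε y z)
noncomputable def Gr (ε : ℝ) (y y1 : ℂ → ℂ) (z : ℂ) : ℂ := conj (y z) * y1 z / (NN ε y z : ℂ)
noncomputable def HH (ε : ℝ) (y y1 y2 : ℂ → ℂ) (z : ℂ) : ℂ :=
  conj (y z) * y2 z / (NN ε y z : ℂ) - (conj (y z) * y1 z)^2 / (NN ε y z : ℂ)^2
noncomputable def LL (ε : ℝ) (y y1 : ℂ → ℂ) (z : ℂ) : ℝ := ε^2 * ‖y1 z‖^2 / (NN ε y z)^2

lemma NN_pos {ε : ℝ} (hε : 0 < ε) (y : ℂ → ℂ) (z : ℂ) : 0 < NN ε y z := by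
  unfold NN; positivity

lemma path_hd {y : ℂ → ℂ} {y1 : ℂ} {γ : ℝ → ℂ} {v : ℂ} {t : ℝ} (hy : HasDerivAt y y1 (γ t))
    (hγ : HasDerivAt γ v t) : HasDerivAt (fun t => y (γ t)) (y1 * v) t := by
  have := (hy.hasFDerivAt.restrictScalars ℝ).comp_hasDerivAt t hγ
  refine this.congr_deriv ?_
  simp [mul_comm]

lemma NN_hd {ε : ℝ} {y : ℂ → ℂ} {y1 : ℂ} {γ : ℝ → ℂ} {v : ℂ} {t : ℝ}
    (hy : HasDerivAt y y1 (γ t)) (hγ : HasDerivAt γ v t) :
    HasDerivAt (fun t => NN ε y (γ t)) (2 * (conj (y (γ t)) * (y1 * v)).re) t := by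
  have h1 := (path_hd hy hγ).norm_sq
  have h2 := h1.add_const (ε^2)
  refine h2.congr_deriv ?_
  rw [Complex.inner, mul_comm (y1 * v)]

lemma uu_hd {ε : ℝ} (hε : 0 < ε) {y y1 : ℂ → ℂ} {γ : ℝ → ℂ} {v : ℂ} {t : ℝ}
    (hy : HasDerivAt y (y1 (γ t)) (γ t)) (hγ : HasDerivAt γ v t) :
    HasDerivAt (fun t => uu ε y (γ t)) (Gr ε y y1 (γ t) * v).re t := by
  have h1 := ((NN_hd (ε := ε) hy hγ).log (NN_pos hε y (γ t)).ne').const_mul (1/2)
  refine h1.congr_deriv ?_
  have hN := (NN_pos hε y (γ t)).ne'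
  unfold Gr
  have : conj (y (γ t)) * y1 (γ t) / (NN ε y (γ t) : ℂ) * v
      = ((NN ε y (γ t))⁻¹ : ℝ) * (conj (y (γ t)) * (y1 (γ t) * v)) := by
    push_cast; field_simp
  rw [this, Complex.re_ofReal_mul]
  field_simp

lemma Gr_hd {ε : ℝ} (hε : 0 < ε) {y y1 y2 : ℂ → ℂ} {γ : ℝ → ℂ} {v : ℂ} {t : ℝ}
    (hy : HasDerivAt y (y1 (γ t)) (γ t)) (hy1 : HasDerivAt y1 (y2 (γ t)) (γ t))
    (hγ : HasDerivAt γ v t) :
    HasDerivAt (fun t => Gr ε y y1 (γ t))
      (v * HH ε y y1 y2 (γ t) + conj v * (LL ε y y1 (γ t) : ℂ)) t := by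
  have hN := (NN_pos hε y (γ t)).ne'
  have hNc : (NN ε y (γ t) : ℂ) ≠ 0 := by exact_mod_cast hN
  have a1 := path_hd hy hγ
  have a2 := path_hd hy1 hγ
  have a3 : HasDerivAt (fun t => conj (y (γ t))) (conj (y1 (γ t) * v)) t := by
    have := (Complex.conjCLE : ℂ →L[ℝ] ℂ).hasFDerivAt.comp_hasDerivAt t a1
    exact this
  have a4 : HasDerivAt (fun t => (NN ε y (γ t) : ℂ))
      ((2 * (conj (y (γ t)) * (y1 (γ t) * v)).re : ℝ) : ℂ) t := (NN_hd (ε := ε) hy hγ).ofReal_comp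
  have h1 := (a3.mul a2).div a4 hNc
  refine h1.congr_deriv ?_
  have e1 : ((2 * (conj (y (γ t)) * (y1 (γ t) * v)).re : ℝ) : ℂ)
      = conj (y (γ t)) * (y1 (γ t) * v) + y (γ t) * conj (y1 (γ t) * v) := by
    have := Complex.add_conj (conj (y (γ t)) * (y1 (γ t) * v))
    rw [← this]
    simp only [map_mul, Complex.conj_conj]
  rw [e1]
  unfold HH LL
  have e2 : ((ε^2 * ‖y1 (γ t)‖^2 / (NN ε y (γ t))^2 : ℝ) : ℂ)
      = ((NN ε y (γ t) : ℂ) - y (γ t) * conj (y (γ t))) * (y1 (γ t) * conj (y1 (γ t)))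
        / (NN ε y (γ t) : ℂ)^2 := by
    have b1 : y (γ t) * conj (y (γ t)) = ((‖y (γ t)‖^2 : ℝ) : ℂ) := by
      rw [Complex.mul_conj, Complex.normSq_eq_norm_sq]
    have b2 : y1 (γ t) * conj (y1 (γ t)) = ((‖y1 (γ t)‖^2 : ℝ) : ℂ) := by
      rw [Complex.mul_conj, Complex.normSq_eq_norm_sq]
    rw [b1, b2]
    have b3 : (NN ε y (γ t) : ℂ) - ((‖y (γ t)‖^2 : ℝ) : ℂ) = ((ε^2 : ℝ) : ℂ) := by
      unfold NN; push_cast; ring
    rw [b3]
    push_cast
    ring
  rw [e2]
  simp only [map_mul, Pi.mul_apply]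
  field_simp
  ring

/-! ### the kernel -/

def SS : Set (ℝ × ℝ) := Icc ((-1/24, 23/24) : ℝ × ℝ) (1/24, 25/24)

lemma SS_compact : IsCompact SS := isCompact_Icc

lemma mem_SS {p : ℝ × ℝ} : p ∈ SS ↔ (-1/24 ≤ p.1 ∧ p.1 ≤ 1/24) ∧ (23/24 ≤ p.2 ∧ p.2 ≤ 25/24) := by
  unfold SS
  constructor
  · rintro ⟨h1, h2⟩
    exact ⟨⟨h1.1, h2.1⟩, ⟨h1.2, h2.2⟩⟩
  · rintro ⟨⟨a, b⟩, ⟨c, d⟩⟩
    exact ⟨⟨a, c⟩, ⟨b, d⟩⟩

lemma SS_pos {p : ℝ × ℝ} (hp : p ∈ SS) : 0 < p.2 := by
  have := (mem_SS.mp hp).2.1; linarith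

noncomputable def ss (p : ℝ × ℝ) : ℝ := (p.1^2 + (1 - p.2)^2)/p.2
noncomputable def chi (s : ℝ) : ℝ := Real.smoothTransition (1 - 1000 * s)
noncomputable def KK (p : ℝ × ℝ) : ℝ := chi (ss p) / p.2^2
noncomputable def KA (p : ℝ × ℝ) : ℝ := deriv chi (ss p) * (2 * p.1 / p.2) / p.2^2
noncomputable def KB (p : ℝ × ℝ) : ℝ :=
  deriv chi (ss p) * ((p.2^2 - 1 - p.1^2)/p.2^2) / p.2^2 - 2 * chi (ss p)/p.2^3

lemma chi_smooth : ContDiff ℝ 2 chi := by
  unfold chi
  exact (Real.smoothTransition.contDiff (n := 2)).comp (by fun_prop)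

lemma chi_hd (s : ℝ) : HasDerivAt chi (deriv chi s) s :=
  ((chi_smooth.differentiable (by norm_num)) s).hasDerivAt

lemma dchi_cont : Continuous (deriv chi) := chi_smooth.continuous_deriv (by norm_num)

lemma chi_cont : Continuous chi := chi_smooth.continuous

lemma ss_hdA {p : ℝ × ℝ} (hp : 0 < p.2) : HasDerivAt (fun t => ss (t, p.2)) (2 * p.1 / p.2) p.1 := by
  unfold ss
  have h1 : HasDerivAt (fun t : ℝ => t^2 + (1 - p.2)^2) (2 * p.1) p.1 := by
    have := (hasDerivAt_pow 2 p.1).add_const ((1 - p.2)^2)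
    refine this.congr_deriv ?_
    simp
  exact h1.div_const _

lemma ss_hdB {p : ℝ × ℝ} (hp : 0 < p.2) :
    HasDerivAt (fun t => ss (p.1, t)) ((p.2^2 - 1 - p.1^2)/p.2^2) p.2 := by
  unfold ss
  have h0 : HasDerivAt (fun t : ℝ => 1 - t) (-1) p.2 := (hasDerivAt_id p.2).const_sub 1
  have h1 := ((h0.pow 2).const_add (p.1^2)).div (hasDerivAt_id p.2) hp.ne'
  refine h1.congr_deriv ?_
  simp only [id, Pi.pow_apply]
  field_simp
  push_cast
  ring

lemma KK_hdA {p : ℝ × ℝ} (hp : 0 < p.2) : HasDerivAt (fun t => KK (t, p.2)) (KA p) p.1 := by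
  have h0 : HasDerivAt (fun t => chi (ss (t, p.2))) (deriv chi (ss p) * (2 * p.1 / p.2)) p.1 :=
    HasDerivAt.comp (h₂ := chi) (h := fun t => ss (t, p.2)) p.1 (chi_hd (ss (p.1, p.2))) (ss_hdA hp)
  exact h0.div_const (p.2^2)

lemma KK_hdB {p : ℝ × ℝ} (hp : 0 < p.2) : HasDerivAt (fun t => KK (p.1, t)) (KB p) p.2 := by
  have h0 : HasDerivAt (fun t => chi (ss (p.1, t)))
      (deriv chi (ss p) * ((p.2^2 - 1 - p.1^2)/p.2^2)) p.2 :=
    HasDerivAt.comp (h₂ := chi) (h := fun t => ss (p.1, t)) p.2 (chi_hd (ss (p.1, p.2))) (ss_hdB hp)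
  have h1 := h0.div (hasDerivAt_pow 2 p.2) (pow_pos hp 2).ne'
  refine h1.congr_deriv ?_
  unfold KB
  simp only [Prod.mk.eta]
  field_simp
  push_cast
  ring

lemma K_id {p : ℝ × ℝ} (hp : 0 < p.2) :
    (1 + p.1^2 - p.2^2) * KA p + 2 * p.1 * p.2 * KB p + 4 * p.1 * KK p = 0 := by
  unfold KA KB KK
  field_simp
  ring

lemma ss_diff {p : ℝ × ℝ} (hp : 0 < p.2) : DifferentiableAt ℝ ss p := by
  unfold ss
  have := hp.ne'
  fun_prop (disch := assumption)

lemma KK_diff {p : ℝ × ℝ} (hp : 0 < p.2) : DifferentiableAt ℝ KK p := by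
  unfold KK
  have h1 : DifferentiableAt ℝ (fun p => chi (ss p)) p :=
    ((chi_smooth.differentiable (by norm_num)) (ss p)).comp p (ss_diff hp)
  have h2 : DifferentiableAt ℝ (fun p : ℝ × ℝ => p.2^2) p := by fun_prop
  have h3 : DifferentiableAt ℝ (fun p : ℝ × ℝ => (p.2^2)⁻¹) p := h2.fun_inv (pow_pos hp 2).ne'
  simp only [div_eq_mul_inv]
  exact h1.mul h3

lemma ss_contOn : ContinuousOn ss SS := fun p hp => (ss_diff (SS_pos hp)).continuousAt.continuousWithinAt

lemma KK_contOn : ContinuousOn KK SS := fun p hp => (KK_diff (SS_pos hp)).continuousAt.continuousWithinAt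

lemma KA_contOn : ContinuousOn KA SS := by
  unfold KA
  have h1 : ContinuousOn (fun p => deriv chi (ss p)) SS := dchi_cont.comp_continuousOn ss_contOn
  refine ContinuousOn.div (h1.mul ?_) (by fun_prop) (fun p hp => (pow_pos (SS_pos hp) 2).ne')
  exact ContinuousOn.div (by fun_prop) (by fun_prop) (fun p hp => (SS_pos hp).ne')

lemma KB_contOn : ContinuousOn KB SS := by
  unfold KB
  have h1 : ContinuousOn (fun p => deriv chi (ss p)) SS := dchi_cont.comp_continuousOn ss_contOn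
  have h2 : ContinuousOn (fun p => chi (ss p)) SS := chi_cont.comp_continuousOn ss_contOn
  refine ContinuousOn.sub ?_ ?_
  · refine ContinuousOn.div (h1.mul ?_) (by fun_prop) (fun p hp => (pow_pos (SS_pos hp) 2).ne')
    exact ContinuousOn.div (by fun_prop) (by fun_prop) (fun p hp => (pow_pos (SS_pos hp) 2).ne')
  · exact ContinuousOn.div (by fun_prop) (by fun_prop) (fun p hp => (pow_pos (SS_pos hp) 3).ne')

lemma KK_nonneg (p : ℝ × ℝ) : 0 ≤ KK p := by
  unfold KK chi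
  have := Real.smoothTransition.nonneg (1 - 1000 * ss p)
  positivity

lemma KK_bd {p : ℝ × ℝ} (hp : p ∈ SS)
    (hb : p.1 = -1/24 ∨ p.1 = 1/24 ∨ p.2 = 23/24 ∨ p.2 = 25/24) : KK p = 0 := by
  have h2 := mem_SS.mp hp
  have hpos := SS_pos hp
  have h3 : 1/576 ≤ p.1^2 + (1 - p.2)^2 := by
    rcases hb with h | h | h | h
    · rw [h]; nlinarith [sq_nonneg (1 - p.2)]
    · rw [h]; nlinarith [sq_nonneg (1 - p.2)]
    · rw [h]; nlinarith [sq_nonneg p.1]
    · rw [h]; nlinarith [sq_nonneg p.1]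
  have h4 : 1/1000 ≤ ss p := by
    unfold ss
    rw [le_div_iff₀ hpos]
    linarith [h2.2.2]
  unfold KK chi
  rw [Real.smoothTransition.zero_of_nonpos (by linarith)]
  simp

lemma KK_int_pos : 0 < ∫ p in SS, KK p := by
  have h0 : (0, 1) ∈ SS := mem_SS.mpr (by norm_num)
  have hint : IntegrableOn KK SS := KK_contOn.integrableOn_compact SS_compact
  rw [integral_pos_iff_support_of_nonneg (fun p => KK_nonneg p) hint]
  have hop : (0, 1) ∈ interior SS := by
    unfold SS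
    rw [Icc_prod_eq, interior_prod_eq, interior_Icc, interior_Icc]
    constructor <;> constructor <;> norm_num
  have hc : ContinuousAt KK (0, 1) := (KK_diff (by norm_num)).continuousAt
  have hpos : 0 < KK (0, 1) := by
    unfold KK chi ss
    norm_num
  have hnb : (Function.support KK ∩ SS) ∈ 𝓝 ((0, 1) : ℝ × ℝ) := by
    refine Filter.inter_mem ?_ (mem_interior_iff_mem_nhds.mp hop)
    filter_upwards [hc.eventually (lt_mem_nhds hpos)] with p hp
    exact hp.ne'
  have : 0 < volume (Function.support KK ∩ SS) :=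
    MeasureTheory.Measure.measure_pos_of_mem_nhds volume hnb
  refine lt_of_lt_of_le this ?_
  rw [Measure.restrict_apply' SS_compact.measurableSet]

/-- divergence theorem for fields vanishing where the kernel vanishes -/
theorem div_zero {f g fa gb : ℝ × ℝ → ℝ}
    (hf : ∀ p ∈ SS, DifferentiableAt ℝ f p) (hg : ∀ p ∈ SS, DifferentiableAt ℝ g p)
    (hfa : ∀ p ∈ SS, HasDerivAt (fun t => f (t, p.2)) (fa p) p.1)
    (hgb : ∀ p ∈ SS, HasDerivAt (fun t => g (p.1, t)) (gb p) p.2)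
    (hc : ContinuousOn (fun p => fa p + gb p) SS)
    (hf0 : ∀ p ∈ SS, KK p = 0 → f p = 0) (hg0 : ∀ p ∈ SS, KK p = 0 → g p = 0) :
    ∫ p in SS, (fa p + gb p) = 0 := by
  have hfa' : ∀ p ∈ SS, fderiv ℝ f p (1, 0) = fa p := by
    intro p hp
    have h1 : HasDerivAt (fun t : ℝ => ((t, p.2) : ℝ × ℝ)) (1, 0) p.1 :=
      (hasDerivAt_id p.1).prodMk (hasDerivAt_const p.1 p.2)
    have h2 : HasDerivAt (fun t => f (t, p.2)) (fderiv ℝ f p (1, 0)) p.1 :=
      (hf p hp).hasFDerivAt.comp_hasDerivAt p.1 h1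
    exact h2.unique (hfa p hp)
  have hgb' : ∀ p ∈ SS, fderiv ℝ g p (0, 1) = gb p := by
    intro p hp
    have h1 : HasDerivAt (fun t : ℝ => ((p.1, t) : ℝ × ℝ)) (0, 1) p.2 :=
      (hasDerivAt_const p.2 p.1).prodMk (hasDerivAt_id p.2)
    have h2 : HasDerivAt (fun t => g (p.1, t)) (fderiv ℝ g p (0, 1)) p.2 :=
      (hg p hp).hasFDerivAt.comp_hasDerivAt p.2 h1
    exact h2.unique (hgb p hp)
  have heq : ∀ p ∈ SS, fderiv ℝ f p (1, 0) + fderiv ℝ g p (0, 1) = fa p + gb p := fun p hp => by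
    rw [hfa' p hp, hgb' p hp]
  have hsub : Ioo (-1/24 : ℝ) (1/24) ×ˢ Ioo (23/24 : ℝ) (25/24) ⊆ SS := by
    rintro p ⟨⟨a, b⟩, ⟨c, d⟩⟩
    exact mem_SS.mpr ⟨⟨a.le, b.le⟩, ⟨c.le, d.le⟩⟩
  have key := integral_divergence_prod_Icc_of_hasFDerivAt_of_le f g (fderiv ℝ f) (fderiv ℝ g)
    ((-1/24, 23/24) : ℝ × ℝ) (1/24, 25/24) (by constructor <;> norm_num)
    (fun p hp => (hf p hp).continuousAt.continuousWithinAt)
    (fun p hp => (hg p hp).continuousAt.continuousWithinAt)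
    (fun p hp => (hf p (hsub hp)).hasFDerivAt)
    (fun p hp => (hg p (hsub hp)).hasFDerivAt)
    ((hc.congr heq).integrableOn_compact SS_compact)
  have h1 : ∫ p in SS, (fa p + gb p) = ∫ p in SS, (fderiv ℝ f p (1, 0) + fderiv ℝ g p (0, 1)) :=
    setIntegral_congr_fun SS_compact.measurableSet (fun p hp => (heq p hp).symm)
  rw [h1]
  unfold SS at *
  rw [key]
  have z1 : ∫ x in (-1/24 : ℝ)..(1/24), g (x, 25/24) = 0 := by
    rw [intervalIntegral.integral_zero_ae]
    refine Eventually.of_forall fun x hx => ?_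
    rw [uIoc_of_le (by norm_num)] at hx
    have hm : ((x, 25/24) : ℝ × ℝ) ∈ Icc ((-1/24, 23/24) : ℝ × ℝ) (1/24, 25/24) := by
      constructor <;> constructor <;> first | exact hx.1.le | exact hx.2 | norm_num
    exact hg0 _ hm (KK_bd hm (by simp))
  have z2 : ∫ x in (-1/24 : ℝ)..(1/24), g (x, 23/24) = 0 := by
    rw [intervalIntegral.integral_zero_ae]
    refine Eventually.of_forall fun x hx => ?_
    rw [uIoc_of_le (by norm_num)] at hx
    have hm : ((x, 23/24) : ℝ × ℝ) ∈ Icc ((-1/24, 23/24) : ℝ × ℝ) (1/24, 25/24) := by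
      constructor <;> constructor <;> first | exact hx.1.le | exact hx.2 | norm_num
    exact hg0 _ hm (KK_bd hm (by simp))
  have z3 : ∫ y in (23/24 : ℝ)..(25/24), f (1/24, y) = 0 := by
    rw [intervalIntegral.integral_zero_ae]
    refine Eventually.of_forall fun x hx => ?_
    rw [uIoc_of_le (by norm_num)] at hx
    have hm : ((1/24, x) : ℝ × ℝ) ∈ Icc ((-1/24, 23/24) : ℝ × ℝ) (1/24, 25/24) := by
      constructor <;> constructor <;> first | exact hx.1.le | exact hx.2 | norm_num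
    exact hf0 _ hm (KK_bd hm (by simp))
  have z4 : ∫ y in (23/24 : ℝ)..(25/24), f (-1/24, y) = 0 := by
    rw [intervalIntegral.integral_zero_ae]
    refine Eventually.of_forall fun x hx => ?_
    rw [uIoc_of_le (by norm_num)] at hx
    have hm : ((-1/24, x) : ℝ × ℝ) ∈ Icc ((-1/24, 23/24) : ℝ × ℝ) (1/24, 25/24) := by
      constructor <;> constructor <;> first | exact hx.1.le | exact hx.2 | norm_num
    exact hf0 _ hm (KK_bd hm (by simp))
  simp only [z1, z2, z3, z4]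
  norm_num

/-- the hyperbolic rotation field is divergence free against the kernel -/
theorem rot_zero {F FA FB : ℝ × ℝ → ℝ} (hF : ∀ p ∈ SS, DifferentiableAt ℝ F p)
    (hA : ∀ p ∈ SS, HasDerivAt (fun t => F (t, p.2)) (FA p) p.1)
    (hB : ∀ p ∈ SS, HasDerivAt (fun t => F (p.1, t)) (FB p) p.2)
    (cA : ContinuousOn FA SS) (cB : ContinuousOn FB SS) :
    ∫ p in SS, ((1 + p.1^2 - p.2^2) * FA p + 2 * p.1 * p.2 * FB p) * KK p = 0 := by
  have key := div_zero (f := fun p => F p * ((1 + p.1^2 - p.2^2) * KK p))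
    (g := fun p => F p * ((2 * p.1 * p.2) * KK p))
    (fa := fun p => FA p * ((1 + p.1^2 - p.2^2) * KK p)
      + F p * (2 * p.1 * KK p + (1 + p.1^2 - p.2^2) * KA p))
    (gb := fun p => FB p * ((2 * p.1 * p.2) * KK p)
      + F p * (2 * p.1 * KK p + (2 * p.1 * p.2) * KB p))
    (fun p hp => by
      have h1 := hF p hp
      have h2 := KK_diff (SS_pos hp)
      exact h1.mul (DifferentiableAt.mul (by fun_prop) h2))
    (fun p hp => by
      have h1 := hF p hp
      have h2 := KK_diff (SS_pos hp)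
      exact h1.mul (DifferentiableAt.mul (by fun_prop) h2))
    (fun p hp => by
      have h0 : HasDerivAt (fun t : ℝ => 1 + t^2 - p.2^2) (2 * p.1) p.1 := by
        have := ((hasDerivAt_pow 2 p.1).const_add 1).sub_const (p.2^2)
        refine this.congr_deriv ?_
        simp
      exact (hA p hp).mul (h0.mul (KK_hdA (SS_pos hp))))
    (fun p hp => by
      have h0 : HasDerivAt (fun t : ℝ => 2 * p.1 * t) (2 * p.1) p.2 := by
        have := (hasDerivAt_id p.2).const_mul (2 * p.1)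
        refine this.congr_deriv ?_
        simp
      exact (hB p hp).mul (h0.mul (KK_hdB (SS_pos hp))))
    (by
      have cF : ContinuousOn F SS := fun p hp => (hF p hp).continuousAt.continuousWithinAt
      have c0 := KK_contOn
      have c1 := KA_contOn
      have c2 := KB_contOn
      have p1 : ContinuousOn (fun p : ℝ × ℝ => 1 + p.1^2 - p.2^2) SS := by fun_prop
      have p2 : ContinuousOn (fun p : ℝ × ℝ => 2 * p.1 * p.2) SS := by fun_prop
      have p3 : ContinuousOn (fun p : ℝ × ℝ => 2 * p.1) SS := by fun_prop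
      exact ((cA.mul (p1.mul c0)).add (cF.mul ((p3.mul c0).add (p1.mul c1)))).add
        ((cB.mul (p2.mul c0)).add (cF.mul ((p3.mul c0).add (p2.mul c2)))))
    (fun p _ h => by simp [h]) (fun p _ h => by simp [h])
  rw [← key]
  refine setIntegral_congr_fun SS_compact.measurableSet (fun p hp => ?_)
  have := K_id (SS_pos hp)
  linear_combination (-(F p)) * this

theorem gradx_id {F FA : ℝ × ℝ → ℝ} (hF : ∀ p ∈ SS, DifferentiableAt ℝ F p)
    (hA : ∀ p ∈ SS, HasDerivAt (fun t => F (t, p.2)) (FA p) p.1)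
    (cA : ContinuousOn FA SS) :
    ∫ p in SS, FA p * KK p = - ∫ p in SS, F p * KA p := by
  have cF : ContinuousOn F SS := fun p hp => (hF p hp).continuousAt.continuousWithinAt
  have key := div_zero (f := fun p => F p * KK p) (g := fun _ => 0)
    (fa := fun p => FA p * KK p + F p * KA p) (gb := fun _ => 0)
    (fun p hp => (hF p hp).mul (KK_diff (SS_pos hp))) (fun p _ => by fun_prop)
    (fun p hp => (hA p hp).mul (KK_hdA (SS_pos hp)))
    (fun p _ => hasDerivAt_const _ _)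
    (((cA.mul KK_contOn).add (cF.mul KA_contOn)).add continuousOn_const)
    (fun p _ h => by simp [h]) (fun p _ h => rfl)
  simp only [add_zero] at key
  have i1 : IntegrableOn (fun p => FA p * KK p) SS :=
    (cA.mul KK_contOn).integrableOn_compact SS_compact
  have i2 : IntegrableOn (fun p => F p * KA p) SS :=
    (cF.mul KA_contOn).integrableOn_compact SS_compact
  rw [integral_add i1 i2] at key
  linarith

theorem gradd_id {F FA FB : ℝ × ℝ → ℝ} (hF : ∀ p ∈ SS, DifferentiableAt ℝ F p)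
    (hA : ∀ p ∈ SS, HasDerivAt (fun t => F (t, p.2)) (FA p) p.1)
    (hB : ∀ p ∈ SS, HasDerivAt (fun t => F (p.1, t)) (FB p) p.2)
    (cA : ContinuousOn FA SS) (cB : ContinuousOn FB SS) :
    ∫ p in SS, (p.1 * FA p + p.2 * FB p) * KK p
      = - ∫ p in SS, F p * (2 * KK p + p.1 * KA p + p.2 * KB p) := by
  have cF : ContinuousOn F SS := fun p hp => (hF p hp).continuousAt.continuousWithinAt
  have p1 : ContinuousOn (fun p : ℝ × ℝ => p.1) SS := by fun_prop
  have p2 : ContinuousOn (fun p : ℝ × ℝ => p.2) SS := by fun_prop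
  have key := div_zero (f := fun p => F p * (p.1 * KK p)) (g := fun p => F p * (p.2 * KK p))
    (fa := fun p => FA p * (p.1 * KK p) + F p * (1 * KK p + p.1 * KA p))
    (gb := fun p => FB p * (p.2 * KK p) + F p * (1 * KK p + p.2 * KB p))
    (fun p hp => (hF p hp).mul (DifferentiableAt.mul (by fun_prop) (KK_diff (SS_pos hp))))
    (fun p hp => (hF p hp).mul (DifferentiableAt.mul (by fun_prop) (KK_diff (SS_pos hp))))
    (fun p hp => (hA p hp).mul ((hasDerivAt_id p.1).mul (KK_hdA (SS_pos hp))))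
    (fun p hp => (hB p hp).mul ((hasDerivAt_id p.2).mul (KK_hdB (SS_pos hp))))
    (((cA.mul (p1.mul KK_contOn)).add (cF.mul ((continuousOn_const.mul KK_contOn).add
      (p1.mul KA_contOn)))).add ((cB.mul (p2.mul KK_contOn)).add
      (cF.mul ((continuousOn_const.mul KK_contOn).add (p2.mul KB_contOn)))))
    (fun p _ h => by simp [h]) (fun p _ h => by simp [h])
  have i1 : IntegrableOn (fun p => (p.1 * FA p + p.2 * FB p) * KK p) SS :=
    (((p1.mul cA).add (p2.mul cB)).mul KK_contOn).integrableOn_compact SS_compact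
  have i2 : IntegrableOn (fun p => F p * (2 * KK p + p.1 * KA p + p.2 * KB p)) SS :=
    (cF.mul (((continuousOn_const.mul KK_contOn).add (p1.mul KA_contOn)).add
      (p2.mul KB_contOn))).integrableOn_compact SS_compact
  have : ∫ p in SS, ((p.1 * FA p + p.2 * FB p) * KK p + F p * (2 * KK p + p.1 * KA p + p.2 * KB p))
      = 0 := by
    rw [← key]
    refine setIntegral_congr_fun SS_compact.measurableSet (fun p _ => ?_)
    ring
  rw [integral_add i1 i2] at this
  linarith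

end Vale.Agent.P097.H140
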