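import Vale.Agent.P097.H140.Defect
import Vale.Agent.P097.H140.BC

open MeasureTheory Set Filter Topology ComplexConjugate

namespace Vale.Agent.P097.H140

/-- the data of the growth theorem -/
structure GD (h D C T : ℝ) (y y1 y2 : ℂ → ℂ) (k : ℂ → ℝ) : Prop where
  hol : Hol h D y y1 y2
  per : ∀ z ∈ Str h D, y (z + 1) = y z
  ne : ∃ z ∈ Str h D, y z ≠ 0
  kc : ContinuousOn k (Str h D)
  kper : ∀ z ∈ Str h D, k (z + 1) = k z
  k1 : ∀ z ∈ Str h D, 1 ≤ k z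
  kT : ∀ z ∈ Str h D, ∀ w ∈ Str h D, ‖w - z‖ ≤ (h - z.im)/4 → k w ≤ T * k z
  kE : ∀ d ∈ Ioo 0 (D/2), ∫ x in (0:ℝ)..1, (k ⟨x, h - d⟩)^2 ≤ C
  db : ∀ x : ℝ, ∀ d ∈ Ioo 0 (D/2), Dbl y ⟨x, h - d⟩ d (k ⟨x, h - d⟩)

section
variable {h D C T : ℝ} {y y1 y2 : ℂ → ℂ} {k : ℂ → ℝ}

noncomputable def dn (D : ℝ) (n : ℕ) : ℝ := D/4/2^n

lemma dn_mem (hD : 0 < D) (n : ℕ) : dn D n ∈ Ioo 0 (D/2) := by
  unfold dn
  constructor
  · positivity
  · have : (1:ℝ) ≤ 2^n := one_le_pow₀ (by norm_num)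
    have h1 : D/4/2^n ≤ D/4 := div_le_self (by positivity) this
    linarith

lemma pt_mem (x : ℝ) {d : ℝ} (hd : d ∈ Ioo 0 (D/2)) : (⟨x, h - d⟩ : ℂ) ∈ Str h D := by
  constructor
  · show h - D < h - d
    linarith [hd.1, hd.2]
  · show h - d < h
    linarith [hd.1]

lemma k_cont (G : GD h D C T y y1 y2 k) {d : ℝ} (hd : d ∈ Ioo 0 (D/2)) :
    Continuous (fun x : ℝ => k ⟨x, h - d⟩) := by
  have h1 : Continuous (fun x : ℝ => (⟨x, h - d⟩ : ℂ)) := by
    have : (fun x : ℝ => (⟨x, h - d⟩ : ℂ)) = fun x : ℝ => (x : ℂ) + ((h - d : ℝ) : ℂ) * Complex.I := by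
      funext x; apply Complex.ext <;> simp
    rw [this]; fun_prop
  have := G.kc.comp (f := fun x : ℝ => (⟨x, h - d⟩ : ℂ)) (s := univ) h1.continuousOn
    (fun x _ => pt_mem x hd)
  exact continuousOn_univ.mp this

lemma k_nonneg (G : GD h D C T y y1 y2 k) (x : ℝ) {d : ℝ} (hd : d ∈ Ioo 0 (D/2)) :
    0 ≤ k ⟨x, h - d⟩ := le_trans zero_le_one (G.k1 _ (pt_mem x hd))

theorem energy (G : GD h D C T y y1 y2 k) {ε : ℝ} (hε : 0 < ε) {d : ℝ} (hd : d ∈ Ioo 0 (D/2)) :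
    ∫ x in (0:ℝ)..1, ((ubx h ε y y1 x d)^2 + (ubd h ε y y1 x d)^2) ≤ (2 * cK^2 * C) / d^2 := by
  have S := ub_sm G.hol hε G.per
  have kx : Continuous (fun x => ubx h ε y y1 x d) := slice S.cx hd
  have kd : Continuous (fun x => ubd h ε y y1 x d) := slice S.cd hd
  have kk := k_cont G hd
  have hd0 : 0 < d := hd.1
  have h1 : ∫ x in (0:ℝ)..1, ((ubx h ε y y1 x d)^2 + (ubd h ε y y1 x d)^2)
      ≤ ∫ x in (0:ℝ)..1, (2 * cK^2/d^2) * (k ⟨x, h - d⟩)^2 := by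
    refine intervalIntegral.integral_mono_on zero_le_one
      (Continuous.intervalIntegrable (by fun_prop) _ _)
      ((continuous_const.mul (kk.pow 2)).intervalIntegrable _ _) (fun x _ => ?_)
    have g := grad_dbl G.hol hε x hd (k_nonneg G x hd) (G.db x d hd)
    have hk := k_nonneg G x hd
    have hc := cK_nonneg
    have e1 : (ubx h ε y y1 x d)^2 ≤ (cK * k ⟨x, h - d⟩ / d)^2 :=
      sq_le_sq' (by linarith [(abs_le.mp g.1).1]) (abs_le.mp g.1).2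
    have e2 : (ubd h ε y y1 x d)^2 ≤ (cK * k ⟨x, h - d⟩ / d)^2 :=
      sq_le_sq' (by linarith [(abs_le.mp g.2).1]) (abs_le.mp g.2).2
    have e3 : (2 * cK^2/d^2) * (k ⟨x, h - d⟩)^2 = 2 * (cK * k ⟨x, h - d⟩ / d)^2 := by ring
    rw [e3]; linarith
  refine h1.trans ?_
  rw [intervalIntegral.integral_const_mul]
  have := G.kE d hd
  calc (2 * cK^2/d^2) * ∫ x in (0:ℝ)..1, (k ⟨x, h - d⟩)^2 ≤ (2 * cK^2/d^2) * C := by gcongr
    _ = _ := by ring

lemma C_nonneg (G : GD h D C T y y1 y2 k) (hD : 0 < D) : 0 ≤ C := by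
  refine le_trans ?_ (G.kE (D/4) ⟨by linarith, by linarith⟩)
  exact intervalIntegral.integral_nonneg zero_le_one (fun x _ => sq_nonneg _)

/-- a uniform lower bound at the starting level -/
theorem start (G : GD h D C T y y1 y2 k) (hD : 0 < D) : ∃ m : ℝ, ∀ x ∈ Icc (0:ℝ) 1,
    ∃ w, ‖w - ⟨x, h - D/4⟩‖ ≤ (D/4)/16 ∧ Real.exp m ≤ ‖y w‖ := by
  have hd : D/4 ∈ Ioo 0 (D/2) := ⟨by linarith, by linarith⟩
  have hdiff : DifferentiableOn ℂ y (Str h D) := fun w hw =>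
    (G.hol.h0 w hw).differentiableAt.differentiableWithinAt
  have han : AnalyticOnNhd ℂ y (Str h D) := hdiff.analyticOnNhd (Str_open h D)
  have hconv : Convex ℝ (Str h D) := by
    have h1 : Convex ℝ {z : ℂ | h - D < z.im} := convex_halfSpace_im_gt _
    have h2 : Convex ℝ {z : ℂ | z.im < h} := convex_halfSpace_im_lt _
    exact h1.inter h2
  refine isCompact_Icc.induction_on
    (p := fun s : Set ℝ => ∃ m : ℝ, ∀ x ∈ s, ∃ w, ‖w - ⟨x, h - D/4⟩‖ ≤ (D/4)/16 ∧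
      Real.exp m ≤ ‖y w‖) ⟨0, fun x hx => absurd hx (notMem_empty x)⟩ ?_ ?_ ?_
  · rintro s t hst ⟨m, hm⟩
    exact ⟨m, fun x hx => hm x (hst hx)⟩
  · rintro s t ⟨m1, h1⟩ ⟨m2, h2⟩
    refine ⟨min m1 m2, fun x hx => ?_⟩
    rcases hx with hx | hx
    · obtain ⟨w, a, b⟩ := h1 x hx
      exact ⟨w, a, le_trans (Real.exp_le_exp.mpr (min_le_left _ _)) b⟩
    · obtain ⟨w, a, b⟩ := h2 x hx
      exact ⟨w, a, le_trans (Real.exp_le_exp.mpr (min_le_right _ _)) b⟩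
  · intro x0 _
    -- a nonzero value close to x0
    have hex : ∃ w, ‖w - ⟨x0, h - D/4⟩‖ < (D/4)/16 ∧ y w ≠ 0 := by
      by_contra hcon
      push Not at hcon
      have hz : (⟨x0, h - D/4⟩ : ℂ) ∈ Str h D := pt_mem x0 hd
      have hev : y =ᶠ[𝓝 (⟨x0, h - D/4⟩ : ℂ)] 0 := by
        filter_upwards [Metric.ball_mem_nhds (⟨x0, h - D/4⟩ : ℂ) (show 0 < (D/4)/16 by positivity)]
          with w hw
        rw [Metric.mem_ball, dist_eq_norm] at hw
        exact hcon w hw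
      have := han.eqOn_zero_of_preconnected_of_eventuallyEq_zero hconv.isPreconnected hz hev
      obtain ⟨z, hz1, hz2⟩ := G.ne
      exact hz2 (this hz1)
    obtain ⟨w, hw1, hw2⟩ := hex
    have hc : ContinuousAt (fun x : ℝ => ‖w - (⟨x, h - D/4⟩ : ℂ)‖) x0 := by
      have : Continuous (fun x : ℝ => (⟨x, h - D/4⟩ : ℂ)) := by
        have : (fun x : ℝ => (⟨x, h - D/4⟩ : ℂ))
            = fun x : ℝ => (x : ℂ) + ((h - D/4 : ℝ) : ℂ) * Complex.I := by
          funext x; apply Complex.ext <;> simp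
        rw [this]; fun_prop
      fun_prop
    refine ⟨{x | ‖w - (⟨x, h - D/4⟩ : ℂ)‖ < (D/4)/16},
      mem_nhdsWithin_of_mem_nhds (hc.eventually (gt_mem_nhds hw1)), Real.log ‖y w‖, ?_⟩
    intro x hx
    refine ⟨w, le_of_lt hx, ?_⟩
    rw [Real.exp_log (norm_pos_iff.mpr hw2)]

lemma SS_near (h x : ℝ) {d : ℝ} (hd : 0 < d) {p : ℝ × ℝ} (hp : p ∈ SS) :
    ‖zz h x d p - ⟨x, h - d⟩‖ ≤ d/16 := by
  have h2 := mem_SS.mp hp
  have a1 : p.1^2 ≤ (1/24)^2 := by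
    apply sq_le_sq'
    · linarith [h2.1.1]
    · exact h2.1.2
  have a2 : (p.2 - 1)^2 ≤ (1/24)^2 := by
    apply sq_le_sq'
    · linarith [h2.2.1]
    · linarith [h2.2.2]
  have : ‖zz h x d p - ⟨x, h - d⟩‖^2 ≤ (d/16)^2 := by
    rw [← Complex.normSq_eq_norm_sq, Complex.normSq_apply]
    simp only [zz, Complex.sub_re, Complex.sub_im]
    have e : (x + d * p.1 - x) * (x + d * p.1 - x) + (h - d * p.2 - (h - d)) * (h - d * p.2 - (h - d))
        = d^2 * (p.1^2 + (p.2-1)^2) := by ring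
    rw [e]
    nlinarith [sq_nonneg d]
  exact le_of_sq_le_sq this (by positivity)

/-- a lower bound of the average gives a lower bound of the function nearby -/
theorem val_of_ub (G : GD h D C T y y1 y2 k) {τ : ℝ} {x d : ℝ} (hd : d ∈ Ioo 0 (D/2))
    (hub : -τ ≤ ub h (Real.exp (-(2 + τ/kap))) y x d) :
    ∃ w, ‖w - ⟨x, h - d⟩‖ ≤ d/16 ∧ Real.exp (-(2 + τ/kap)) ≤ ‖y w‖ := by
  by_contra hcon
  push Not at hcon
  set ε : ℝ := Real.exp (-(2 + τ/kap)) with hε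
  have hεp : 0 < ε := Real.exp_pos _
  have hkap := kap_pos
  have hM : ∀ p ∈ SS, uu ε y (zz h x d p) ≤ 1 - (2 + τ/kap) := by
    intro p hp
    have h1 := hcon _ (SS_near h x hd.1 hp)
    have h2 : NN ε y (zz h x d p) ≤ 2 * ε^2 := by
      unfold NN
      have : ‖y (zz h x d p)‖^2 ≤ ε^2 := by gcongr
      linarith
    have h3 := Real.log_le_log (NN_pos hεp y _) h2
    rw [Real.log_mul (by norm_num) (by positivity), Real.log_pow, hε, Real.log_exp] at h3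
    unfold uu
    have h4 : Real.log 2 ≤ 1 := by
      have := Real.log_two_lt_d9; linarith
    push_cast at h3
    rw [← hε] at h3
    linarith
  have h5 := ub_le G.hol hεp x hd hM
  have h6 : kap * (1 - (2 + τ/kap)) = -kap - τ := by field_simp; ring
  rw [h6] at h5
  linarith

theorem levels (G : GD h D C T y y1 y2 k) (hD : 0 < D) :
    ∀ᵐ x ∂(volume.restrict (Ioc (0:ℝ) 1)), ∀ᶠ n : ℕ in atTop,
      (∃ w, ‖w - ⟨x, h - dn D n⟩‖ ≤ dn D n/16 ∧
        Real.exp (-((2 + 1/kap) * ((n:ℝ)+1)^(4/5:ℝ))) ≤ ‖y w‖) ∧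
      k ⟨x, h - dn D n⟩ ≤ ((n:ℝ)+1)^(3/5:ℝ) := by
  have hkap := kap_pos
  have hC := C_nonneg G hD
  obtain ⟨m0, hm0⟩ := start G hD
  have hd0 : D/4 ∈ Ioo 0 (D/2) := ⟨by linarith, by linarith⟩
  obtain ⟨Kb, hKb⟩ := isCompact_Icc.exists_bound_of_continuousOn
    (f := fun x : ℝ => k ⟨x, h - D/4⟩) (s := Icc (0:ℝ) 1) (k_cont G hd0).continuousOn
  have hcK := cK_nonneg
  set Ci : ℝ := |kap * m0| + cK * |Kb| with hCi
  have hCi0 : 0 ≤ Ci := by positivity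
  set Cb : ℝ := 4 * (2 * cK^2 * C + 1) + Ci with hCb
  have hCb0 : 0 ≤ Cb := by positivity
  set ε : ℕ → ℝ := fun j => Real.exp (-(2 + ((j:ℝ)^(8/5:ℝ))/kap)) with hε
  have hεp : ∀ j, 0 < ε j := fun j => Real.exp_pos _
  have hS : ∀ j, Sm (D/2) (ub h (ε j) y) (ubx h (ε j) y y1) (ubd h (ε j) y y1)
    (ubxx h (ε j) y y1 y2) (ubdd h (ε j) y y1 y2) := fun j => ub_sm G.hol (hεp j) G.per
  have hbc := bc (C := Cb) hCb0 (fun j m x => ub h (ε j) y x (dn D m))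
    (fun j m => slice (hS j).c (dn_mem hD m))
    (fun j x hx => by
      have e0 : dn D 0 = D/4 := by unfold dn; simp
      simp only [e0]
      have hx' : x ∈ Icc (0:ℝ) 1 := Ioc_subset_Icc_self hx
      have h1 := le_ub G.hol (hεp j) x hd0 (k_nonneg G x hd0) (G.db x _ hd0) (hm0 x hx')
      have h2 := hKb x hx'
      rw [Real.norm_eq_abs] at h2
      have h3 : k ⟨x, h - D/4⟩ ≤ |Kb| := (le_abs_self _).trans (h2.trans (le_abs_self _))
      have h4 : cK * k ⟨x, h - D/4⟩ ≤ cK * |Kb| := by gcongr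
      have h5 : -|kap * m0| ≤ kap * m0 := neg_abs_le _
      have h6 : 0 ≤ 4 * (2 * cK^2 * C + 1) := by positivity
      rw [hCb, hCi]
      linarith)
    (fun j n m hnm => by
      have hdm := dn_mem hD m
      have hdnn := dn_mem hD n
      have hle : dn D m ≤ dn D n := by
        unfold dn
        gcongr
        norm_num
      have hi := inc (hS j) (C := 2 * cK^2 * C) (by positivity)
        (fun d hd => energy G (hεp j) hd) hdm.1 hle hdnn.2
      have hlog : Real.log (dn D n / dn D m) ≤ (m:ℝ) - n := by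
        have e1 : dn D n / dn D m = 2^(m-n) := by
          unfold dn
          rw [pow_sub₀ _ (by norm_num) hnm]
          field_simp
        rw [e1, Real.log_pow, Nat.cast_sub hnm]
        have h4 : Real.log 2 ≤ 1 := by
          have := Real.log_two_lt_d9; linarith
        have h5 : (0:ℝ) ≤ (m:ℝ) - n := by
          have : (n:ℝ) ≤ m := by exact_mod_cast hnm
          linarith
        nlinarith
      have h5 : (0:ℝ) ≤ (m:ℝ) - n := by
        have : (n:ℝ) ≤ m := by exact_mod_cast hnm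
        linarith
      refine hi.trans ?_
      have h6 : 0 ≤ 4 * (2 * cK^2 * C + 1) := by positivity
      calc 4 * (2 * cK^2 * C + 1) * (1 + Real.log (dn D n / dn D m))
          ≤ 4 * (2 * cK^2 * C + 1) * (1 + ((m:ℝ) - n)) := by gcongr
        _ ≤ Cb * (1 + ((m:ℝ) - n)) := by
            apply mul_le_mul_of_nonneg_right _ (by linarith)
            rw [hCb]; linarith)
  -- the bound for k
  have hpos : ∀ n : ℕ, (0:ℝ) < (n:ℝ)+1 := fun n => by positivity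
  have hk := ae0 (F := fun n x => (k ⟨x, h - dn D n⟩)^2 / ((n:ℝ)+1)^(6/5:ℝ))
    (a := fun n : ℕ => C * ((n:ℝ)+1)^(-(6/5):ℝ))
    (fun n => ((k_cont G (dn_mem hD n)).pow 2).div_const _)
    (fun n x => div_nonneg (sq_nonneg _) (Real.rpow_nonneg (hpos n).le _))
    (by
      apply Summable.mul_left
      have := (Real.summable_nat_rpow (p := -(6/5))).mpr (by norm_num)
      have := (summable_nat_add_iff 1).mpr this
      refine this.congr fun j => ?_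
      push_cast; rfl)
    (fun n => by
      rw [intervalIntegral.integral_div, Real.rpow_neg (hpos n).le, ← div_eq_mul_inv]
      have := G.kE _ (dn_mem hD n)
      have := Real.rpow_nonneg (hpos n).le (6/5:ℝ)
      gcongr)
  filter_upwards [hbc, hk] with x h1 h2
  have h3 : ∀ᶠ n : ℕ in atTop, (k ⟨x, h - dn D n⟩)^2 / ((n:ℝ)+1)^(6/5:ℝ) ≤ 1 :=
    h2.eventually (ge_mem_nhds (by norm_num))
  have hsq : Tendsto Nat.sqrt atTop atTop := by
    refine tendsto_atTop.mpr fun b => ?_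
    filter_upwards [eventually_ge_atTop (b*b)] with n hn
    exact Nat.le_sqrt.mpr hn
  have h4 := hsq.eventually h1
  filter_upwards [h3, h4] with n hn1 hn2
  constructor
  · have hm1 : (Nat.sqrt n)^2 ≤ n := Nat.sqrt_le' n
    have hm2 : n ≤ (Nat.sqrt n + 1)^2 := (Nat.lt_succ_sqrt' n).le
    have hub := hn2 n hm1 hm2
    obtain ⟨w, hw1, hw2⟩ := val_of_ub G (dn_mem hD n) hub
    refine ⟨w, hw1, le_trans (Real.exp_le_exp.mpr ?_) hw2⟩
    have e1 : ((Nat.sqrt n : ℕ) : ℝ)^(8/5:ℝ) ≤ ((n:ℝ)+1)^(4/5:ℝ) := by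
      have a1 : ((Nat.sqrt n : ℕ) : ℝ)^(8/5:ℝ) = (((Nat.sqrt n : ℕ) : ℝ)^2)^(4/5:ℝ) := by
        rw [← Real.rpow_natCast, ← Real.rpow_mul (Nat.cast_nonneg _)]; norm_num
      rw [a1]
      apply Real.rpow_le_rpow (by positivity) _ (by norm_num)
      have : (((Nat.sqrt n)^2 : ℕ) : ℝ) ≤ n := by exact_mod_cast hm1
      push_cast at this
      linarith
    have e2 : 1 ≤ ((n:ℝ)+1)^(4/5:ℝ) := Real.one_le_rpow (by
      have : (0:ℝ) ≤ n := Nat.cast_nonneg n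
      linarith) (by norm_num)
    have e3 : ((Nat.sqrt n : ℕ) : ℝ)^(8/5:ℝ) / kap ≤ ((n:ℝ)+1)^(4/5:ℝ)/kap := by gcongr
    have e4 : (2 + 1/kap) * ((n:ℝ)+1)^(4/5:ℝ)
        = 2 * ((n:ℝ)+1)^(4/5:ℝ) + ((n:ℝ)+1)^(4/5:ℝ)/kap := by ring
    rw [e4]
    linarith
  · rw [div_le_one (Real.rpow_pos_of_pos (hpos n) _)] at hn1
    have e5 : (((n:ℝ)+1)^(3/5:ℝ))^2 = ((n:ℝ)+1)^(6/5:ℝ) := by
      rw [← Real.rpow_natCast, ← Real.rpow_mul (hpos n).le]; norm_num
    rw [← e5] at hn1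
    exact le_of_sq_le_sq hn1 (Real.rpow_nonneg (hpos n).le _)

end

end Vale.Agent.P097.H140
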