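import Vale.Agent.P097.H140.Growth

open MeasureTheory Set Filter Topology ComplexConjugate

namespace Vale.Agent.P097.H140

/-- growth of solutions of linear differential inequalities along segments -/
theorem grow {E : Type*} [NormedAddCommGroup E] [NormedSpace ℂ E] {v v' : ℂ → E} {z : ℂ}
    {r K : ℝ} (_hK : 0 ≤ K) (hv : ∀ w, ‖w - z‖ ≤ r → HasDerivAt v (v' w) w)
    (hb : ∀ w, ‖w - z‖ ≤ r → ‖v' w‖ ≤ K * ‖v w‖) :
    ∀ w, ‖w - z‖ ≤ r → ‖v w‖ ≤ ‖v z‖ * Real.exp (K * ‖w - z‖) := by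
  intro w hw
  let _ : NormedSpace ℝ E := NormedSpace.restrictScalars ℝ ℂ E
  have hseg : ∀ t ∈ Icc (0:ℝ) 1, ‖(z + (t:ℂ) * (w - z)) - z‖ ≤ r := by
    intro t ht
    rw [add_sub_cancel_left, norm_mul, Complex.norm_real, Real.norm_eq_abs, abs_of_nonneg ht.1]
    calc t * ‖w - z‖ ≤ 1 * ‖w - z‖ := by gcongr; exact ht.2
      _ ≤ r := by linarith
  have hγ : ∀ t : ℝ, HasDerivAt (fun t : ℝ => z + (t:ℂ) * (w - z)) (w - z) t := by
    intro t
    have h1 : HasDerivAt (fun t : ℝ => (t:ℂ)) ((1:ℝ):ℂ) t := (hasDerivAt_id t).ofReal_comp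
    have h2 := (h1.mul_const (w - z)).const_add z
    refine h2.congr_deriv ?_
    simp
  have hd : ∀ t ∈ Icc (0:ℝ) 1, HasDerivAt (fun t : ℝ => v (z + (t:ℂ) * (w - z)))
      ((w - z) • v' (z + (t:ℂ) * (w - z))) t := by
    intro t ht
    have := (hv _ (hseg t ht)).scomp t (hγ t)
    exact this
  have hmain := norm_le_gronwallBound_of_norm_deriv_right_le (a := 0) (b := 1)
    (f := fun t : ℝ => v (z + (t:ℂ) * (w - z)))
    (f' := fun t : ℝ => (w - z) • v' (z + (t:ℂ) * (w - z))) (δ := ‖v z‖) (K := K * ‖w - z‖) (ε := 0)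
    (fun t ht => (hd t ht).continuousAt.continuousWithinAt)
    (fun t ht => (hd t (Ico_subset_Icc_self ht)).hasDerivWithinAt)
    (by simp)
    (fun t ht => by
      rw [norm_smul, add_zero]
      have := hb _ (hseg t (Ico_subset_Icc_self ht))
      calc ‖w - z‖ * ‖v' (z + (t:ℂ) * (w - z))‖ ≤ ‖w - z‖ * (K * ‖v (z + (t:ℂ) * (w - z))‖) := by
            gcongr
        _ = K * ‖w - z‖ * ‖v (z + (t:ℂ) * (w - z))‖ := by ring)
    1 (right_mem_Icc.mpr zero_le_one)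
  rw [gronwallBound_ε0] at hmain
  simpa using hmain

/-- weak goodness (second moments and temperedness) for `g'' = Q g` on the strip -/
structure WG (h D C c : ℝ) (g g1 Q : ℂ → ℂ) : Prop where
  hg : ∀ z ∈ Str h D, HasDerivAt g (g1 z) z
  hg1 : ∀ z ∈ Str h D, HasDerivAt g1 (Q z * g z) z
  cQ : ContinuousOn Q (Str h D)
  per : ∀ z ∈ Str h D, g (z + 1) = g z
  perQ : ∀ z ∈ Str h D, Q (z + 1) = Q z
  ne : ∃ z ∈ Str h D, g z ≠ 0
  tQ : ∀ z ∈ Str h D, ∀ w ∈ Str h D, ‖w - z‖ ≤ (h - z.im)/4 →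
    (h - w.im)^2 * ‖Q w‖ ≤ c * (1 + (h - z.im)^2 * ‖Q z‖)
  tg : ∀ z ∈ Str h D, ∀ w ∈ Str h D, ‖w - z‖ ≤ (h - z.im)/4 →
    (h - w.im) * ‖g w‖ ≤ c * (1 + (h - z.im) * ‖g z‖)
  EQ : ∀ d ∈ Ioo 0 (D/2), ∫ x in (0:ℝ)..1, d^2 * ‖Q ⟨x, h - d⟩‖ ≤ C
  Eg : ∀ d ∈ Ioo 0 (D/2), ∫ x in (0:ℝ)..1, (d * ‖g ⟨x, h - d⟩‖)^2 ≤ C
  hc : 1 ≤ c

section
variable {h D C c : ℝ} {g g1 Q : ℂ → ℂ}

/-- the scale function -/
noncomputable def mm (h c : ℝ) (g Q : ℂ → ℂ) (z : ℂ) : ℝ :=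
  2 * Real.sqrt (c * (1 + (h - z.im)^2 * ‖Q z‖)) + 2 * c * (1 + (h - z.im) * ‖g z‖)

lemma mm_ge (W : WG h D C c g g1 Q) {z : ℂ} (hz : z ∈ Str h D) : 2 ≤ mm h c g Q z := by
  unfold mm
  have h1 := Real.sqrt_nonneg (c * (1 + (h - z.im)^2 * ‖Q z‖))
  have h2 : 0 ≤ (h - z.im) * ‖g z‖ := mul_nonneg (by linarith [hz.2]) (norm_nonneg _)
  nlinarith [W.hc]

lemma mm_cont (W : WG h D C c g g1 Q) : ContinuousOn (mm h c g Q) (Str h D) := by
  unfold mm
  have c1 : ContinuousOn g (Str h D) := fun z hz => (W.hg z hz).continuousAt.continuousWithinAt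
  have c2 := W.cQ
  have c3 : Continuous (fun z : ℂ => h - z.im) := by fun_prop
  exact (continuousOn_const.mul ((continuousOn_const.mul (continuousOn_const.add
    ((c3.continuousOn.pow 2).mul c2.norm))).sqrt)).add
    (continuousOn_const.mul (continuousOn_const.add (c3.continuousOn.mul c1.norm)))

lemma depth_lb {z w : ℂ} (hw : ‖w - z‖ ≤ (h - z.im)/4) : 3/4 * (h - z.im) ≤ h - w.im := by
  have : |w.im - z.im| ≤ (h - z.im)/4 := by
    rw [← Complex.sub_im]; exact (Complex.abs_im_le_norm _).trans hw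
  have := (abs_le.mp this).2
  linarith

lemma Q_bd (W : WG h D C c g g1 Q) {z w : ℂ} (hz : z ∈ Str h D) (hw' : w ∈ Str h D)
    (hw : ‖w - z‖ ≤ (h - z.im)/4) :
    (h - z.im)^2 * ‖Q w‖ ≤ (mm h c g Q z)^2 := by
  have h1 := W.tQ z hz w hw' hw
  have h2 := depth_lb hw
  have hd : 0 < h - z.im := by linarith [hz.2]
  have hc := W.hc
  set a := c * (1 + (h - z.im)^2 * ‖Q z‖) with ha
  have ha0 : 0 ≤ a := by positivity
  have h3 : (3/4 * (h - z.im))^2 * ‖Q w‖ ≤ (h - w.im)^2 * ‖Q w‖ := by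
    gcongr
  have h4 : (h - z.im)^2 * ‖Q w‖ ≤ 4 * a := by nlinarith [norm_nonneg (Q w)]
  have h5 : 4 * a = (2 * Real.sqrt a)^2 := by rw [mul_pow, Real.sq_sqrt ha0]; norm_num
  have h6 : 2 * Real.sqrt a ≤ mm h c g Q z := by
    unfold mm
    rw [← ha]
    have : 0 ≤ 2 * c * (1 + (h - z.im) * ‖g z‖) := by positivity
    linarith
  rw [h5] at h4
  refine h4.trans ?_
  gcongr

lemma g_bd (W : WG h D C c g g1 Q) {z w : ℂ} (hz : z ∈ Str h D) (hw' : w ∈ Str h D)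
    (hw : ‖w - z‖ ≤ (h - z.im)/4) :
    (h - z.im) * ‖g w‖ ≤ mm h c g Q z := by
  have h1 := W.tg z hz w hw' hw
  have h2 := depth_lb hw
  have hd : 0 < h - z.im := by linarith [hz.2]
  have hc := W.hc
  have h3 : (3/4 * (h - z.im)) * ‖g w‖ ≤ (h - w.im) * ‖g w‖ := by gcongr
  have h6 : 2 * (c * (1 + (h - z.im) * ‖g z‖)) ≤ mm h c g Q z := by
    unfold mm
    have : 0 ≤ Real.sqrt (c * (1 + (h - z.im)^2 * ‖Q z‖)) := Real.sqrt_nonneg _
    linarith
  have h7 : 0 ≤ c * (1 + (h - z.im) * ‖g z‖) := by positivity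
  nlinarith [norm_nonneg (g w)]

lemma mm_temp (W : WG h D C c g g1 Q) {z w : ℂ} (hz : z ∈ Str h D) (hw' : w ∈ Str h D)
    (hw : ‖w - z‖ ≤ (h - z.im)/4) : mm h c g Q w ≤ 2 * c * mm h c g Q z := by
  have h1 := W.tQ z hz w hw' hw
  have h2 := W.tg z hz w hw' hw
  have hd : 0 < h - z.im := by linarith [hz.2]
  have hc := W.hc
  have hc0 : 0 < c := by linarith
  unfold mm
  set a := 1 + (h - z.im)^2 * ‖Q z‖ with ha
  set b := 1 + (h - z.im) * ‖g z‖ with hb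
  have ha1 : 1 ≤ a := by rw [ha]; have : 0 ≤ (h - z.im)^2 * ‖Q z‖ := by positivity
                         linarith
  have hb1 : 1 ≤ b := by rw [hb]; have : 0 ≤ (h - z.im) * ‖g z‖ := by positivity
                         linarith
  have h3 : Real.sqrt (c * (1 + (h - w.im)^2 * ‖Q w‖)) ≤ 2 * c * Real.sqrt (c * a) := by
    have e : 2 * c * Real.sqrt (c * a) = Real.sqrt ((2*c)^2 * (c * a)) := by
      rw [Real.sqrt_mul (by positivity : (0:ℝ) ≤ (2*c)^2) (c * a), Real.sqrt_sq (by positivity)]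
    rw [e]
    apply Real.sqrt_le_sqrt
    have : 1 + (h - w.im)^2 * ‖Q w‖ ≤ 2 * c * a := by nlinarith
    calc c * (1 + (h - w.im)^2 * ‖Q w‖) ≤ c * (2 * c * a) := by gcongr
      _ ≤ (2*c)^2 * (c * a) := by
          have : 0 ≤ c * (c * a) := by positivity
          nlinarith
  have h4 : 1 + (h - w.im) * ‖g w‖ ≤ 2 * c * b := by nlinarith
  have h5 : 2 * c * (1 + (h - w.im) * ‖g w‖) ≤ 2 * c * (2 * c * b) := by gcongr
  nlinarith

lemma mm_per (W : WG h D C c g g1 Q) {z : ℂ} (hz : z ∈ Str h D) :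
    mm h c g Q (z + 1) = mm h c g Q z := by
  unfold mm
  rw [W.per z hz, W.perQ z hz]
  simp

lemma pt_cont {f : ℂ → ℂ} (hf : ContinuousOn f (Str h D)) {d : ℝ} (hd : d ∈ Ioo 0 (D/2)) :
    Continuous (fun x : ℝ => f ⟨x, h - d⟩) := by
  have h1 : Continuous (fun x : ℝ => (⟨x, h - d⟩ : ℂ)) := by
    have : (fun x : ℝ => (⟨x, h - d⟩ : ℂ)) = fun x : ℝ => (x : ℂ) + ((h - d : ℝ) : ℂ) * Complex.I := by
      funext x; apply Complex.ext <;> simp
    rw [this]; fun_prop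
  exact continuousOn_univ.mp (hf.comp (f := fun x : ℝ => (⟨x, h - d⟩ : ℂ)) (s := univ)
    h1.continuousOn (fun x _ => pt_mem x hd))

/-- second moment of `mm + a` -/
lemma mm_E (W : WG h D C c g g1 Q) (a : ℝ) {d : ℝ} (hd : d ∈ Ioo 0 (D/2)) :
    ∫ x in (0:ℝ)..1, (mm h c g Q ⟨x, h - d⟩ + a)^2
      ≤ 2 * (8 * c * (1 + C) + 16 * c^2 * (1 + C)) + 2 * a^2 := by
  have hc := W.hc
  have cg : Continuous (fun x : ℝ => g ⟨x, h - d⟩) :=
    pt_cont (fun z hz => (W.hg z hz).continuousAt.continuousWithinAt) hd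
  have cQ : Continuous (fun x : ℝ => Q ⟨x, h - d⟩) := pt_cont W.cQ hd
  have cm : Continuous (fun x : ℝ => mm h c g Q ⟨x, h - d⟩) := by
    have h1 : Continuous (fun x : ℝ => (⟨x, h - d⟩ : ℂ)) := by
      have : (fun x : ℝ => (⟨x, h - d⟩ : ℂ))
          = fun x : ℝ => (x : ℂ) + ((h - d : ℝ) : ℂ) * Complex.I := by
        funext x; apply Complex.ext <;> simp
      rw [this]; fun_prop
    exact continuousOn_univ.mp ((mm_cont W).comp (f := fun x : ℝ => (⟨x, h - d⟩ : ℂ)) (s := univ)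
      h1.continuousOn (fun x _ => pt_mem x hd))
  have k1 : Continuous (fun x : ℝ => 16 * c * (1 + d^2 * ‖Q ⟨x, h - d⟩‖)) :=
    continuous_const.mul (continuous_const.add (continuous_const.mul cQ.norm))
  have k2 : Continuous (fun x : ℝ => 32 * c^2 * (1 + (d * ‖g ⟨x, h - d⟩‖)^2)) :=
    continuous_const.mul (continuous_const.add ((continuous_const.mul cg.norm).pow 2))
  have hle : ∫ x in (0:ℝ)..1, (mm h c g Q ⟨x, h - d⟩ + a)^2
      ≤ ∫ x in (0:ℝ)..1, ((16 * c * (1 + d^2 * ‖Q ⟨x, h - d⟩‖)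
        + 32 * c^2 * (1 + (d * ‖g ⟨x, h - d⟩‖)^2)) + 2 * a^2) := by
    refine intervalIntegral.integral_mono_on zero_le_one
      (((cm.add continuous_const).pow 2).intervalIntegrable _ _)
      (((k1.add k2).add continuous_const).intervalIntegrable _ _) (fun x _ => ?_)
    have e0 : h - (⟨x, h - d⟩ : ℂ).im = d := by simp
    unfold mm
    rw [e0]
    have hq : 0 ≤ c * (1 + d^2 * ‖Q ⟨x, h - d⟩‖) := by positivity
    set q := Real.sqrt (c * (1 + d^2 * ‖Q ⟨x, h - d⟩‖)) with hqd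
    have hq2 : q^2 = c * (1 + d^2 * ‖Q ⟨x, h - d⟩‖) := Real.sq_sqrt hq
    set e := c * (1 + d * ‖g ⟨x, h - d⟩‖) with he
    have he2 : e^2 ≤ 2 * c^2 * (1 + (d * ‖g ⟨x, h - d⟩‖)^2) := by
      rw [he, mul_pow]
      have : (1 + d * ‖g ⟨x, h - d⟩‖)^2 ≤ 2 * (1 + (d * ‖g ⟨x, h - d⟩‖)^2) := by
        nlinarith [sq_nonneg (1 - d * ‖g ⟨x, h - d⟩‖)]
      nlinarith [sq_nonneg c]
    have e1 : 2 * q + 2 * c * (1 + d * ‖g ⟨x, h - d⟩‖) + a = (2*q + 2*e) + a := by rw [he]; ring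
    rw [e1]
    have e2 : ((2*q + 2*e) + a)^2 ≤ 2 * (2*q+2*e)^2 + 2 * a^2 := by
      nlinarith [sq_nonneg (2*q + 2*e - a)]
    have e3 : (2*q+2*e)^2 ≤ 8 * q^2 + 8 * e^2 := by nlinarith [sq_nonneg (q - e)]
    nlinarith
  refine hle.trans ?_
  have i1 : IntervalIntegrable (fun x : ℝ => 16 * c * (1 + d^2 * ‖Q ⟨x, h - d⟩‖)) volume 0 1 :=
    k1.intervalIntegrable _ _
  have i2 : IntervalIntegrable (fun x : ℝ => 32 * c^2 * (1 + (d * ‖g ⟨x, h - d⟩‖)^2)) volume 0 1 :=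
    k2.intervalIntegrable _ _
  have i3 : IntervalIntegrable (fun x : ℝ => d^2 * ‖Q ⟨x, h - d⟩‖) volume 0 1 :=
    (continuous_const.mul cQ.norm).intervalIntegrable _ _
  have i4 : IntervalIntegrable (fun x : ℝ => (d * ‖g ⟨x, h - d⟩‖)^2) volume 0 1 :=
    ((continuous_const.mul cg.norm).pow 2).intervalIntegrable _ _
  rw [intervalIntegral.integral_add (i1.add i2) intervalIntegrable_const,
    intervalIntegral.integral_add i1 i2, intervalIntegral.integral_const_mul,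
    intervalIntegral.integral_const_mul, intervalIntegral.integral_add intervalIntegrable_const i3,
    intervalIntegral.integral_add intervalIntegrable_const i4]
  simp only [intervalIntegral.integral_const, sub_zero, smul_eq_mul, one_mul]
  have := W.EQ d hd
  have := W.Eg d hd
  have : 16 * c * (1 + ∫ x in (0:ℝ)..1, d^2 * ‖Q ⟨x, h - d⟩‖) ≤ 16 * c * (1 + C) := by gcongr
  have : 32 * c^2 * (1 + ∫ x in (0:ℝ)..1, (d * ‖g ⟨x, h - d⟩‖)^2) ≤ 32 * c^2 * (1 + C) := by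
    gcongr
  linarith

lemma norm_d_le {f f1 : ℂ → ℂ} {z : ℂ} {r M : ℝ} (hr : 0 < r)
    (hf : ∀ w, ‖w - z‖ ≤ r → HasDerivAt f (f1 w) w) (hM : ∀ w, ‖w - z‖ ≤ r → ‖f w‖ ≤ M) :
    ‖f1 z‖ ≤ M / r := by
  have h1 : deriv f z = f1 z := (hf z (by simp [hr.le])).deriv
  rw [← h1]
  refine Complex.norm_deriv_le_of_forall_mem_sphere_norm_le hr ?_ ?_
  · refine DifferentiableOn.diffContOnCl ?_
    intro w hw
    rw [closure_ball _ hr.ne', Metric.mem_closedBall, dist_eq_norm] at hw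
    exact (hf w hw).differentiableAt.differentiableWithinAt
  · intro w hw
    rw [mem_sphere_iff_norm] at hw
    exact hM w hw.le

/-- the first order system of `g'' = Q g` -/
theorem grow2 (W : WG h D C c g g1 Q) (x : ℝ) {d : ℝ} (hd : d ∈ Ioo 0 (D/2)) :
    ∀ w, ‖w - ⟨x, h - d⟩‖ ≤ d/4 → ‖g w‖ ≤
      max ‖g ⟨x, h - d⟩‖ ((d / mm h c g Q ⟨x, h - d⟩) * ‖g1 ⟨x, h - d⟩‖)
        * Real.exp (mm h c g Q ⟨x, h - d⟩ / d * ‖w - ⟨x, h - d⟩‖) := by
  set z : ℂ := ⟨x, h - d⟩ with hz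
  have hzS : z ∈ Str h D := pt_mem x hd
  have e0 : h - z.im = d := by simp [hz]
  set m := mm h c g Q z with hm
  have hm2 : 2 ≤ m := mm_ge W hzS
  have hm0 : 0 < m := by linarith
  have hd0 : 0 < d := hd.1
  set s := d / m with hs
  have hs0 : 0 < s := by positivity
  have hball : ∀ w, ‖w - z‖ ≤ d/4 → w ∈ Str h D := fun w hw => ball_Str (x := x) hd hw
  intro w hw
  have key := grow (v := fun w => ((g w, (s:ℂ) * g1 w) : ℂ × ℂ))
    (v' := fun w => ((g1 w, (s:ℂ) * (Q w * g w)) : ℂ × ℂ)) (z := z) (r := d/4) (K := m/d)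
    (by positivity)
    (fun w hw => (W.hg w (hball w hw)).prodMk ((W.hg1 w (hball w hw)).const_mul (s:ℂ)))
    (fun w hw => by
      have hQ := Q_bd W hzS (hball w hw) (by rw [e0]; exact hw)
      rw [e0, ← hm] at hQ
      rw [Prod.norm_def, Prod.norm_def]
      simp only [norm_mul, Complex.norm_real, Real.norm_eq_abs, abs_of_pos hs0]
      apply max_le
      · calc ‖g1 w‖ = (m/d) * (s * ‖g1 w‖) := by rw [hs]; field_simp
          _ ≤ (m/d) * max ‖g w‖ (s * ‖g1 w‖) := by gcongr; exact le_max_right _ _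
      · have h1 : s * ‖Q w‖ ≤ m/d := by
          rw [hs, le_div_iff₀ hd0]
          have : d / m * ‖Q w‖ * d = (d^2 * ‖Q w‖)/m := by ring
          rw [this, div_le_iff₀ hm0]
          nlinarith
        calc s * (‖Q w‖ * ‖g w‖) = (s * ‖Q w‖) * ‖g w‖ := by ring
          _ ≤ (m/d) * ‖g w‖ := by gcongr
          _ ≤ (m/d) * max ‖g w‖ (s * ‖g1 w‖) := by gcongr; exact le_max_left _ _)
    w hw
  rw [Prod.norm_def, Prod.norm_def] at key
  simp only [norm_mul, Complex.norm_real, Real.norm_eq_abs, abs_of_pos hs0] at key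
  exact (le_max_left _ _).trans key

theorem dbl2 (W : WG h D C c g g1 Q) (x : ℝ) {d : ℝ} (hd : d ∈ Ioo 0 (D/2)) :
    Dbl g ⟨x, h - d⟩ d (mm h c g Q ⟨x, h - d⟩ + 4) := by
  intro M hM w hw
  have hzS : (⟨x, h - d⟩ : ℂ) ∈ Str h D := pt_mem x hd
  have key := grow2 W x hd w hw
  set z : ℂ := ⟨x, h - d⟩ with hz
  set m := mm h c g Q z with hm
  have hm2 : 2 ≤ m := mm_ge W hzS
  have hd0 : 0 < d := hd.1
  have hM0 : 0 ≤ M := (norm_nonneg _).trans (hM z (by rw [sub_self, norm_zero]; positivity))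
  have h1 : ‖g z‖ ≤ 16 * M := (hM z (by rw [sub_self, norm_zero]; positivity)).trans (by linarith)
  have h2 : d / m * ‖g1 z‖ ≤ 16 * M := by
    have h3 : ‖g1 z‖ ≤ M / (d/16) := norm_d_le (by positivity)
      (fun w hw => W.hg w (ball_Str (x := x) hd (hw.trans (by linarith)))) hM
    have h4 : d * ‖g1 z‖ ≤ 16 * M := by
      rw [le_div_iff₀ (by positivity)] at h3; linarith
    calc d / m * ‖g1 z‖ = (d * ‖g1 z‖)/m := by ring
      _ ≤ (d * ‖g1 z‖)/1 := by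
          apply div_le_div_of_nonneg_left (by positivity) (by norm_num) (by linarith)
      _ ≤ 16 * M := by rw [div_one]; exact h4
  have h5 : Real.exp (m / d * ‖w - z‖) ≤ Real.exp m := by
    apply Real.exp_le_exp.mpr
    calc m / d * ‖w - z‖ ≤ m / d * (d/4) := by gcongr
      _ = m/4 := by field_simp
      _ ≤ m := by linarith
  have h6 : (16:ℝ) ≤ Real.exp 4 := by
    have := Real.exp_one_gt_d9
    have h7 : Real.exp 4 = (Real.exp 1)^4 := by rw [← Real.exp_nat_mul]; norm_num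
    rw [h7]
    have : (2:ℝ)^4 ≤ (Real.exp 1)^4 := by gcongr; linarith
    linarith
  calc ‖g w‖ ≤ max ‖g z‖ (d / m * ‖g1 z‖) * Real.exp (m / d * ‖w - z‖) := key
    _ ≤ (16 * M) * Real.exp m := by
        gcongr
        exact max_le h1 h2
    _ ≤ (Real.exp 4 * M) * Real.exp m := by gcongr
    _ = Real.exp (m + 4) * M := by rw [Real.exp_add]; ring

/-- the data of the growth theorem for `g` -/
theorem gd2 (W : WG h D C c g g1 Q) :
    GD h D (2 * (8 * c * (1 + C) + 16 * c^2 * (1 + C)) + 2 * 4^2) (2 * c) g g1 (fun z => Q z * g z)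
      (fun z => mm h c g Q z + 4) := by
  have cg : ContinuousOn g (Str h D) := fun z hz => (W.hg z hz).continuousAt.continuousWithinAt
  refine ⟨⟨W.hg, W.hg1, W.cQ.mul cg⟩, W.per, W.ne, (mm_cont W).add continuousOn_const,
    fun z hz => by rw [mm_per W hz], fun z hz => by linarith [mm_ge W hz], ?_, ?_, ?_⟩
  · intro z hz w hw' hw
    have := mm_temp W hz hw' hw
    have := W.hc
    nlinarith
  · intro d hd
    exact mm_E W 4 hd
  · intro x d hd
    exact dbl2 W x hd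

end

end Vale.Agent.P097.H140
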