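import Vale.Agent.P097.H140.Ode

open MeasureTheory Set Filter Topology ComplexConjugate

namespace Vale.Agent.P097.H140

/-- chains from the dyadic points of the axis to the points of a cone -/
theorem reach {h D : ℝ} (hD : 0 < D) (b A : ℝ) (n0 : ℕ) : ∃ N : ℕ, 0 < N ∧
    ∀ᶠ d in 𝓝[>] (0:ℝ), ∀ x' : ℝ, |x' - b| ≤ A * d → ∃ n : ℕ, n0 ≤ n ∧
      (n:ℝ) + 1 ≤ 2 * Real.log (1/d) ∧ ∃ Z : ℕ → ℂ, Z 0 = ⟨b, h - dn D n⟩ ∧ Z N = ⟨x', h - d⟩ ∧
      (∀ i ≤ N, h - (Z i).im ∈ Ioo 0 (D/2)) ∧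
      (∀ i < N, ‖Z (i+1) - Z i‖ ≤ (h - (Z i).im)/64) := by
  set B : ℝ := |A| + 1 with hB
  obtain ⟨N, hN⟩ := exists_nat_ge (128 * B)
  have hB1 : 1 ≤ B := by rw [hB]; linarith [abs_nonneg A]
  have hN1 : (1:ℝ) ≤ N := by linarith
  have hNpos : (0:ℝ) < N := by linarith
  refine ⟨N, by exact_mod_cast hNpos, ?_⟩
  have hL : Tendsto (fun d : ℝ => Real.log (1/d)) (𝓝[>] 0) atTop := by
    have : Tendsto (fun d : ℝ => 1/d) (𝓝[>] 0) atTop := by
      simpa using tendsto_inv_nhdsGT_zero (𝕜 := ℝ)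
    exact Real.tendsto_log_atTop.comp this
  have as3 : ∀ᶠ L : ℝ in atTop, (L + Real.log (D/4))/Real.log 2 + 1 ≤ 2 * L := by
    have hl2 : (0.69:ℝ) < Real.log 2 := by have := Real.log_two_gt_d9; linarith
    filter_upwards [eventually_ge_atTop (10 * |Real.log (D/4)| + 10)] with L hL
    have habs := le_abs_self (Real.log (D/4))
    have hnn := abs_nonneg (Real.log (D/4))
    have : (L + Real.log (D/4))/Real.log 2 ≤ 2 * L - 1 := by
      rw [div_le_iff₀ (by linarith)]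
      nlinarith
    linarith
  have small : ∀ᶠ d in 𝓝[>] (0:ℝ), d < dn D n0 := by
    have : ∀ᶠ d in 𝓝 (0:ℝ), d < dn D n0 := gt_mem_nhds (dn_mem hD n0).1
    exact this.filter_mono nhdsWithin_le_nhds
  filter_upwards [hL.eventually as3, small, self_mem_nhdsWithin] with d l3 hsm hd0 x' hx'
  have hdpos : (0:ℝ) < d := hd0
  have hex : ∃ n : ℕ, dn D (n+1) < d := by
    have : Tendsto (fun n : ℕ => dn D (n+1)) atTop (𝓝 0) := by
      unfold dn
      have t0 : Tendsto (fun n : ℕ => ((1/2:ℝ))^(n+1)) atTop (𝓝 0) :=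
        (tendsto_pow_atTop_nhds_zero_of_lt_one (by norm_num) (by norm_num)).comp
          (tendsto_add_atTop_nat 1)
      have t1 := t0.const_mul (D/4)
      rw [mul_zero] at t1
      refine t1.congr fun n => ?_
      rw [one_div, inv_pow]; ring
    exact (this.eventually (gt_mem_nhds hdpos)).exists
  classical
  set n := Nat.find hex with hn
  have hn1 : dn D (n+1) < d := Nat.find_spec hex
  have hn2 : d ≤ dn D n := by
    rcases Nat.eq_zero_or_pos n with h0 | h0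
    · rw [h0]
      have : dn D n0 ≤ dn D 0 := by
        unfold dn
        gcongr
        · norm_num
        · exact Nat.zero_le _
      linarith
    · have := Nat.find_min hex (m := n - 1) (by omega)
      push Not at this
      rwa [Nat.sub_add_cancel h0] at this
  have hnn0 : n0 ≤ n := by
    by_contra hlt
    push Not at hlt
    have : dn D n0 ≤ dn D (n+1) := by
      unfold dn
      gcongr
      · norm_num
      · omega
    linarith
  have hhalf : dn D (n+1) = dn D n / 2 := by unfold dn; rw [pow_succ]; field_simp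
  have hdn := dn_mem hD n
  set δ := dn D n with hδ
  set z0 : ℂ := ⟨b, h - δ⟩ with hz0
  set z' : ℂ := ⟨x', h - d⟩ with hz'
  set Z : ℕ → ℂ := fun i => z0 + ((i / N : ℝ) : ℂ) * (z' - z0) with hZ
  have hZim : ∀ i : ℕ, h - (Z i).im = (1 - (i:ℝ)/N) * δ + (i:ℝ)/N * d := by
    intro i
    simp only [hZ, Complex.add_im, Complex.mul_im, Complex.ofReal_re, Complex.ofReal_im,
      Complex.sub_im, Complex.sub_re, hz0, hz']
    ring
  have hfrac : ∀ i ≤ N, (0:ℝ) ≤ (i:ℝ)/N ∧ (i:ℝ)/N ≤ 1 := by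
    intro i hi
    constructor
    · positivity
    · rw [div_le_one hNpos]; exact_mod_cast hi
  have hZge : ∀ i ≤ N, δ/2 ≤ h - (Z i).im := by
    intro i hi
    rw [hZim]
    obtain ⟨f1, f2⟩ := hfrac i hi
    nlinarith
  have hZmem : ∀ i ≤ N, h - (Z i).im ∈ Ioo 0 (D/2) := by
    intro i hi
    refine ⟨lt_of_lt_of_le (by linarith [hdn.1]) (hZge i hi), ?_⟩
    rw [hZim]
    obtain ⟨f1, f2⟩ := hfrac i hi
    have : (1 - (i:ℝ)/N) * δ + (i:ℝ)/N * d ≤ δ := by nlinarith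
    linarith [hdn.2]
  have hdist : ‖z' - z0‖ ≤ B * δ := by
    have h1 : ‖z' - z0‖ ≤ |(z' - z0).re| + |(z' - z0).im| := Complex.norm_le_abs_re_add_abs_im _
    have h2 : |(z' - z0).re| ≤ |A| * δ := by
      simp only [hz', hz0, Complex.sub_re]
      calc |x' - b| ≤ A * d := hx'
        _ ≤ |A| * d := mul_le_mul_of_nonneg_right (le_abs_self _) hdpos.le
        _ ≤ |A| * δ := mul_le_mul_of_nonneg_left hn2 (abs_nonneg _)
    have h3 : |(z' - z0).im| ≤ δ := by
      simp only [hz', hz0, Complex.sub_im]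
      rw [abs_le]; constructor <;> linarith
    rw [hB]; linarith
  have hZstep : ∀ i < N, ‖Z (i+1) - Z i‖ ≤ (h - (Z i).im)/64 := by
    intro i hi
    have e : Z (i+1) - Z i = ((1/N : ℝ) : ℂ) * (z' - z0) := by
      simp only [hZ]; push_cast; ring
    rw [e, norm_mul, Complex.norm_real, Real.norm_eq_abs, abs_of_pos (by positivity)]
    have h1 := hZge i hi.le
    calc 1/N * ‖z' - z0‖ ≤ 1/N * (B * δ) := by gcongr
      _ = (B/N) * δ := by ring
      _ ≤ (1/128) * δ := by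
          apply mul_le_mul_of_nonneg_right _ hdn.1.le
          rw [div_le_iff₀ hNpos]; linarith
      _ ≤ (h - (Z i).im)/64 := by linarith
  have hZ0 : Z 0 = z0 := by simp [hZ]
  have hZN : Z N = z' := by
    simp only [hZ]
    rw [div_self hNpos.ne']
    push_cast; ring
  refine ⟨n, hnn0, ?_, Z, hZ0, hZN, hZmem, hZstep⟩
  refine le_trans ?_ l3
  have h1 : (2:ℝ)^n ≤ (D/4)/d := by
    rw [le_div_iff₀ hdpos]
    have : δ * 2^n = D/4 := by rw [hδ]; unfold dn; field_simp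
    nlinarith [pow_pos (show (0:ℝ) < 2 by norm_num) n]
  have h2 := Real.log_le_log (by positivity) h1
  rw [Real.log_pow, Real.log_div (by positivity) hdpos.ne'] at h2
  have h3 : Real.log (1/d) = -Real.log d := by rw [one_div, Real.log_inv]
  have hl2 : 0 < Real.log 2 := Real.log_pos (by norm_num)
  have : (n:ℝ) ≤ (Real.log (1/d) + Real.log (D/4))/Real.log 2 := by
    rw [le_div_iff₀ hl2, h3]; linarith
  linarith

section
variable {h D C c : ℝ} {g g1 Q : ℂ → ℂ}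

lemma L_tendsto : Tendsto (fun d : ℝ => Real.log (1/d)) (𝓝[>] 0) atTop := by
  have : Tendsto (fun d : ℝ => 1/d) (𝓝[>] 0) atTop := by
    simpa using tendsto_inv_nhdsGT_zero (𝕜 := ℝ)
  exact Real.tendsto_log_atTop.comp this

/-- **a.e. growth of the jet** for `g'' = Q g` under weak goodness -/
theorem growth_jet (W : WG h D C c g g1 Q) (hD : 0 < D) :
    ∀ᵐ b : ℝ, ∀ A : ℝ, ∀ᶠ d in 𝓝[>] (0:ℝ), ∀ x' : ℝ, |x' - b| ≤ A * d →
      Real.exp (-(3 * (Real.log (1/d))^(9/10:ℝ)))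
        ≤ ‖g ⟨x', h - d⟩‖^2 + d^2 * ‖g1 ⟨x', h - d⟩‖^2 ∧
      d^2 * ‖Q ⟨x', h - d⟩‖ ≤ ((Real.log (1/d))^(7/10:ℝ))^2 ∧
      d * ‖g ⟨x', h - d⟩‖ ≤ (Real.log (1/d))^(7/10:ℝ) := by
  have small : ∀ᶠ d in 𝓝[>] (0:ℝ), d ∈ Ioo 0 (D/2) := by
    have h1 : ∀ᶠ d in 𝓝 (0:ℝ), d < D/2 := gt_mem_nhds (by linarith)
    filter_upwards [h1.filter_mono nhdsWithin_le_nhds, self_mem_nhdsWithin] with d a b
    exact ⟨b, a⟩
  filter_upwards [growth (gd2 W) hD (by linarith [W.hc])] with b hb A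
  filter_upwards [hb A, small, L_tendsto.eventually (eventually_ge_atTop 1)] with d hd hds hL x' hx'
  obtain ⟨⟨w, hw1, hw2⟩, hk⟩ := hd x' hx'
  have hzS : (⟨x', h - d⟩ : ℂ) ∈ Str h D := pt_mem x' hds
  have hd0 : 0 < d := hds.1
  have key := grow2 W x' hds w (hw1.trans (by linarith))
  have hQ := Q_bd W hzS hzS (by simp; positivity)
  have hg := g_bd W hzS hzS (by simp; positivity)
  set z : ℂ := ⟨x', h - d⟩ with hz
  have e0 : h - z.im = d := by simp [hz]
  rw [e0] at hQ hg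
  set m := mm h c g Q z with hm
  set L := Real.log (1/d) with hLd
  have hm2 : 2 ≤ m := mm_ge W hzS
  have hL7 : m ≤ L^(7/10:ℝ) := by linarith
  have hL9 : L^(7/10:ℝ) ≤ L^(9/10:ℝ) := Real.rpow_le_rpow_of_exponent_le hL (by norm_num)
  refine ⟨?_, ?_, by linarith⟩
  · set V := max ‖g z‖ (d / m * ‖g1 z‖) with hV
    have h5 : Real.exp (m / d * ‖w - z‖) ≤ Real.exp (m/2) := by
      apply Real.exp_le_exp.mpr
      calc m / d * ‖w - z‖ ≤ m / d * (d/16) := by gcongr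
        _ = m/16 := by field_simp
        _ ≤ m/2 := by linarith
    have hV0 : 0 ≤ V := le_max_of_le_left (norm_nonneg _)
    have h6 : Real.exp (-L^(9/10:ℝ)) ≤ V * Real.exp (m/2) := by
      refine hw2.trans (key.trans ?_)
      gcongr
    have h7 : Real.exp (-L^(9/10:ℝ) - m/2) ≤ V := by
      rw [Real.exp_sub, div_le_iff₀ (Real.exp_pos _)]
      exact h6
    have h8 : V^2 ≤ ‖g z‖^2 + d^2 * ‖g1 z‖^2 := by
      rw [hV]
      rcases max_cases ‖g z‖ (d / m * ‖g1 z‖) with ⟨e, -⟩ | ⟨e, -⟩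
      · rw [e]
        have : 0 ≤ d^2 * ‖g1 z‖^2 := by positivity
        linarith
      · rw [e]
        have h9 : d / m * ‖g1 z‖ ≤ d * ‖g1 z‖ := by
          apply mul_le_mul_of_nonneg_right _ (norm_nonneg _)
          exact div_le_self hd0.le (by linarith)
        have h10 : 0 ≤ d / m * ‖g1 z‖ := by positivity
        have h11 : (d / m * ‖g1 z‖)^2 ≤ (d * ‖g1 z‖)^2 := by gcongr
        nlinarith [sq_nonneg ‖g z‖]
    calc Real.exp (-(3 * L^(9/10:ℝ))) ≤ (Real.exp (-L^(9/10:ℝ) - m/2))^2 := by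
          rw [← Real.exp_nat_mul]
          apply Real.exp_le_exp.mpr
          push_cast
          linarith
      _ ≤ V^2 := by gcongr
      _ ≤ _ := h8
  · refine hQ.trans ?_
    gcongr

lemma rpow_small (η : ℝ) (hη : 0 < η) {a : ℝ} (ha : a < 1) (K : ℝ) :
    ∀ᶠ d in 𝓝[>] (0:ℝ), K * (Real.log (1/d))^a ≤ η * Real.log (1/d) := by
  have t1 : Tendsto (fun L : ℝ => L^(-(1-a))) atTop (𝓝 0) := tendsto_rpow_neg_atTop (by linarith)
  have t3 : Tendsto (fun L : ℝ => K * L^(-(1-a))) atTop (𝓝 (K * 0)) := t1.const_mul _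
  rw [mul_zero] at t3
  have as : ∀ᶠ L : ℝ in atTop, K * L^a ≤ η * L := by
    filter_upwards [t3.eventually (ge_mem_nhds hη), eventually_gt_atTop 0] with L hL1 hL0
    have e1 : L^a = L^(-(1-a)) * L := by
      nth_rewrite 3 [← Real.rpow_one L]
      rw [← Real.rpow_add hL0]; congr 1; ring
    rw [e1, ← mul_assoc]
    gcongr
  exact L_tendsto.eventually as

lemma ev_to_delta {P : ℝ → Prop} (hP : ∀ᶠ d in 𝓝[>] (0:ℝ), P d) :
    ∃ δ > 0, ∀ d, 0 < d → d ≤ δ → P d := by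
  obtain ⟨u, hu, hu2⟩ := mem_nhdsGT_iff_exists_Ioo_subset.mp hP
  refine ⟨u/2, half_pos hu, fun d h0 h1 => hu2 ⟨h0, ?_⟩⟩
  have : (0:ℝ) < u := hu
  linarith

/-- the output in the form of the hypotheses of the quasi-limit theorem (every aperture, every
exponent) -/
theorem growth_cone (W : WG h D C c g g1 Q) (hD : 0 < D) :
    ∀ᵐ b : ℝ, ∀ A > 0, ∀ η > 0, ∃ δ > 0, ∀ z : ℂ, |z.re - b| ≤ A * (h - z.im) → 0 < h - z.im →
      h - z.im ≤ δ →
      ‖Q z‖ * (h - z.im)^2 ≤ (η * Real.log (1/(h - z.im)))^2 ∧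
      (h - z.im)^η ≤ ‖g z‖^2 + (h - z.im)^2 * ‖g1 z‖^2 ∧
      (h - z.im) * ‖g z‖ ≤ η * Real.log (1/(h - z.im)) := by
  filter_upwards [growth_jet W hD] with b hb A hA η hη
  have h1 := rpow_small η hη (a := 9/10) (by norm_num) 3
  have h2 := rpow_small η hη (a := 7/10) (by norm_num) 1
  obtain ⟨δ, hδ, hδ2⟩ := ev_to_delta ((hb A).and (h1.and (h2.and
    (L_tendsto.eventually (eventually_ge_atTop 1)))))
  refine ⟨δ, hδ, fun z hz1 hz2 hz3 => ?_⟩
  obtain ⟨k1, k2, k3, k4⟩ := hδ2 (h - z.im) hz2 hz3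
  obtain ⟨k5, k6, k7⟩ := k1 z.re hz1
  have e : (⟨z.re, h - (h - z.im)⟩ : ℂ) = z := by apply Complex.ext <;> simp
  rw [e] at k5 k6 k7
  set d := h - z.im with hd
  set L := Real.log (1/d) with hL
  rw [one_mul] at k3
  have hr : 0 ≤ L^(7/10:ℝ) := Real.rpow_nonneg (by linarith) _
  refine ⟨?_, ?_, k7.trans k3⟩
  · rw [mul_comm]
    refine k6.trans ?_
    gcongr
  · refine le_trans ?_ k5
    rw [Real.rpow_def_of_pos hz2]
    apply Real.exp_le_exp.mpr
    have : Real.log d = -L := by rw [hL, one_div, Real.log_inv]; ring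
    rw [this]
    linarith

end

end Vale.Agent.P097.H140
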