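import Vale.Agent.P097.H140.Ker

open MeasureTheory Set Filter Topology ComplexConjugate

namespace Vale.Agent.P097.H140

/-- the strip of width `D` below the line `Im z = h` -/
def Str (h D : ℝ) : Set ℂ := {z | h - D < z.im ∧ z.im < h}

lemma Str_open (h D : ℝ) : IsOpen (Str h D) :=
  (isOpen_lt continuous_const Complex.continuous_im).inter
    (isOpen_lt Complex.continuous_im continuous_const)

/-- affine coordinates of the half plane below `Im z = h` -/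
noncomputable def zz (h x d : ℝ) (p : ℝ × ℝ) : ℂ := ⟨x + d * p.1, h - d * p.2⟩

lemma zz_mem {h D x d : ℝ} {p : ℝ × ℝ} (hd : d ∈ Ioo 0 (D/2)) (hp : p ∈ SS) :
    zz h x d p ∈ Str h D := by
  have h2 := mem_SS.mp hp
  have hpos := SS_pos hp
  unfold Str zz
  simp only [mem_ofPred_eq]
  constructor
  · nlinarith [hd.1, hd.2]
  · have := mul_pos hd.1 hpos; linarith

lemma zz_cont (h : ℝ) : Continuous (fun q : (ℝ × ℝ) × (ℝ × ℝ) => zz h q.1.1 q.1.2 q.2) := by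
  have : (fun q : (ℝ × ℝ) × (ℝ × ℝ) => zz h q.1.1 q.1.2 q.2)
      = fun q => ((q.1.1 + q.1.2 * q.2.1 : ℝ) : ℂ) + ((h - q.1.2 * q.2.2 : ℝ) : ℂ) * Complex.I := by
    funext q
    apply Complex.ext <;> simp [zz]
  rw [this]
  fun_prop

lemma zz_eq (h x d : ℝ) (p : ℝ × ℝ) :
    zz h x d p = ((x + d * p.1 : ℝ) : ℂ) + ((h - d * p.2 : ℝ) : ℂ) * Complex.I := by
  apply Complex.ext <;> simp [zz]

lemma zz_hx (h x d : ℝ) (p : ℝ × ℝ) : HasDerivAt (fun t => zz h t d p) 1 x := by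
  have h1 : HasDerivAt (fun t : ℝ => ((t + d * p.1 : ℝ) : ℂ)) ((1:ℝ):ℂ) x :=
    ((hasDerivAt_id x).add_const _).ofReal_comp
  have h2 := h1.add_const (((h - d * p.2 : ℝ) : ℂ) * Complex.I)
  simp only [Complex.ofReal_one] at h2
  exact h2.congr_of_eventuallyEq (Eventually.of_forall fun t => zz_eq h t d p)

lemma zz_hd (h x d : ℝ) (p : ℝ × ℝ) :
    HasDerivAt (fun t => zz h x t p) ((p.1 : ℂ) - (p.2 : ℂ) * Complex.I) d := by
  have h1 : HasDerivAt (fun t : ℝ => ((x + t * p.1 : ℝ) : ℂ)) ((p.1 : ℝ) : ℂ) d := by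
    have : HasDerivAt (fun t : ℝ => x + t * p.1) (p.1) d := by
      have := ((hasDerivAt_id d).mul_const p.1).const_add x
      refine this.congr_deriv ?_
      simp
    exact this.ofReal_comp
  have h2 : HasDerivAt (fun t : ℝ => ((h - t * p.2 : ℝ) : ℂ)) ((-p.2 : ℝ) : ℂ) d := by
    have : HasDerivAt (fun t : ℝ => h - t * p.2) (-p.2) d := by
      have := ((hasDerivAt_id d).mul_const p.2).const_sub h
      refine this.congr_deriv ?_
      simp
    exact this.ofReal_comp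
  have h3 := h1.add (h2.mul_const Complex.I)
  have h4 : HasDerivAt (fun t => zz h x t p) (((p.1 : ℝ) : ℂ) + ((-p.2 : ℝ) : ℂ) * Complex.I) d :=
    h3.congr_of_eventuallyEq (Eventually.of_forall fun t => zz_eq h x t p)
  refine h4.congr_deriv ?_
  push_cast; ring

lemma zz_hA (h x d : ℝ) (p : ℝ × ℝ) : HasDerivAt (fun t => zz h x d (t, p.2)) (d : ℂ) p.1 := by
  have h1 : HasDerivAt (fun t : ℝ => ((x + d * t : ℝ) : ℂ)) ((d : ℝ) : ℂ) p.1 := by
    have : HasDerivAt (fun t : ℝ => x + d * t) d p.1 := by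
      have := ((hasDerivAt_id p.1).const_mul d).const_add x
      refine this.congr_deriv ?_
      simp
    exact this.ofReal_comp
  have h2 := h1.add_const (((h - d * p.2 : ℝ) : ℂ) * Complex.I)
  exact h2.congr_of_eventuallyEq (Eventually.of_forall fun t => zz_eq h x d (t, p.2))

lemma zz_hB (h x d : ℝ) (p : ℝ × ℝ) :
    HasDerivAt (fun t => zz h x d (p.1, t)) (-(d : ℂ) * Complex.I) p.2 := by
  have h1 : HasDerivAt (fun t : ℝ => ((h - d * t : ℝ) : ℂ)) ((-d : ℝ) : ℂ) p.2 := by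
    have : HasDerivAt (fun t : ℝ => h - d * t) (-d) p.2 := by
      have := ((hasDerivAt_id p.2).const_mul d).const_sub h
      refine this.congr_deriv ?_
      simp
    exact this.ofReal_comp
  have h2 := (h1.mul_const Complex.I).const_add ((x + d * p.1 : ℝ) : ℂ)
  have h3 : HasDerivAt (fun t => zz h x d (p.1, t)) (((-d : ℝ) : ℂ) * Complex.I) p.2 :=
    h2.congr_of_eventuallyEq (Eventually.of_forall fun t => zz_eq h x d (p.1, t))
  refine h3.congr_deriv ?_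
  push_cast; ring

lemma zz_diff (h x d : ℝ) (p : ℝ × ℝ) : DifferentiableAt ℝ (fun p => zz h x d p) p := by
  have : (fun p => zz h x d p) = fun p : ℝ × ℝ =>
      ((x + d * p.1 : ℝ) : ℂ) + ((h - d * p.2 : ℝ) : ℂ) * Complex.I := by
    funext p; exact zz_eq h x d p
  rw [this]
  have h1 : DifferentiableAt ℝ (fun p : ℝ × ℝ => ((x + d * p.1 : ℝ) : ℂ)) p :=
    Complex.ofRealCLM.differentiableAt.comp p (by fun_prop : DifferentiableAt ℝ
      (fun p : ℝ × ℝ => x + d * p.1) p)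
  have h2 : DifferentiableAt ℝ (fun p : ℝ × ℝ => ((h - d * p.2 : ℝ) : ℂ)) p :=
    Complex.ofRealCLM.differentiableAt.comp p (by fun_prop : DifferentiableAt ℝ
      (fun p : ℝ × ℝ => h - d * p.2) p)
  exact h1.add (h2.mul_const _)

/-- data: a holomorphic function on the strip with its two derivatives -/
structure Hol (h D : ℝ) (y y1 y2 : ℂ → ℂ) : Prop where
  h0 : ∀ z ∈ Str h D, HasDerivAt y (y1 z) z
  h1 : ∀ z ∈ Str h D, HasDerivAt y1 (y2 z) z
  c2 : ContinuousOn y2 (Str h D)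

lemma Hol.c0 {h D : ℝ} {y y1 y2 : ℂ → ℂ} (H : Hol h D y y1 y2) : ContinuousOn y (Str h D) :=
  fun z hz => (H.h0 z hz).continuousAt.continuousWithinAt

lemma Hol.c1 {h D : ℝ} {y y1 y2 : ℂ → ℂ} (H : Hol h D y y1 y2) : ContinuousOn y1 (Str h D) :=
  fun z hz => (H.h1 z hz).continuousAt.continuousWithinAt

lemma Hol.cN {h D : ℝ} {y y1 y2 : ℂ → ℂ} (H : Hol h D y y1 y2) (ε : ℝ) :
    ContinuousOn (NN ε y) (Str h D) := by
  unfold NN
  exact (H.c0.norm.pow 2).add continuousOn_const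

lemma Hol.cu {h D : ℝ} {y y1 y2 : ℂ → ℂ} (H : Hol h D y y1 y2) {ε : ℝ} (hε : 0 < ε) :
    ContinuousOn (uu ε y) (Str h D) := by
  unfold uu
  exact continuousOn_const.mul ((H.cN ε).log (fun z _ => (NN_pos hε y z).ne'))

lemma Hol.cG {h D : ℝ} {y y1 y2 : ℂ → ℂ} (H : Hol h D y y1 y2) {ε : ℝ} (hε : 0 < ε) :
    ContinuousOn (Gr ε y y1) (Str h D) := by
  unfold Gr
  have c0 : ContinuousOn (fun z => conj (y z)) (Str h D) :=
    Complex.continuous_conj.comp_continuousOn H.c0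
  refine (c0.mul H.c1).div (Complex.continuous_ofReal.comp_continuousOn (H.cN ε)) ?_
  intro z _
  exact_mod_cast (NN_pos hε y z).ne'

lemma Hol.cH {h D : ℝ} {y y1 y2 : ℂ → ℂ} (H : Hol h D y y1 y2) {ε : ℝ} (hε : 0 < ε) :
    ContinuousOn (HH ε y y1 y2) (Str h D) := by
  unfold HH
  have c0 : ContinuousOn (fun z => conj (y z)) (Str h D) :=
    Complex.continuous_conj.comp_continuousOn H.c0
  have cN : ContinuousOn (fun z => (NN ε y z : ℂ)) (Str h D) :=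
    Complex.continuous_ofReal.comp_continuousOn (H.cN ε)
  have hne : ∀ z ∈ Str h D, (NN ε y z : ℂ) ≠ 0 := fun z _ => by
    exact_mod_cast (NN_pos hε y z).ne'
  refine ((c0.mul H.c2).div cN hne).sub (((c0.mul H.c1).pow 2).div (cN.pow 2) ?_)
  intro z hz
  exact pow_ne_zero 2 (hne z hz)

lemma Hol.cL {h D : ℝ} {y y1 y2 : ℂ → ℂ} (H : Hol h D y y1 y2) {ε : ℝ} (hε : 0 < ε) :
    ContinuousOn (LL ε y y1) (Str h D) := by
  unfold LL
  refine (continuousOn_const.mul (H.c1.norm.pow 2)).div ((H.cN ε).pow 2) ?_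
  intro z _
  exact pow_ne_zero 2 (NN_pos hε y z).ne'

lemma LL_nonneg (ε : ℝ) (y y1 : ℂ → ℂ) (z : ℂ) : 0 ≤ LL ε y y1 z := by
  unfold LL; positivity

/-- hyperbolic radial average and its derivatives -/
noncomputable def ub (h ε : ℝ) (y : ℂ → ℂ) (x d : ℝ) : ℝ := ∫ p in SS, uu ε y (zz h x d p) * KK p
noncomputable def ubx (h ε : ℝ) (y y1 : ℂ → ℂ) (x d : ℝ) : ℝ :=
  ∫ p in SS, (Gr ε y y1 (zz h x d p)).re * KK p
noncomputable def ubd (h ε : ℝ) (y y1 : ℂ → ℂ) (x d : ℝ) : ℝ :=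
  ∫ p in SS, (Gr ε y y1 (zz h x d p) * ((p.1 : ℂ) - (p.2 : ℂ) * Complex.I)).re * KK p
noncomputable def ubxx (h ε : ℝ) (y y1 y2 : ℂ → ℂ) (x d : ℝ) : ℝ :=
  ∫ p in SS, ((HH ε y y1 y2 (zz h x d p)).re + LL ε y y1 (zz h x d p)) * KK p
noncomputable def ubdd (h ε : ℝ) (y y1 y2 : ℂ → ℂ) (x d : ℝ) : ℝ :=
  ∫ p in SS, ((((p.1 : ℂ) - (p.2 : ℂ) * Complex.I) * HH ε y y1 y2 (zz h x d p)
    + conj ((p.1 : ℂ) - (p.2 : ℂ) * Complex.I) * (LL ε y y1 (zz h x d p) : ℂ))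
      * ((p.1 : ℂ) - (p.2 : ℂ) * Complex.I)).re * KK p

section
variable {h D : ℝ} {y y1 y2 : ℂ → ℂ} {ε : ℝ}

lemma comp_cont {E : Type*} [TopologicalSpace E] {G : ℂ → E} (hG : ContinuousOn G (Str h D)) :
    ContinuousOn (fun q : (ℝ × ℝ) × (ℝ × ℝ) => G (zz h q.1.1 q.1.2 q.2))
      ((univ ×ˢ Ioo 0 (D/2)) ×ˢ SS) := by
  refine hG.comp (zz_cont h).continuousOn ?_
  rintro ⟨⟨x, d⟩, p⟩ ⟨⟨_, hd⟩, hp⟩
  exact zz_mem hd hp

lemma KK_c2 : ContinuousOn (fun q : (ℝ × ℝ) × (ℝ × ℝ) => KK q.2) ((univ ×ˢ Ioo 0 (D/2)) ×ˢ SS) :=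
  KK_contOn.comp (by fun_prop) (fun q hq => hq.2)

lemma cc_u (H : Hol h D y y1 y2) (hε : 0 < ε) :
    ContinuousOn (fun q : (ℝ × ℝ) × (ℝ × ℝ) => uu ε y (zz h q.1.1 q.1.2 q.2) * KK q.2)
      ((univ ×ˢ Ioo 0 (D/2)) ×ˢ SS) := (comp_cont (H.cu hε)).mul KK_c2

lemma cc_x (H : Hol h D y y1 y2) (hε : 0 < ε) :
    ContinuousOn (fun q : (ℝ × ℝ) × (ℝ × ℝ) => (Gr ε y y1 (zz h q.1.1 q.1.2 q.2)).re * KK q.2)
      ((univ ×ˢ Ioo 0 (D/2)) ×ˢ SS) :=
  (Complex.continuous_re.comp_continuousOn (comp_cont (H.cG hε))).mul KK_c2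

lemma cc_v : ContinuousOn (fun q : (ℝ × ℝ) × (ℝ × ℝ) => ((q.2.1 : ℂ) - (q.2.2 : ℂ) * Complex.I))
    ((univ ×ˢ Ioo 0 (D/2)) ×ˢ SS) := by fun_prop

lemma cc_d (H : Hol h D y y1 y2) (hε : 0 < ε) :
    ContinuousOn (fun q : (ℝ × ℝ) × (ℝ × ℝ) =>
      (Gr ε y y1 (zz h q.1.1 q.1.2 q.2) * ((q.2.1 : ℂ) - (q.2.2 : ℂ) * Complex.I)).re * KK q.2)
      ((univ ×ˢ Ioo 0 (D/2)) ×ˢ SS) :=
  (Complex.continuous_re.comp_continuousOn ((comp_cont (H.cG hε)).mul cc_v)).mul KK_c2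

lemma cc_xx (H : Hol h D y y1 y2) (hε : 0 < ε) :
    ContinuousOn (fun q : (ℝ × ℝ) × (ℝ × ℝ) =>
      ((HH ε y y1 y2 (zz h q.1.1 q.1.2 q.2)).re + LL ε y y1 (zz h q.1.1 q.1.2 q.2)) * KK q.2)
      ((univ ×ˢ Ioo 0 (D/2)) ×ˢ SS) :=
  ((Complex.continuous_re.comp_continuousOn (comp_cont (H.cH hε))).add
    (comp_cont (H.cL hε))).mul KK_c2

lemma cc_dd (H : Hol h D y y1 y2) (hε : 0 < ε) :
    ContinuousOn (fun q : (ℝ × ℝ) × (ℝ × ℝ) =>
      ((((q.2.1 : ℂ) - (q.2.2 : ℂ) * Complex.I) * HH ε y y1 y2 (zz h q.1.1 q.1.2 q.2)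
    + conj ((q.2.1 : ℂ) - (q.2.2 : ℂ) * Complex.I) * (LL ε y y1 (zz h q.1.1 q.1.2 q.2) : ℂ))
      * ((q.2.1 : ℂ) - (q.2.2 : ℂ) * Complex.I)).re * KK q.2)
      ((univ ×ˢ Ioo 0 (D/2)) ×ˢ SS) := by
  have c1 := comp_cont (H.cH hε)
  have c2 : ContinuousOn (fun q : (ℝ × ℝ) × (ℝ × ℝ) => (LL ε y y1 (zz h q.1.1 q.1.2 q.2) : ℂ))
      ((univ ×ˢ Ioo 0 (D/2)) ×ˢ SS) :=
    Complex.continuous_ofReal.comp_continuousOn (comp_cont (H.cL hε))
  have c3 : ContinuousOn (fun q : (ℝ × ℝ) × (ℝ × ℝ) =>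
      conj ((q.2.1 : ℂ) - (q.2.2 : ℂ) * Complex.I)) ((univ ×ˢ Ioo 0 (D/2)) ×ˢ SS) :=
    Complex.continuous_conj.comp_continuousOn cc_v
  exact (Complex.continuous_re.comp_continuousOn
    (((cc_v.mul c1).add (c3.mul c2)).mul cc_v)).mul KK_c2

lemma Uopen : IsOpen ((univ : Set ℝ) ×ˢ Ioo (0:ℝ) (D/2)) := isOpen_univ.prod isOpen_Ioo

/-- restricting a jointly continuous integrand to a line in the parameter space -/
lemma line_x {g : (ℝ × ℝ) × (ℝ × ℝ) → ℝ} (hg : ContinuousOn g ((univ ×ˢ Ioo 0 (D/2)) ×ˢ SS))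
    {d : ℝ} (hd : d ∈ Ioo 0 (D/2)) :
    ContinuousOn (fun q : ℝ × (ℝ × ℝ) => g ((q.1, d), q.2)) (univ ×ˢ SS) :=
  hg.comp (f := fun q : ℝ × (ℝ × ℝ) => (((q.1, d), q.2) : (ℝ × ℝ) × (ℝ × ℝ)))
    (by fun_prop) (fun q hq => ⟨⟨mem_univ _, hd⟩, hq.2⟩)

lemma line_d {g : (ℝ × ℝ) × (ℝ × ℝ) → ℝ} (hg : ContinuousOn g ((univ ×ˢ Ioo 0 (D/2)) ×ˢ SS))
    (x : ℝ) :
    ContinuousOn (fun q : ℝ × (ℝ × ℝ) => g ((x, q.1), q.2)) (Ioo 0 (D/2) ×ˢ SS) :=
  hg.comp (f := fun q : ℝ × (ℝ × ℝ) => (((x, q.1), q.2) : (ℝ × ℝ) × (ℝ × ℝ)))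
    (by fun_prop) (fun q hq => ⟨⟨mem_univ _, hq.1⟩, hq.2⟩)

lemma point {g : (ℝ × ℝ) × (ℝ × ℝ) → ℝ} (hg : ContinuousOn g ((univ ×ˢ Ioo 0 (D/2)) ×ˢ SS))
    (x : ℝ) {d : ℝ} (hd : d ∈ Ioo 0 (D/2)) :
    ContinuousOn (fun p : ℝ × ℝ => g ((x, d), p)) SS :=
  hg.comp (f := fun p : ℝ × ℝ => (((x, d), p) : (ℝ × ℝ) × (ℝ × ℝ)))
    (by fun_prop) (fun q hq => ⟨⟨mem_univ _, hd⟩, hq⟩)

theorem ub_sub (H : Hol h D y y1 y2) (hε : 0 < ε) (x : ℝ) {d : ℝ} (hd : d ∈ Ioo 0 (D/2)) :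
    0 ≤ ubxx h ε y y1 y2 x d + ubdd h ε y y1 y2 x d := by
  have hd0 : (d : ℝ) ≠ 0 := hd.1.ne'
  -- the function F = Re Gr ∘ zz and its line derivatives
  have cz : ContinuousOn (fun p : ℝ × ℝ => zz h x d p) SS := by
    have := (zz_cont h).continuousOn (s := univ)
    exact (this.comp (f := fun p : ℝ × ℝ => (((x, d), p) : (ℝ × ℝ) × (ℝ × ℝ)))
      (by fun_prop) (fun p _ => mem_univ _))
  have mz : MapsTo (fun p : ℝ × ℝ => zz h x d p) SS (Str h D) := fun p hp => zz_mem hd hp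
  have cH := (H.cH hε).comp cz mz
  have cL := (H.cL hε).comp cz mz
  have rot := rot_zero (F := fun p => (Gr ε y y1 (zz h x d p)).re)
    (FA := fun p => ((d : ℂ) * HH ε y y1 y2 (zz h x d p)
      + conj (d : ℂ) * (LL ε y y1 (zz h x d p) : ℂ)).re)
    (FB := fun p => ((-(d : ℂ) * Complex.I) * HH ε y y1 y2 (zz h x d p)
      + conj (-(d : ℂ) * Complex.I) * (LL ε y y1 (zz h x d p) : ℂ)).re)
    (fun p hp => by
      have hz := zz_mem (x := x) (h := h) hd hp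
      have a0 : DifferentiableAt ℝ (fun p => y (zz h x d p)) p :=
        ((H.h0 _ hz).differentiableAt.restrictScalars ℝ).comp p (zz_diff h x d p)
      have a1 : DifferentiableAt ℝ (fun p => y1 (zz h x d p)) p :=
        ((H.h1 _ hz).differentiableAt.restrictScalars ℝ).comp p (zz_diff h x d p)
      have a2 : DifferentiableAt ℝ (fun p => conj (y (zz h x d p))) p :=
        (Complex.conjCLE : ℂ →L[ℝ] ℂ).differentiableAt.comp p a0
      have a3 : DifferentiableAt ℝ (fun p => NN ε y (zz h x d p)) p := by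
        unfold NN
        exact (a0.norm_sq ℝ).add_const _
      have a4 : DifferentiableAt ℝ (fun p => ((NN ε y (zz h x d p))⁻¹ : ℝ)) p :=
        a3.fun_inv (NN_pos hε y _).ne'
      have a5 : DifferentiableAt ℝ (fun p => (((NN ε y (zz h x d p))⁻¹ : ℝ) : ℂ)) p :=
        Complex.ofRealCLM.differentiableAt.comp p a4
      have a6 : DifferentiableAt ℝ (fun p => Gr ε y y1 (zz h x d p)) p := by
        have : (fun p => Gr ε y y1 (zz h x d p)) = fun p => conj (y (zz h x d p)) *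
            y1 (zz h x d p) * (((NN ε y (zz h x d p))⁻¹ : ℝ) : ℂ) := by
          funext p; unfold Gr; push_cast; rw [div_eq_mul_inv]
        rw [this]
        exact (a2.mul a1).mul a5
      exact Complex.reCLM.differentiableAt.comp p a6)
    (fun p hp => by
      have hz := zz_mem (x := x) (h := h) hd hp
      have := Gr_hd hε (γ := fun t => zz h x d (t, p.2)) (t := p.1) (H.h0 _ hz) (H.h1 _ hz)
        (zz_hA h x d p)
      exact Complex.reCLM.hasFDerivAt.comp_hasDerivAt p.1 this)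
    (fun p hp => by
      have hz := zz_mem (x := x) (h := h) hd hp
      have := Gr_hd hε (γ := fun t => zz h x d (p.1, t)) (t := p.2) (H.h0 _ hz) (H.h1 _ hz)
        (zz_hB h x d p)
      exact Complex.reCLM.hasFDerivAt.comp_hasDerivAt p.2 this)
    (Complex.continuous_re.comp_continuousOn ((continuousOn_const.mul cH).add
      (continuousOn_const.mul (Complex.continuous_ofReal.comp_continuousOn cL))))
    (Complex.continuous_re.comp_continuousOn ((continuousOn_const.mul cH).add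
      (continuousOn_const.mul (Complex.continuous_ofReal.comp_continuousOn cL))))
  unfold ubxx ubdd
  have i1 : IntegrableOn (fun p => ((HH ε y y1 y2 (zz h x d p)).re + LL ε y y1 (zz h x d p)) * KK p)
      SS := (point (cc_xx H hε) x hd).integrableOn_compact SS_compact
  have i2 : IntegrableOn (fun p => ((((p.1 : ℂ) - (p.2 : ℂ) * Complex.I) *
    HH ε y y1 y2 (zz h x d p)
    + conj ((p.1 : ℂ) - (p.2 : ℂ) * Complex.I) * (LL ε y y1 (zz h x d p) : ℂ))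
      * ((p.1 : ℂ) - (p.2 : ℂ) * Complex.I)).re * KK p)
      SS := (point (cc_dd H hε) x hd).integrableOn_compact SS_compact
  rw [← integral_add i1 i2]
  have e : ∫ p in SS, (2 * p.2^2 * LL ε y y1 (zz h x d p) * KK p) =
      ∫ p in SS, (((HH ε y y1 y2 (zz h x d p)).re + LL ε y y1 (zz h x d p)) * KK p +
      ((((p.1 : ℂ) - (p.2 : ℂ) * Complex.I) * HH ε y y1 y2 (zz h x d p)
    + conj ((p.1 : ℂ) - (p.2 : ℂ) * Complex.I) * (LL ε y y1 (zz h x d p) : ℂ))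
      * ((p.1 : ℂ) - (p.2 : ℂ) * Complex.I)).re * KK p) := by
    have r2 : ∫ p in SS, (1/d) * (((1 + p.1^2 - p.2^2) * ((d : ℂ) * HH ε y y1 y2 (zz h x d p)
      + conj (d : ℂ) * (LL ε y y1 (zz h x d p) : ℂ)).re + 2 * p.1 * p.2 *
      ((-(d : ℂ) * Complex.I) * HH ε y y1 y2 (zz h x d p)
      + conj (-(d : ℂ) * Complex.I) * (LL ε y y1 (zz h x d p) : ℂ)).re) * KK p) = 0 := by
      rw [integral_const_mul, rot, mul_zero]
    have i12 : IntegrableOn (fun p => ((HH ε y y1 y2 (zz h x d p)).re +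
        LL ε y y1 (zz h x d p)) * KK p +
      ((((p.1 : ℂ) - (p.2 : ℂ) * Complex.I) * HH ε y y1 y2 (zz h x d p)
    + conj ((p.1 : ℂ) - (p.2 : ℂ) * Complex.I) * (LL ε y y1 (zz h x d p) : ℂ))
      * ((p.1 : ℂ) - (p.2 : ℂ) * Complex.I)).re * KK p) SS := i1.add i2
    have i3 : IntegrableOn (fun p : ℝ × ℝ => 2 * p.2^2 * LL ε y y1 (zz h x d p) * KK p) SS := by
      have : ContinuousOn (fun p : ℝ × ℝ => 2 * p.2^2 * LL ε y y1 (zz h x d p) * KK p) SS := by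
        have p1 : ContinuousOn (fun p : ℝ × ℝ => 2 * p.2^2) SS := by fun_prop
        exact (p1.mul cL).mul KK_contOn
      exact this.integrableOn_compact SS_compact
    rw [← sub_eq_zero, ← neg_eq_zero, neg_sub, ← integral_sub i12 i3, ← r2]
    · refine setIntegral_congr_fun SS_compact.measurableSet (fun p _ => ?_)
      simp only [Complex.add_re, Complex.mul_re, Complex.sub_re, Complex.ofReal_re,
        Complex.ofReal_im, Complex.I_re, Complex.I_im, Complex.conj_re, Complex.conj_im,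
        Complex.sub_im, Complex.mul_im, Complex.neg_re, Complex.neg_im, Complex.add_im,
        Complex.conj_ofReal]
      field_simp
      ring
  rw [← e]
  refine setIntegral_nonneg SS_compact.measurableSet (fun p _ => ?_)
  have := LL_nonneg ε y y1 (zz h x d p)
  have := KK_nonneg p
  positivity

end

end Vale.Agent.P097.H140
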