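import Vale.Agent.P097.H140.Ubar

open MeasureTheory Set Filter Topology ComplexConjugate

namespace Vale.Agent.P097.H140

section
variable {h D : ℝ} {y y1 y2 : ℂ → ℂ} {ε : ℝ}

theorem ub_sm (H : Hol h D y y1 y2) (hε : 0 < ε)
    (hper : ∀ z ∈ Str h D, y (z + 1) = y z) :
    Sm (D/2) (ub h ε y) (ubx h ε y y1) (ubd h ε y y1) (ubxx h ε y y1 y2) (ubdd h ε y y1 y2) := by
  refine ⟨?_, ?_, ?_, ?_, ?_, ?_, ?_, ?_, ?_, ?_, ?_⟩
  · -- x derivative
    intro x d hd
    refine hasDerivAt_setInt (V := univ) SS_compact isOpen_univ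
      (f := fun t p => uu ε y (zz h t d p) * KK p)
      (f' := fun t p => (Gr ε y y1 (zz h t d p)).re * KK p)
      (fun t _ p hp => ?_) (line_x (cc_u H hε) hd) (line_x (cc_x H hε) hd) (mem_univ x)
    have := uu_hd hε (γ := fun t => zz h t d p) (t := t) (H.h0 _ (zz_mem hd hp)) (zz_hx h t d p)
    rw [mul_one] at this
    exact this.mul_const _
  · intro x d hd
    refine hasDerivAt_setInt (V := univ) SS_compact isOpen_univ
      (f := fun t p => (Gr ε y y1 (zz h t d p)).re * KK p)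
      (f' := fun t p => ((HH ε y y1 y2 (zz h t d p)).re + LL ε y y1 (zz h t d p)) * KK p)
      (fun t _ p hp => ?_) (line_x (cc_x H hε) hd) (line_x (cc_xx H hε) hd) (mem_univ x)
    have hz := zz_mem (x := t) (h := h) hd hp
    have h1 := Gr_hd hε (γ := fun t => zz h t d p) (t := t) (H.h0 _ hz) (H.h1 _ hz) (zz_hx h t d p)
    have h2 : HasDerivAt (fun t => (Gr ε y y1 (zz h t d p)).re)
        (1 * HH ε y y1 y2 (zz h t d p) + conj (1:ℂ) * (LL ε y y1 (zz h t d p) : ℂ)).re t :=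
      Complex.reCLM.hasFDerivAt.comp_hasDerivAt t h1
    have h3 := h2.mul_const (KK p)
    refine h3.congr_deriv ?_
    simp
  · intro x d hd
    refine hasDerivAt_setInt (V := Ioo 0 (D/2)) SS_compact isOpen_Ioo
      (f := fun t p => uu ε y (zz h x t p) * KK p)
      (f' := fun t p => (Gr ε y y1 (zz h x t p) * ((p.1 : ℂ) - (p.2 : ℂ) * Complex.I)).re * KK p)
      (fun t ht p hp => ?_) (line_d (cc_u H hε) x) (line_d (cc_d H hε) x) hd
    have := uu_hd hε (γ := fun t => zz h x t p) (t := t) (H.h0 _ (zz_mem ht hp)) (zz_hd h x t p)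
    exact this.mul_const _
  · intro x d hd
    refine hasDerivAt_setInt (V := Ioo 0 (D/2)) SS_compact isOpen_Ioo
      (f := fun t p => (Gr ε y y1 (zz h x t p) * ((p.1 : ℂ) - (p.2 : ℂ) * Complex.I)).re * KK p)
      (f' := fun t p => ((((p.1 : ℂ) - (p.2 : ℂ) * Complex.I) * HH ε y y1 y2 (zz h x t p)
    + conj ((p.1 : ℂ) - (p.2 : ℂ) * Complex.I) * (LL ε y y1 (zz h x t p) : ℂ))
      * ((p.1 : ℂ) - (p.2 : ℂ) * Complex.I)).re * KK p)
      (fun t ht p hp => ?_) (line_d (cc_d H hε) x) (line_d (cc_dd H hε) x) hd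
    have hz := zz_mem (x := x) (h := h) ht hp
    have h1 := (Gr_hd hε (γ := fun t => zz h x t p) (t := t) (H.h0 _ hz) (H.h1 _ hz)
      (zz_hd h x t p)).mul_const ((p.1 : ℂ) - (p.2 : ℂ) * Complex.I)
    have h2 := Complex.reCLM.hasFDerivAt.comp_hasDerivAt t h1
    exact h2.mul_const (KK p)
  · exact contOn_setInt (f := fun (x : ℝ × ℝ) p => uu ε y (zz h x.1 x.2 p) * KK p)
      SS_compact Uopen (cc_u H hε)
  · exact contOn_setInt (f := fun (x : ℝ × ℝ) p => (Gr ε y y1 (zz h x.1 x.2 p)).re * KK p)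
      SS_compact Uopen (cc_x H hε)
  · exact contOn_setInt (f := fun (x : ℝ × ℝ) p =>
      (Gr ε y y1 (zz h x.1 x.2 p) * ((p.1 : ℂ) - (p.2 : ℂ) * Complex.I)).re * KK p)
      SS_compact Uopen (cc_d H hε)
  · exact contOn_setInt (f := fun (x : ℝ × ℝ) p =>
      ((HH ε y y1 y2 (zz h x.1 x.2 p)).re + LL ε y y1 (zz h x.1 x.2 p)) * KK p)
      SS_compact Uopen (cc_xx H hε)
  · exact contOn_setInt (f := fun (x : ℝ × ℝ) p =>
      ((((p.1 : ℂ) - (p.2 : ℂ) * Complex.I) * HH ε y y1 y2 (zz h x.1 x.2 p)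
    + conj ((p.1 : ℂ) - (p.2 : ℂ) * Complex.I) * (LL ε y y1 (zz h x.1 x.2 p) : ℂ))
      * ((p.1 : ℂ) - (p.2 : ℂ) * Complex.I)).re * KK p)
      SS_compact Uopen (cc_dd H hε)
  · intro x d hd
    unfold ub
    refine setIntegral_congr_fun SS_compact.measurableSet (fun p hp => ?_)
    have e : zz h (x+1) d p = zz h x d p + 1 := by
      apply Complex.ext <;> simp [zz]
      ring
    have : uu ε y (zz h (x+1) d p) = uu ε y (zz h x d p) := by
      unfold uu NN
      rw [e, hper _ (zz_mem hd hp)]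
    simp only [this]
  · intro x d hd
    exact ub_sub H hε x hd

/-- bound for the kernel weights -/
theorem kern_bd : ∃ c : ℝ, 0 ≤ c ∧ (∀ p ∈ SS, |KA p| ≤ c) ∧
    (∀ p ∈ SS, |2 * KK p + p.1 * KA p + p.2 * KB p| ≤ c) ∧ (∀ p ∈ SS, |KK p| ≤ c) := by
  obtain ⟨c1, h1⟩ := SS_compact.exists_bound_of_continuousOn KA_contOn
  have c2' : ContinuousOn (fun p : ℝ × ℝ => 2 * KK p + p.1 * KA p + p.2 * KB p) SS := by
    have p1 : ContinuousOn (fun p : ℝ × ℝ => p.1) SS := by fun_prop
    have p2 : ContinuousOn (fun p : ℝ × ℝ => p.2) SS := by fun_prop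
    exact ((continuousOn_const.mul KK_contOn).add (p1.mul KA_contOn)).add (p2.mul KB_contOn)
  obtain ⟨c2, h2⟩ := SS_compact.exists_bound_of_continuousOn c2'
  obtain ⟨c3, h3⟩ := SS_compact.exists_bound_of_continuousOn KK_contOn
  refine ⟨max (max c1 c2) (max c3 0), ?_, ?_, ?_, ?_⟩
  · exact le_max_of_le_right (le_max_right _ _)
  · exact fun p hp => (h1 p hp).trans (le_max_of_le_left (le_max_left _ _))
  · exact fun p hp => (h2 p hp).trans (le_max_of_le_left (le_max_right _ _))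
  · exact fun p hp => (h3 p hp).trans (le_max_of_le_right (le_max_left _ _))

noncomputable def cK : ℝ := kern_bd.choose
lemma cK_nonneg : 0 ≤ cK := kern_bd.choose_spec.1
lemma cK_A : ∀ p ∈ SS, |KA p| ≤ cK := kern_bd.choose_spec.2.1
lemma cK_B : ∀ p ∈ SS, |2 * KK p + p.1 * KA p + p.2 * KB p| ≤ cK := kern_bd.choose_spec.2.2.1
lemma cK_K : ∀ p ∈ SS, |KK p| ≤ cK := kern_bd.choose_spec.2.2.2

lemma czz (x d : ℝ) : ContinuousOn (fun p : ℝ × ℝ => zz h x d p) SS := by
  have := (zz_cont h).continuousOn (s := univ)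
  exact (this.comp (f := fun p : ℝ × ℝ => (((x, d), p) : (ℝ × ℝ) × (ℝ × ℝ)))
    (by fun_prop) (fun p _ => mem_univ _))

lemma uzz_cont (H : Hol h D y y1 y2) (hε : 0 < ε) (x : ℝ) {d : ℝ} (hd : d ∈ Ioo 0 (D/2)) :
    ContinuousOn (fun p : ℝ × ℝ => uu ε y (zz h x d p)) SS :=
  (H.cu hε).comp (czz x d) (fun _ hp => zz_mem hd hp)

/-- gradient bound by the defect from a majorant -/
theorem grad_bd (H : Hol h D y y1 y2) (hε : 0 < ε) (x : ℝ) {d : ℝ} (hd : d ∈ Ioo 0 (D/2))
    {M : ℝ} (hM : ∀ p ∈ SS, uu ε y (zz h x d p) ≤ M) :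
    |ubx h ε y y1 x d| ≤ cK / d * ∫ p in SS, (M - uu ε y (zz h x d p)) ∧
    |ubd h ε y y1 x d| ≤ cK / d * ∫ p in SS, (M - uu ε y (zz h x d p)) := by
  have hd0 : (d : ℝ) ≠ 0 := hd.1.ne'
  have cu := uzz_cont H hε x hd
  have cG : ContinuousOn (fun p : ℝ × ℝ => Gr ε y y1 (zz h x d p)) SS :=
    (H.cG hε).comp (czz x d) (fun _ hp => zz_mem hd hp)
  have hF : ∀ p ∈ SS, DifferentiableAt ℝ (fun p => uu ε y (zz h x d p) - M) p := by
    intro p hp
    have hz := zz_mem (x := x) (h := h) hd hp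
    have a0 : DifferentiableAt ℝ (fun p => y (zz h x d p)) p :=
      ((H.h0 _ hz).differentiableAt.restrictScalars ℝ).comp p (zz_diff h x d p)
    have a3 : DifferentiableAt ℝ (fun p => NN ε y (zz h x d p)) p := by
      unfold NN
      exact (a0.norm_sq ℝ).add_const _
    have a4 : DifferentiableAt ℝ (fun p => uu ε y (zz h x d p)) p := by
      unfold uu
      exact (a3.log (NN_pos hε y _).ne').const_mul _
    exact a4.sub_const _
  have hA : ∀ p ∈ SS, HasDerivAt (fun t => uu ε y (zz h x d (t, p.2)) - M)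
      (d * (Gr ε y y1 (zz h x d p)).re) p.1 := by
    intro p hp
    have hz := zz_mem (x := x) (h := h) hd hp
    have := (uu_hd hε (γ := fun t => zz h x d (t, p.2)) (t := p.1) (H.h0 _ hz)
      (zz_hA h x d p)).sub_const M
    refine this.congr_deriv ?_
    simp [mul_comm]
  have hB : ∀ p ∈ SS, HasDerivAt (fun t => uu ε y (zz h x d (p.1, t)) - M)
      (d * (Gr ε y y1 (zz h x d p)).im) p.2 := by
    intro p hp
    have hz := zz_mem (x := x) (h := h) hd hp
    have := (uu_hd hε (γ := fun t => zz h x d (p.1, t)) (t := p.2) (H.h0 _ hz)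
      (zz_hB h x d p)).sub_const M
    refine this.congr_deriv ?_
    simp [mul_comm]
  have cA : ContinuousOn (fun p : ℝ × ℝ => d * (Gr ε y y1 (zz h x d p)).re) SS :=
    continuousOn_const.mul (Complex.continuous_re.comp_continuousOn cG)
  have cB : ContinuousOn (fun p : ℝ × ℝ => d * (Gr ε y y1 (zz h x d p)).im) SS :=
    continuousOn_const.mul (Complex.continuous_im.comp_continuousOn cG)
  have g1 := gradx_id hF hA cA
  have g2 := gradd_id hF hA hB cA cB
  -- general bound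
  have gen : ∀ W : ℝ × ℝ → ℝ, ContinuousOn W SS → (∀ p ∈ SS, |W p| ≤ cK) →
      |∫ p in SS, (uu ε y (zz h x d p) - M) * W p| ≤ cK * ∫ p in SS, (M - uu ε y (zz h x d p)) := by
    intro W hW hWb
    have h1 : |∫ p in SS, (uu ε y (zz h x d p) - M) * W p|
        ≤ ∫ p in SS, |(uu ε y (zz h x d p) - M) * W p| := abs_integral_le_integral_abs
    refine h1.trans ?_
    rw [← integral_const_mul]
    refine setIntegral_mono_on ?_ ?_ SS_compact.measurableSet (fun p hp => ?_)
    · exact (((cu.sub continuousOn_const).mul hW).abs).integrableOn_compact SS_compact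
    · exact (continuousOn_const.mul (continuousOn_const.sub cu)).integrableOn_compact SS_compact
    · rw [abs_mul]
      have e1 : |uu ε y (zz h x d p) - M| = M - uu ε y (zz h x d p) := by
        rw [abs_sub_comm]; exact abs_of_nonneg (by linarith [hM p hp])
      rw [e1, mul_comm]
      exact mul_le_mul_of_nonneg_right (hWb p hp) (by linarith [hM p hp])
  have c2' : ContinuousOn (fun p : ℝ × ℝ => 2 * KK p + p.1 * KA p + p.2 * KB p) SS := by
    have p1 : ContinuousOn (fun p : ℝ × ℝ => p.1) SS := by fun_prop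
    have p2 : ContinuousOn (fun p : ℝ × ℝ => p.2) SS := by fun_prop
    exact ((continuousOn_const.mul KK_contOn).add (p1.mul KA_contOn)).add (p2.mul KB_contOn)
  have k1 := gen _ KA_contOn cK_A
  have k2 := gen _ c2' cK_B
  have e1 : ubx h ε y y1 x d = -(1/d) * ∫ p in SS, (uu ε y (zz h x d p) - M) * KA p := by
    unfold ubx
    have : ∫ p in SS, (Gr ε y y1 (zz h x d p)).re * KK p
        = (1/d) * ∫ p in SS, d * (Gr ε y y1 (zz h x d p)).re * KK p := by
      rw [← integral_const_mul]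
      refine setIntegral_congr_fun SS_compact.measurableSet (fun p _ => ?_)
      field_simp
    rw [this, g1]; ring
  have e2 : ubd h ε y y1 x d
      = -(1/d) * ∫ p in SS, (uu ε y (zz h x d p) - M) * (2 * KK p + p.1 * KA p + p.2 * KB p) := by
    unfold ubd
    have : ∫ p in SS, (Gr ε y y1 (zz h x d p) * ((p.1 : ℂ) - (p.2 : ℂ) * Complex.I)).re * KK p
        = (1/d) * ∫ p in SS, (p.1 * (d * (Gr ε y y1 (zz h x d p)).re)
          + p.2 * (d * (Gr ε y y1 (zz h x d p)).im)) * KK p := by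
      rw [← integral_const_mul]
      refine setIntegral_congr_fun SS_compact.measurableSet (fun p _ => ?_)
      simp only [Complex.mul_re, Complex.sub_re, Complex.sub_im, Complex.ofReal_re,
        Complex.ofReal_im, Complex.I_re, Complex.I_im, Complex.mul_im]
      field_simp
      ring
    rw [this, g2]; ring
  have hdp : 0 < 1/d := by have := hd.1; positivity
  constructor
  · rw [e1, abs_mul, abs_neg, abs_of_pos hdp]
    calc 1/d * |∫ p in SS, (uu ε y (zz h x d p) - M) * KA p|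
        ≤ 1/d * (cK * ∫ p in SS, (M - uu ε y (zz h x d p))) := by gcongr
      _ = _ := by ring
  · rw [e2, abs_mul, abs_neg, abs_of_pos hdp]
    calc 1/d * |∫ p in SS, (uu ε y (zz h x d p) - M) * (2 * KK p + p.1 * KA p + p.2 * KB p)|
        ≤ 1/d * (cK * ∫ p in SS, (M - uu ε y (zz h x d p))) := by gcongr
      _ = _ := by ring

end

end Vale.Agent.P097.H140
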